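import Vale.Agent.P290.Aff

/-!
P290 Acc. Helper lemma names start with acc_.
V_ne: from RegP take a, w; det2 (a x) (md a x w) ≠ 0 (else md a x w is a multiple of a x ≠ 0); e = c • a x, the lift c • a has value e and
form gives σ (V x e) w = c ^ 2 * det2 ≠ 0. access: by contradiction, for all s, i there is e' with σ (V j y e) (V i y e') = 0, y = γ s,
γ = Φ j x e. With a lift a of π i at y, a y = e': det2 (a y) (md a y (V j y e)) = 0 (form, antisymmetry), and this passes to every lift at y
(V i y (c • e') = c ^ 2 • V i y e' by form and sig_inj). So for c with a y c ≠ 0, aff (π i) c ∘ γ has derivative zero near s (aff_md,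
Sol.deriv_comp), π i ∘ γ is locally constant (aff_inj), constant (`IsLocallyConstant`), γ maps into a finite set, γ continuous on the
connected ℂ is constant (`IsPreconnected.subsingleton` of the finite range, or `Set.Finite.isDiscrete`), so its derivative V j x e is 0.
-/

namespace Vale.Agent.P290

open scoped Manifold ContDiff Topology LinearAlgebra.Projectivization
open Set Filter Metric Function

noncomputable section

variable {X : Type*} [MetricSpace X] [ChartedSpace C2 X] [IsManifold 𝓘(ℂ, C2) ω X]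

omit [IsManifold 𝓘(ℂ, C2) ω X] in
theorem acc_on {π : X → P1} {a : X → C2} {x : X} (ha : IsLift π a x) : On (π x) (a x) :=
  ha.self_of_nhds.2

omit [IsManifold 𝓘(ℂ, C2) ω X] in
theorem acc_form {σ : TwoForm X} {π : X → P1} (F : Fl σ π) {a : X → C2} {x : X}
    (ha : IsLift π a x) {c : ℂ} (hc : c ≠ 0) (w : C2) :
    σ.σ x (F.V x (c • a x)) w = c ^ 2 * det2 (a x) (md C2 C2 a x w) := by
  have h1 : IsLift π (c • a) x := by
    filter_upwards [ha] with y hy
    exact ⟨hy.1.const_smul c, On.smul hy.2 hc⟩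
  have h2 : md C2 C2 (c • a) x = c • md C2 C2 a x :=
    (ha.self_of_nhds.1.hasMFDerivAt.const_smul c).mfderiv
  have h3 := F.form h1 w
  rw [h2] at h3
  refine h3.trans ?_
  simp only [det2, Pi.smul_apply, ContinuousLinearMap.smul_apply, smul_eq_mul]
  ring

omit [IsManifold 𝓘(ℂ, C2) ω X] in
theorem Fl.V_smul {σ : TwoForm X} {π : X → P1} (hπ : HolP π) (F : Fl σ π) {x : X} {e : C2}
    (he : On (π x) e) {c : ℂ} (hc : c ≠ 0) : F.V x (c • e) = c ^ 2 • F.V x e := by
  obtain ⟨a, ha⟩ := hπ x
  obtain ⟨d, hd, rfl⟩ := he.exists_smul (acc_on ha)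
  refine sig_inj σ (x := x) fun w => ?_
  rw [smul_smul, acc_form F ha (mul_ne_zero hc hd), map_smul, ContinuousLinearMap.smul_apply,
    acc_form F ha hd, smul_eq_mul]
  ring

omit [IsManifold 𝓘(ℂ, C2) ω X] in
theorem Fl.V_ne {σ : TwoForm X} {π : X → P1} (hπ : HolP π) (F : Fl σ π) {x : X}
    (hr : RegP π x) {e : C2} (he : On (π x) e) : F.V x e ≠ 0 := by
  obtain ⟨a, ha, w, hw⟩ := hr
  obtain ⟨d, hd, rfl⟩ := he.exists_smul (acc_on ha)
  intro h0
  have h1 := acc_form F ha hd w
  rw [h0, map_zero, ContinuousLinearMap.zero_apply] at h1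
  have h2 : det2 (a x) (md C2 C2 a x w) = 0 :=
    (mul_eq_zero.1 h1.symm).resolve_left (pow_ne_zero 2 hd)
  by_cases h3 : md C2 C2 a x w = 0
  · exact hw 0 (h3.trans (zero_smul ℂ (a x)).symm)
  · obtain ⟨c, -, hc⟩ := ((acc_on ha).of_det h3 h2).exists_smul (acc_on ha)
    exact hw c hc

end

end Vale.Agent.P290
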