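import Vale.Agent.P290.Acc

/-!
P290 AccB (second part of Acc; the plan covers both parts). Helper lemma names start with accb_.
V_ne: from RegP take a, w; det2 (a x) (md a x w) ≠ 0 (else md a x w is a multiple of a x ≠ 0); e = c • a x, the lift c • a has value e and
form gives σ (V x e) w = c ^ 2 * det2 ≠ 0. access: by contradiction, for all s, i there is e' with σ (V j y e) (V i y e') = 0, y = γ s,
γ = Φ j x e. With a lift a of π i at y, a y = e': det2 (a y) (md a y (V j y e)) = 0 (form, antisymmetry), and this passes to every lift at y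
(V i y (c • e') = c ^ 2 • V i y e' by form and sig_inj). So for c with a y c ≠ 0, aff (π i) c ∘ γ has derivative zero near s (aff_md,
Sol.deriv_comp), π i ∘ γ is locally constant (aff_inj), constant (`IsLocallyConstant`), γ maps into a finite set, γ continuous on the
connected ℂ is constant (`IsPreconnected.subsingleton` of the finite range, or `Set.Finite.isDiscrete`), so its derivative V j x e is 0.
-/

namespace Vale.Agent.P290

open scoped Manifold ContDiff Topology LinearAlgebra.Projectivization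
open Set Filter Metric Function

noncomputable section

variable {X : Type*} [MetricSpace X] [ChartedSpace C2 X] [IsManifold 𝓘(ℂ, C2) ω X]

theorem accb_md {σ : TwoForm X} {π : X → P1} (hπ : HolP π) (F : Fl σ π) {y : X} {e' w : C2}
    (he : On (π y) e') (h : σ.σ y w (F.V y e') = 0) {c : Fin 2} (hc : (π y).rep c ≠ 0) :
    md C2 ℂ (aff π c) y w = 0 := by
  obtain ⟨a, ha, rfl⟩ := hπ.lift_at he
  obtain ⟨t, ht, e⟩ := he.exists_smul (on_rep _)
  have h1 : a y c ≠ 0 := by
    rw [e]
    exact mul_ne_zero ht hc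
  have h2 : σ.σ y (F.V y (a y)) w = 0 := by
    rw [sig_eq] at h ⊢
    rw [← neg_eq_zero, ← h]
    unfold det2
    ring
  have h3 := aff_md ha h1 w
  rw [← F.form ha, h2] at h3
  exact (mul_eq_zero.1 h3).resolve_left (pow_ne_zero 2 h1)

theorem accb_const {π : X → P1} (hπ : HolP π) {H : X → C2} {γ : ℂ → X} (hγ : ∀ s, Sol H γ s)
    (h : ∀ s c, (π (γ s)).rep c ≠ 0 → md C2 ℂ (aff π c) (γ s) (H (γ s)) = 0) (s : ℂ) :
    π (γ s) = π (γ 0) := by
  have hc : Continuous γ := continuous_iff_continuousAt.2 fun s => (hγ s).continuousAt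
  refine IsLocallyConstant.apply_eq_of_preconnectedSpace (f := fun s => π (γ s))
    ((IsLocallyConstant.iff_eventually_eq _).2 fun s₀ => ?_) s 0
  obtain ⟨c, h0⟩ := Function.ne_iff.1 (π (γ s₀)).rep_nonzero
  obtain ⟨r, hr, hb⟩ := Metric.isOpen_iff.1 ((aff_open hπ c).preimage hc) s₀ h0
  have hd : ∀ s ∈ ball s₀ r, HasDerivAt (aff π c ∘ γ) 0 s := fun s hs =>
    h s c (hb hs) ▸ (hγ s).deriv_comp (aff_hol hπ c (hb hs))
  filter_upwards [ball_mem_nhds s₀ hr] with s hs
  exact aff_inj c (hb hs) h0 (isOpen_ball.is_const_of_deriv_eq_zero (convex_ball s₀ r).isPreconnected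
    (fun t ht => (hd t ht).differentiableAt.differentiableWithinAt) (fun t ht => (hd t ht).deriv)
    hs (mem_ball_self hr))

theorem access {σ : TwoForm X} {k : ℕ} {π : Fin k → X → P1} (hπ : ∀ j, HolP (π j))
    (F : ∀ j, Fl σ (π j)) {x : X} (hfin : {y | ∀ j, π j y = π j x}.Finite) {j : Fin k}
    (hr : RegP (π j) x) {e : C2} (he : On (π j x) e) :
    ∃ (s : ℂ) (i : Fin k), ∀ e', On (π i ((F j).Φ x e s)) e' →
      σ.σ ((F j).Φ x e s) ((F j).V ((F j).Φ x e s) e) ((F i).V ((F j).Φ x e s) e') ≠ 0 := by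
  by_contra hn
  push Not at hn
  have hγ : ∀ s, Sol (fun y => (F j).V y e) ((F j).Φ x e) s := fun s => (F j).sol s he
  have hc : Continuous ((F j).Φ x e) :=
    continuous_iff_continuousAt.2 fun s => (hγ s).continuousAt
  have h0 := (F j).zero he
  have h1 : range ((F j).Φ x e) ⊆ {y | ∀ j, π j y = π j x} := by
    rintro _ ⟨s, rfl⟩ i
    refine (accb_const (hπ i) hγ (fun s c hc => ?_) s).trans (by rw [h0])
    obtain ⟨e', h1, h2⟩ := hn s i
    exact accb_md (hπ i) (F i) h1 h2 hc
  have h2 := hfin.countable.isTotallyDisconnected _ h1 (isPreconnected_range hc)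
  have h3 : (F j).Φ x e = fun _ => x := funext fun s => (h2 ⟨s, rfl⟩ ⟨0, rfl⟩).trans h0
  have h4 := hγ 0
  rw [h3] at h4
  have h5 := (h4.deriv_comp (chart_hol (chart_mem_atlas C2 x) (mem_chart_source C2 x))).unique
    (hasDerivAt_const (0 : ℂ) (chartAt C2 x x))
  refine (F j).V_ne (hπ j) hr he ?_
  rw [← md_symm_md (chart_mem_atlas C2 x) (mem_chart_source C2 x) ((F j).V x e), h5, map_zero]

end

end Vale.Agent.P290
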