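import Vale.Agent.P290.Ham

/-!
P290 Aff (second part of Ham; the plan covers both parts). Helper lemma names start with aff_.
ham_eq: sig_eq, w = w 0 • e0 + w 1 • e1. sig_inj: test with e0, e1. ham_vf: for y near φ x, with g = f ∘ φ.symm, the pushed field is
(rho σ φ y)⁻¹ • ![fderiv g y e1, - fderiv g y e0]: both vectors u satisfy rho * det2 u w = fderiv g y w for all w (sig_chart, fun_chart,
md_md_symm). Analytic by `AnalyticAt.fderiv`, rho_an, `analyticAt_pi_iff`.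
aff lemmas: near x, aff π c = a 1 / a 0 resp. - a 0 / a 1 for a lift a (On.exists_smul with on_rep). aff_compact: the set is
{x | ‖rep (1 - c)‖ ≤ ρ ‖rep c‖} minus nothing (rep ≠ 0); its complement is open (use a lift, scaling invariance); closed in compact X.
aff_md: quotient rule in a chart (fun_chart) or with `HasMFDerivAt`.
-/

namespace Vale.Agent.P290

open scoped Manifold ContDiff Topology LinearAlgebra.Projectivization
open Set Filter Metric Function

noncomputable section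

variable {X : Type*} [MetricSpace X] [ChartedSpace C2 X] [IsManifold 𝓘(ℂ, C2) ω X]
variable {π : X → P1}

/-- The affine coordinate of a vector. -/
def aff_G (c : Fin 2) (v : C2) : ℂ := ![v 1 / v 0, -v 0 / v 1] c

theorem aff_on {p : P1} {a : C2} (h : On p a) (c : Fin 2) :
    (p.rep c ≠ 0 ↔ a c ≠ 0) ∧ aff_G c p.rep = aff_G c a := by
  obtain ⟨t, ht, e⟩ := (on_rep p).exists_smul h
  rw [e]
  refine ⟨by simp [ht], ?_⟩
  fin_cases c
  · simp [aff_G, mul_div_mul_left _ _ ht]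
  · simp [aff_G, neg_div, mul_div_mul_left _ _ ht]

theorem aff_der (c : Fin 2) {v : C2} (h : v c ≠ 0) : AnalyticAt ℂ (aff_G c) v ∧
    ∀ u, v c ^ 2 * fderiv ℂ (aff_G c) v u = det2 v u := by
  have p : ∀ i : Fin 2, HasFDerivAt (fun w : C2 => w i)
      (ContinuousLinearMap.proj i : C2 →L[ℂ] ℂ) v := fun i => hasFDerivAt_apply i v
  have q : ∀ i : Fin 2, AnalyticAt ℂ (fun w : C2 => w i) v := fun i =>
    (ContinuousLinearMap.proj i : C2 →L[ℂ] ℂ).analyticAt v
  fin_cases c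
  · have h : v 0 ≠ 0 := h
    have e : aff_G 0 = fun w : C2 => w 1 * (w 0)⁻¹ := by
      funext w
      simp [aff_G, div_eq_mul_inv]
    refine ⟨(q 1).div (q 0) h, fun u => ?_⟩
    show v 0 ^ 2 * fderiv ℂ (aff_G 0) v u = _
    have d : HasFDerivAt (fun w : C2 => w 1 * (w 0)⁻¹) _ v :=
      (p 1).mul ((hasFDerivAt_inv h).comp v (p 0))
    rw [e, d.fderiv]
    simp [det2]
    field_simp
    ring
  · have h : v 1 ≠ 0 := h
    have e : aff_G 1 = fun w : C2 => -w 0 * (w 1)⁻¹ := by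
      funext w
      simp [aff_G, div_eq_mul_inv]
    refine ⟨(q 0).neg.div (q 1) h, fun u => ?_⟩
    show v 1 ^ 2 * fderiv ℂ (aff_G 1) v u = _
    have d : HasFDerivAt (fun w : C2 => -w 0 * (w 1)⁻¹) _ v :=
      (p 0).neg.mul ((hasFDerivAt_inv h).comp v (p 1))
    rw [e, d.fderiv]
    simp [det2]
    field_simp
    ring

theorem aff_le {v : C2} (hv : v ≠ 0) (c : Fin 2) (ρ : ℝ) :
    (v c ≠ 0 ∧ ‖aff_G c v‖ ≤ ρ) ↔ ‖v c.rev‖ ≤ ρ * ‖v c‖ := by
  have e : ‖aff_G c v‖ = ‖v c.rev‖ / ‖v c‖ := by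
    fin_cases c <;> simp [aff_G]
  rw [e]
  refine ⟨fun h => (div_le_iff₀ (norm_pos_iff.2 h.1)).1 h.2, fun h => ?_⟩
  have h0 : v c ≠ 0 := by
    intro h0
    rw [h0, norm_zero, mul_zero, norm_le_zero_iff] at h
    refine hv (funext fun i => ?_)
    fin_cases c <;> fin_cases i <;> first | exact h0 | exact h
  exact ⟨h0, (div_le_iff₀ (norm_pos_iff.2 h0)).2 h⟩

omit [IsManifold 𝓘(ℂ, C2) ω X] in
theorem aff_ev {a : X → C2} {x : X} (ha : IsLift π a x) (c : Fin 2) :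
    aff π c =ᶠ[𝓝 x] aff_G c ∘ a := by
  filter_upwards [ha.on] with y hy
  exact (aff_on hy c).2

omit [IsManifold 𝓘(ℂ, C2) ω X] in
theorem aff_cont {a : X → C2} {x : X} (ha : IsLift π a x) (c : Fin 2) :
    ContinuousAt (fun y => a y c) x :=
  (continuous_apply c).continuousAt.comp ha.self_of_nhds.1.continuousAt

omit [IsManifold 𝓘(ℂ, C2) ω X] in
theorem aff_open (hπ : HolP π) (c : Fin 2) : IsOpen {x | (π x).rep c ≠ 0} := by
  refine isOpen_iff_mem_nhds.2 fun x hx => ?_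
  obtain ⟨a, ha⟩ := hπ x
  have h0 := (aff_on ha.on.self_of_nhds c).1.1 hx
  filter_upwards [ha.on, (aff_cont ha c).eventually_ne h0] with y h1 h2
  exact (aff_on h1 c).1.2 h2

theorem aff_hol (hπ : HolP π) (c : Fin 2) {x : X} (hx : (π x).rep c ≠ 0) :
    Hol C2 ℂ (aff π c) x := by
  obtain ⟨a, ha⟩ := hπ x
  have h0 := (aff_on ha.on.self_of_nhds c).1.1 hx
  exact ContMDiffAt.congr_of_eventuallyEq
    (ContMDiffAt.comp x (hol_iff.2 (aff_der c h0).1) ha.hol) (aff_ev ha c)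

omit [IsManifold 𝓘(ℂ, C2) ω X] in
theorem aff_compact [CompactSpace X] (hπ : HolP π) (c : Fin 2) (ρ : ℝ) :
    IsCompact {x ∈ {x | (π x).rep c ≠ 0} | ‖aff π c x‖ ≤ ρ} := by
  have key : ∀ {a : C2} {y : X}, On (π y) a →
      (y ∈ {x ∈ {x | (π x).rep c ≠ 0} | ‖aff π c x‖ ≤ ρ} ↔ ‖a c.rev‖ ≤ ρ * ‖a c‖) := by
    intro a y h
    rw [← aff_le h.ne, ← (aff_on h c).1, ← (aff_on h c).2]
    rfl
  refine IsClosed.isCompact (isOpen_compl_iff.1 (isOpen_iff_mem_nhds.2 fun x hx => ?_))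
  obtain ⟨a, ha⟩ := hπ x
  have h0 : ρ * ‖a x c‖ < ‖a x c.rev‖ := not_le.1 fun h => hx ((key ha.on.self_of_nhds).2 h)
  filter_upwards [ha.on, ((aff_cont ha c).norm.const_mul ρ).eventually_lt
    (aff_cont ha c.rev).norm h0] with y h1 h2
  exact fun h => not_le.2 h2 ((key h1).1 h)

omit [ChartedSpace C2 X] [IsManifold 𝓘(ℂ, C2) ω X] in
theorem aff_inj (c : Fin 2) {x y : X} (hx : (π x).rep c ≠ 0) (hy : (π y).rep c ≠ 0)
    (h : aff π c x = aff π c y) : π x = π y := by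
  refine On.eq ((on_rep (π x)).of_det (on_rep (π y)).ne ?_) (on_rep _)
  fin_cases c
  · have h : (π x).rep 1 * (π y).rep 0 = (π y).rep 1 * (π x).rep 0 := (div_eq_div_iff hx hy).1 h
    rw [det2]
    linear_combination -h
  · have h : -(π x).rep 0 * (π y).rep 1 = -(π y).rep 0 * (π x).rep 1 := (div_eq_div_iff hx hy).1 h
    rw [det2]
    linear_combination -h

theorem aff_md {a : X → C2} {x : X} (ha : IsLift π a x) {c : Fin 2} (hc : a x c ≠ 0) (w : C2) :
    a x c ^ 2 * md C2 ℂ (aff π c) x w = det2 (a x) (md C2 C2 a x w) := by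
  obtain ⟨h1, h2⟩ := aff_der c hc
  have h3 := ((h1.differentiableAt.hasFDerivAt.hasMFDerivAt.comp x
    ha.self_of_nhds.1.hasMFDerivAt).congr_of_eventuallyEq (aff_ev ha c)).mfderiv
  rw [← h2, md, h3]
  rfl

end

end Vale.Agent.P290
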