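import Vale.Agent.P290.Step

/-!
P290 Basic. Helper lemma names start with basic_.
α from exists_alpha, M (z, x, t) = Φ x (nrm π (α z) x) (s + t). hol: nrm_hol, Fl.hol_comp. sur: with u x = Φ x (nrm π (α z) x) s and
w y = Φ y (nrm π (α z) y) (-s), w ∘ u = id near f z (nrm depends only on π x: Fl.fib; Fl.add, Fl.zero), so md u is injective
(`mfderiv_comp`, `Filter.EventuallyEq.mfderiv_eq`, `mfderiv_id`), hence surjective (`LinearMap.injective_iff_surjective`). pres: tube gives δ with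
α z ⬝ᵥ rep (π x) ≠ 0; z ↦ nrm π (α z) (h z) is a LiftOn of π ∘ h (nrm_hol, hol_iff, `eventually_nhdsSet_iff_forall`); step with s + τ.
Direction: Fl.sol, Sol.shift, `HasMFDerivAt.mfderiv`, evaluate at 1. For s = 0, u = id near f z.
-/

namespace Vale.Agent.P290

open scoped Manifold ContDiff Topology LinearAlgebra.Projectivization
open Set Filter Metric Function

noncomputable section

variable {X : Type*} [MetricSpace X] [ChartedSpace C2 X] [IsManifold 𝓘(ℂ, C2) ω X]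
  {ι : Type} [Fintype ι]

theorem basic_hol {A G N : Type*} [NormedAddCommGroup A] [NormedSpace ℂ A] [TopologicalSpace G]
    {I : ModelWithCorners ℂ A G} [TopologicalSpace N] [ChartedSpace G N] {p : N}
    {σ : TwoForm X} {π : X → P1} (hπ : HolP π) (F : Fl σ π) {α : N → C2} {g : N → X} {τ : N → ℂ}
    (hα : ContMDiffAt I 𝓘(ℂ, C2) ω α p) (hg : ContMDiffAt I 𝓘(ℂ, C2) ω g p)
    (hτ : ContMDiffAt I 𝓘(ℂ, ℂ) ω τ p) (h : α p ⬝ᵥ (π (g p)).rep ≠ 0) :
    ContMDiffAt I 𝓘(ℂ, C2) ω (fun q => F.Φ (g q) (nrm π (α q) (g q)) (τ q)) p :=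
  F.hol_comp hg (nrm_hol hπ hα hg h).1 hτ
    ((nrm_hol hπ hα hg h).2.mono fun _ hq => (nrm_eq (on_rep _) hq).2)

theorem basic {σ : TwoForm X} {π : X → P1} (hπ : HolP π) (F : Fl σ π) {K Q : Set (Cn ι)}
    (hK : IsCompact K) (hc : Convex ℝ K) (hQ : IsCompact Q) (hcQ : Convex ℝ Q) (hKQ : K ⊆ Q)
    {f : Cn ι → X} (hf : HolOn f K) {a : Cn ι → C2} (ha : LiftOn (fun z => π (f z)) a K) (s : ℂ) :
    ∃ M : Cn ι × X × ℂ → X, Tr K Q f (fun z => F.Φ (f z) (a z) s) M ∧ ∀ z ∈ K,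
      F.V (F.Φ (f z) (a z) s) (a z) ∈ Rg f M z ∧
        (s = 0 → ∀ v, md C2 C2 (fun x => M (z, x, 0)) (f z) v = v) := by
  obtain ⟨α, hα, h1⟩ := exists_alpha hK hc ha
  have h2 : ∀ z ∈ K, α z ⬝ᵥ a z = 1 := fun z hz => h1.self_of_nhdsSet z hz
  have h3 : ∀ z ∈ K, On (π (f z)) (a z) := fun z hz => ha.2.self_of_nhdsSet z hz
  have h4 : ∀ z ∈ K, nrm π (α z) (f z) = a z := fun z hz => by
    rw [(nrm_eq (h3 z hz) (h2 z hz ▸ one_ne_zero)).1, h2 z hz, inv_one, one_smul]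
  have h5 : ∀ z ∈ K, α z ⬝ᵥ (π (f z)).rep ≠ 0 := fun z hz e => by
    obtain ⟨c, -, hc⟩ := (h3 z hz).exists_smul (on_rep _)
    have := h2 z hz
    rw [hc, dotProduct_smul, e, smul_zero] at this
    exact zero_ne_one this
  have h6 : ∀ z ∈ K, ∀ᶠ x in 𝓝 (f z), On (π x) (nrm π (α z) x) := fun z hz =>
    (nrm_hol (I := 𝓘(ℂ, C2)) hπ contMDiffAt_const contMDiffAt_id (h5 z hz)).2.mono
      fun x hx => (nrm_eq (on_rep _) hx).2
  refine ⟨fun q => F.Φ q.2.1 (nrm π (α q.1) q.2.1) (s + q.2.2), ⟨fun z hz => ?_, fun z hz => ?_,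
    fun z hz => ?_, ?_⟩, fun z hz => ⟨?_, fun hs v => ?_⟩⟩
  · exact basic_hol hπ F (ContMDiffAt.comp _ (hol_iff.2 (hα z hz)) contMDiffAt_fst)
      contMDiffAt_snd.fst (contMDiffAt_const.add contMDiffAt_snd.snd) (h5 z hz)
  · simp only [h4 z hz, add_zero]
  · have hu : Hol C2 C2 (fun x => F.Φ x (nrm π (α z) x) (s + 0)) (f z) :=
      basic_hol hπ F contMDiffAt_const contMDiffAt_id contMDiffAt_const (h5 z hz)
    have hw : Hol C2 C2 (fun x => F.Φ x (nrm π (α z) x) (-s))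
        (F.Φ (f z) (nrm π (α z) (f z)) (s + 0)) :=
      basic_hol hπ F contMDiffAt_const contMDiffAt_id contMDiffAt_const (by
        rw [F.fib _ (h6 z hz).self_of_nhds]
        exact h5 z hz)
    have e : ((fun x => F.Φ x (nrm π (α z) x) (-s)) ∘ fun x => F.Φ x (nrm π (α z) x) (s + 0))
        =ᶠ[𝓝 (f z)] id := (h6 z hz).mono fun x hx => by
      have e1 : nrm π (α z) (F.Φ x (nrm π (α z) x) (s + 0)) = nrm π (α z) x := by
        rw [nrm, F.fib _ hx]
        rfl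
      rw [comp_apply, e1, F.add _ _ hx, add_zero, add_neg_cancel, F.zero hx, id]
    have e2 := mfderiv_comp (f z) (hw.mdifferentiableAt (by simp)) (hu.mdifferentiableAt (by simp))
    rw [e.mfderiv_eq, mfderiv_id] at e2
    refine (LinearMap.injective_iff_surjective (f := (md C2 C2
      (fun x => F.Φ x (nrm π (α z) x) (s + 0)) (f z)).toLinearMap)).1
      (LeftInverse.injective (g := md C2 C2 (fun x => F.Φ x (nrm π (α z) x) (-s))
        (F.Φ (f z) (nrm π (α z) (f z)) (s + 0))) fun v => ?_)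
    exact (DFunLike.congr_fun e2 v).symm
  · obtain ⟨δ, hδ, hW⟩ := tube hK (fun z hz => (hf z hz).continuousAt)
      (W := {q | α q.1 ⬝ᵥ (π q.2).rep ≠ 0}) fun z hz => (nrm_hol (I := IL (Cn ι)) hπ
        (p := (z, f z)) (α := fun q => α q.1) (g := fun q => q.2)
        (ContMDiffAt.comp _ (hol_iff.2 (hα z hz)) contMDiffAt_fst) contMDiffAt_snd (h5 z hz)).2
    refine ⟨δ, hδ, fun h τ hh hτ hd hA => ?_⟩
    have k := fun z hz => nrm_hol hπ (hol_iff.2 (hα z hz)) (hh z hz) (hW z hz _ (hd z hz).1)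
    exact step hπ F hK hc hQ hcQ hKQ hh ⟨fun z hz => hol_iff.1 (k z hz).1,
      eventually_nhdsSet_iff_forall.2 fun z hz => (k z hz).2.mono fun q hq =>
        (nrm_eq (on_rep _) hq).2⟩ (analyticOnNhd_const.add hτ) hA
  · have e := (Sol.shift (F.sol (s + 0) (h3 z hz))).mfderiv
    refine ⟨1, ?_⟩
    simp only [h4 z hz]
    refine (DFunLike.congr_fun e (1 : ℂ)).trans ?_
    change (1 : ℂ) • F.V (F.Φ (f z) (a z) (s + 0)) (a z) = _
    rw [add_zero, one_smul]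
  · have e : (fun x => F.Φ x (nrm π (α z) x) (s + 0)) =ᶠ[𝓝 (f z)] id :=
      (h6 z hz).mono fun x hx => by
        rw [hs, add_zero]
        exact F.zero hx
    exact DFunLike.congr_fun (e.mfderiv_eq.trans mfderiv_id) v

end

end Vale.Agent.P290
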