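import Vale.Agent.P290.Top

/-!
P290 PInt. Helper lemma names start with pint_.
The set U where G is analytic is open (`isOpen_analyticAt`) and contains {z} ×ˢ γ '' uIcc a b; take a compact product
closedBall z r ×ˢ γ '' uIcc a b ⊆ U (`generalized_tube_lemma`); there fderiv G is continuous, hence bounded.
`intervalIntegral.hasFDerivAt_integral_of_dominated_of_fderiv_le` (or `hasFDerivAt_integral_of_dominated_of_fderiv_le''`)
at every y in ball z r with F' y t = (fderiv ℂ G (y, γ t)).comp (inl ..). Then `P278.osgood_at`.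
-/

namespace Vale.Agent.P290

open scoped Manifold ContDiff Topology LinearAlgebra.Projectivization
open Set Filter Metric Function

noncomputable section

theorem an_int {D F : Type*} [NormedAddCommGroup D] [NormedSpace ℂ D] [FiniteDimensional ℂ D]
    [NormedAddCommGroup F] [NormedSpace ℂ F] [CompleteSpace F] {G : D × ℂ → F} {z : D}
    {γ : ℝ → ℂ} (hγ : Continuous γ) {a b : ℝ} (hG : ∀ t ∈ uIcc a b, AnalyticAt ℂ G (z, γ t)) :
    AnalyticAt ℂ (fun y => ∫ t in a..b, G (y, γ t)) z := by
  have hc : Continuous fun p : D × ℝ => (p.1, γ p.2) := by fun_prop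
  have h1 : ∀ᶠ y in 𝓝 z, ∀ t ∈ uIcc a b, AnalyticAt ℂ G (y, γ t) :=
    isCompact_uIcc.eventually_forall_of_forall_eventually fun t ht =>
      (hc.continuousAt (x := (z, t))).eventually (hG t ht).eventually_analyticAt
  obtain ⟨r, hr, h2⟩ := Metric.nhds_basis_closedBall.eventually_iff.1 h1
  have := FiniteDimensional.proper ℂ D
  have h3 : ContinuousOn (fun p : D × ℝ =>
      (fderiv ℂ G (p.1, γ p.2)).comp (ContinuousLinearMap.inl ℂ D ℂ)) (closedBall z r ×ˢ uIcc a b) :=
    fun p hp => (((h2 hp.1 p.2 hp.2).fderiv.continuousAt.comp (f := fun p : D × ℝ => (p.1, γ p.2))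
      hc.continuousAt).clm_comp continuousAt_const).continuousWithinAt
  obtain ⟨C, hC⟩ := ((isCompact_closedBall z r).prod isCompact_uIcc).exists_bound_of_continuousOn h3
  have h4 : ∀ y ∈ ball z r, IntervalIntegrable (fun t => G (y, γ t)) MeasureTheory.volume a b :=
    fun y hy => ContinuousOn.intervalIntegrable fun t ht =>
      ((h2 (ball_subset_closedBall hy) t ht).continuousAt.comp (f := fun t => (y, γ t))
        (by fun_prop)).continuousWithinAt
  refine P278.osgood_at (eventually_of_mem (ball_mem_nhds z hr) fun y hy => ?_)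
  have hb := isOpen_ball.mem_nhds hy
  have h5 : ContinuousOn (fun t => (fderiv ℂ G (y, γ t)).comp (ContinuousLinearMap.inl ℂ D ℂ))
      (uIcc a b) := h3.comp (f := fun t => (y, t)) (by fun_prop)
        fun t ht => ⟨ball_subset_closedBall hy, ht⟩
  exact (intervalIntegral.hasFDerivAt_integral_of_dominated_of_fderiv_le (𝕜 := ℂ)
    (F := fun y t => G (y, γ t))
    (F' := fun y t => (fderiv ℂ G (y, γ t)).comp (ContinuousLinearMap.inl ℂ D ℂ))
    (bound := fun _ => C) hb (eventually_of_mem hb fun x hx => (h4 x hx).def'.1) (h4 y hy)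
    h5.intervalIntegrable.def'.1
    (Eventually.of_forall fun t ht x hx =>
      hC (x, t) ⟨ball_subset_closedBall hx, uIoc_subset_uIcc ht⟩)
    intervalIntegrable_const (Eventually.of_forall fun t ht x hx =>
      (h2 (ball_subset_closedBall hx) t (uIoc_subset_uIcc ht)).differentiableAt.hasFDerivAt.comp x
        (hasFDerivAt_prodMk_left x (γ t)))).differentiableAt

end

end Vale.Agent.P290
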