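import Vale.Agent.P290.Runge
import Vale.Agent.P290.PInt

/-!
P290 Bez. Helper lemma names start with bez_.
hadamard: G j z = ∫ t in 0..1, fderiv g (p + t • (z - p)) (Pi.single j 1) (an_int), fundamental theorem of calculus.
bez_char: let A = topological closure in C(K, ℂ) of the subalgebra of restrictions of entire functions (`Subalgebra.topologicalClosure`,
closed so complete; a commutative Banach algebra). For a character χ put p j = χ (coordinate j). hadamard gives χ (g|K) = g p for entire g.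
p ∈ K: otherwise `RCLike.geometric_hahn_banach_closed_point` gives ℓ, u with re (ℓ z) < u < re (ℓ p) on K, and g = exp ∘ ℓ contradicts
‖χ a‖ ≤ ‖a‖ (`AlgHom.norm_apply_le_self`, `WeakDual.CharacterSpace.norm_le_norm_one`). By density χ a = a p for all a ∈ A.
bezout: m i |K ∈ A by runge. If the ideal they span is proper it lies in a maximal ideal M, χ = `M.toCharacterSpace` kills all m i,
contradiction. So ∑ a i * m i = 1 on K, a i ∈ A; approximate a i by entire b' i so that h = ∑ b' i * m i ≠ 0 on K, b i = b' i / h.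
K empty: `nhdsSet_empty`.
-/

namespace Vale.Agent.P290

open scoped Manifold ContDiff Topology LinearAlgebra.Projectivization
open Set Filter Metric Function

noncomputable section

variable {ι : Type} [Fintype ι]

theorem bez_an {g : Cn ι → ℂ} (hg : AnalyticOnNhd ℂ g univ) (p v : Cn ι) (q : Cn ι × ℂ) :
    AnalyticAt ℂ (fun q : Cn ι × ℂ => fderiv ℂ g (p + q.2 • (q.1 - p)) v) q := by
  have h1 : AnalyticAt ℂ (fun q : Cn ι × ℂ => p + q.2 • (q.1 - p)) q :=
    analyticAt_const.add (analyticAt_snd.smul (analyticAt_fst.sub analyticAt_const))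
  have h2 : AnalyticAt ℂ (fun q : Cn ι × ℂ => fderiv ℂ g (p + q.2 • (q.1 - p))) q :=
    AnalyticAt.comp (g := fderiv ℂ g) (f := fun q : Cn ι × ℂ => p + q.2 • (q.1 - p))
      (hg.fderiv _ (mem_univ _)) h1
  exact AnalyticAt.comp (g := ContinuousLinearMap.apply ℂ ℂ v)
    (f := fun q : Cn ι × ℂ => fderiv ℂ g (p + q.2 • (q.1 - p)))
    ((ContinuousLinearMap.apply ℂ ℂ v).analyticAt _) h2

theorem bez_cont {g : Cn ι → ℂ} (hg : AnalyticOnNhd ℂ g univ) (p v z : Cn ι) :
    Continuous fun t : ℝ => fderiv ℂ g (p + (t : ℂ) • (z - p)) v := by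
  have h1 : Continuous fun q : Cn ι × ℂ => fderiv ℂ g (p + q.2 • (q.1 - p)) v :=
    continuous_iff_continuousAt.2 fun q => (bez_an hg p v q).continuousAt
  exact Continuous.comp (g := fun q : Cn ι × ℂ => fderiv ℂ g (p + q.2 • (q.1 - p)) v)
    (f := fun t : ℝ => (z, (t : ℂ))) h1 (by fun_prop)

theorem hadamard [DecidableEq ι] {g : Cn ι → ℂ} (hg : AnalyticOnNhd ℂ g univ) (p : Cn ι) :
    ∃ G : ι → Cn ι → ℂ, (∀ j, AnalyticOnNhd ℂ (G j) univ) ∧
      ∀ z, g z = g p + ∑ j, (z j - p j) * G j z := by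
  refine ⟨fun j z => ∫ t : ℝ in (0 : ℝ)..1, fderiv ℂ g (p + (t : ℂ) • (z - p)) (Pi.single j 1),
    fun j z _ => ?_, fun z => ?_⟩
  · exact an_int (G := fun q : Cn ι × ℂ => fderiv ℂ g (p + q.2 • (q.1 - p)) (Pi.single j 1))
      (γ := fun t : ℝ => (t : ℂ)) Complex.continuous_ofReal fun t _ => bez_an hg p _ _
  · have hd : ∀ t : ℝ, HasDerivAt (fun t : ℝ => g (p + (t : ℂ) • (z - p)))
        (fderiv ℂ g (p + (t : ℂ) • (z - p)) (z - p)) t := fun t => by
      have h1 : HasDerivAt (fun s : ℂ => p + s • (z - p)) (z - p) (t : ℂ) := by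
        simpa using ((hasDerivAt_id (t : ℂ)).smul_const (z - p)).const_add p
      have h2 : HasDerivAt (fun s : ℂ => g (p + s • (z - p)))
          (fderiv ℂ g (p + (t : ℂ) • (z - p)) (z - p)) (t : ℂ) :=
        HasFDerivAt.comp_hasDerivAt (l := g) (f := fun s : ℂ => p + s • (z - p)) (t : ℂ)
          (hg _ (mem_univ _)).differentiableAt.hasFDerivAt h1
      exact h2.comp_ofReal
    have h3 := intervalIntegral.integral_eq_sub_of_hasDerivAt (a := 0) (b := 1)
      (fun t _ => hd t) ((bez_cont hg p (z - p) z).intervalIntegrable 0 1)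
    have h4 : ∀ t : ℝ, fderiv ℂ g (p + (t : ℂ) • (z - p)) (z - p) =
        ∑ j, (z j - p j) * fderiv ℂ g (p + (t : ℂ) • (z - p)) (Pi.single j 1) := fun t => by
      have e : z - p = ∑ j, (z j - p j) • (Pi.single j 1 : Cn ι) := by
        funext k
        simp [Finset.sum_apply, Pi.single_apply]
      conv_lhs => rw [congrArg (fderiv ℂ g (p + (t : ℂ) • (z - p))) e]
      simp only [map_sum, map_smul, smul_eq_mul]
    simp only [h4] at h3
    rw [intervalIntegral.integral_finsetSum (f := fun j (t : ℝ) =>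
      (z j - p j) * fderiv ℂ g (p + (t : ℂ) • (z - p)) (Pi.single j 1)) fun j _ =>
      (continuous_const.mul (bez_cont hg p _ z)).intervalIntegrable 0 1] at h3
    simp only [intervalIntegral.integral_const_mul] at h3
    rw [h3]
    simp

end

end Vale.Agent.P290
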