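import Vale.Agent.P290.Bez

/-!
P290 BezB (second part of Bez; the plan covers both parts). Helper lemma names start with bezb_.
hadamard: G j z = ∫ t in 0..1, fderiv g (p + t • (z - p)) (Pi.single j 1) (an_int), fundamental theorem of calculus.
bez_char: let A = topological closure in C(K, ℂ) of the subalgebra of restrictions of entire functions (`Subalgebra.topologicalClosure`,
closed so complete; a commutative Banach algebra). For a character χ put p j = χ (coordinate j). hadamard gives χ (g|K) = g p for entire g.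
p ∈ K: otherwise `RCLike.geometric_hahn_banach_closed_point` gives ℓ, u with re (ℓ z) < u < re (ℓ p) on K, and g = exp ∘ ℓ contradicts
‖χ a‖ ≤ ‖a‖ (`AlgHom.norm_apply_le_self`, `WeakDual.CharacterSpace.norm_le_norm_one`). By density χ a = a p for all a ∈ A.
bezout: m i |K ∈ A by runge. If the ideal they span is proper it lies in a maximal ideal M, χ = `M.toCharacterSpace` kills all m i,
contradiction. So ∑ a i * m i = 1 on K, a i ∈ A; approximate a i by entire b' i so that h = ∑ b' i * m i ≠ 0 on K, b i = b' i / h.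
K empty: `nhdsSet_empty`.
-/

namespace Vale.Agent.P290

open scoped Manifold ContDiff Topology LinearAlgebra.Projectivization
open Set Filter Metric Function

noncomputable section

variable {ι : Type} [Fintype ι]

/-- Restrictions of entire functions. -/
def bezb_E (K : Set (Cn ι)) : Subalgebra ℂ C(K, ℂ) where
  carrier := {f | ∃ g : Cn ι → ℂ, AnalyticOnNhd ℂ g univ ∧ ∀ z : K, f z = g z}
  mul_mem' := by
    rintro _ _ ⟨g, hg, e⟩ ⟨g', hg', e'⟩
    exact ⟨fun z => g z * g' z, hg.mul hg', fun z => by simp [e, e']⟩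
  add_mem' := by
    rintro _ _ ⟨g, hg, e⟩ ⟨g', hg', e'⟩
    exact ⟨fun z => g z + g' z, hg.add hg', fun z => by simp [e, e']⟩
  algebraMap_mem' c := ⟨fun _ => c, analyticOnNhd_const, fun z => by simp⟩

/-- The restriction of an entire function. -/
def bezb_r (K : Set (Cn ι)) [CompactSpace K] {g : Cn ι → ℂ} (hg : AnalyticOnNhd ℂ g univ) :
    (bezb_E K).topologicalClosure :=
  ⟨⟨fun z => g z, (continuousOn_univ.1 hg.continuousOn).comp continuous_subtype_val⟩,
    (bezb_E K).le_topologicalClosure ⟨g, hg, fun _ => rfl⟩⟩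

instance bezb_complete (K : Set (Cn ι)) [CompactSpace K] :
    CompleteSpace (bezb_E K).topologicalClosure :=
  (bezb_E K).isClosed_topologicalClosure.completeSpace_coe

theorem bezb_norm {K : Set (Cn ι)} [CompactSpace K] (χ : (bezb_E K).topologicalClosure →ₐ[ℂ] ℂ)
    (a : (bezb_E K).topologicalClosure) : ‖χ a‖ ≤ ‖a‖ := by
  have h1 : ‖(1 : (bezb_E K).topologicalClosure)‖ ≤ 1 :=
    (ContinuousMap.norm_le (1 : C(K, ℂ)) zero_le_one).2 fun z => by simp
  exact (AlgHom.norm_apply_le_self_mul_norm_one χ a).trans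
    (mul_le_of_le_one_right (norm_nonneg _) h1)

theorem bezb_app {K : Set (Cn ι)} [CompactSpace K] (a : (bezb_E K).topologicalClosure) {ε : ℝ}
    (hε : 0 < ε) : ∃ g, ∃ hg : AnalyticOnNhd ℂ g univ, ‖a - bezb_r K hg‖ < ε := by
  obtain ⟨f, ⟨g, hg, e⟩, hf⟩ := Metric.mem_closure_iff.1 a.2 ε hε
  refine ⟨g, hg, ?_⟩
  have : f = (bezb_r K hg).1 := ContinuousMap.ext e
  rw [this, dist_eq_norm] at hf
  exact hf

theorem bezb_char {K : Set (Cn ι)} [CompactSpace K] (hK : IsClosed K) (hc : Convex ℝ K)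
    (χ : (bezb_E K).topologicalClosure →ₐ[ℂ] ℂ) : ∃ p : K, ∀ a, χ a = a.1 p := by
  classical
  have hx : ∀ j : ι, AnalyticOnNhd ℂ (fun z : Cn ι => z j) univ := fun j z _ =>
    (ContinuousLinearMap.proj j : Cn ι →L[ℂ] ℂ).analyticAt z
  set p : Cn ι := fun j => χ (bezb_r K (hx j)) with hp
  have key : ∀ g (hg : AnalyticOnNhd ℂ g univ), χ (bezb_r K hg) = g p := by
    intro g hg
    obtain ⟨G, hG, e⟩ := hadamard hg p
    have : bezb_r K hg = algebraMap ℂ _ (g p) +
        ∑ j, (bezb_r K (hx j) - algebraMap ℂ _ (p j)) * bezb_r K (hG j) := by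
      apply Subtype.ext
      ext z
      simp only [Subalgebra.coe_add, AddSubmonoidClass.coe_finsetSum, MulMemClass.coe_mul,
        AddSubgroupClass.coe_sub, SubalgebraClass.coe_algebraMap, ContinuousMap.add_apply,
        ContinuousMap.coe_sum, Finset.sum_apply, ContinuousMap.mul_apply,
        ContinuousMap.sub_apply, algebraMap_apply, smul_eq_mul, mul_one]
      exact e z
    rw [this]
    simp [hp]
  have hpK : p ∈ K := by
    by_contra hn
    obtain ⟨ℓ, u, h1, h2⟩ := RCLike.geometric_hahn_banach_closed_point (𝕜 := ℂ) hc hK hn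
    have hg : AnalyticOnNhd ℂ (fun z : Cn ι => Complex.exp (ℓ z - u)) univ := fun z _ =>
      ((ℓ.analyticAt z).sub analyticAt_const).cexp
    have h3 := bezb_norm χ (bezb_r K hg)
    have h4 : ‖bezb_r K hg‖ ≤ 1 := by
      refine (ContinuousMap.norm_le (bezb_r K hg).1 zero_le_one).2 fun z => ?_
      change ‖Complex.exp (ℓ z - u)‖ ≤ 1
      rw [Complex.norm_exp, Real.exp_le_one_iff]
      have := h1 z z.2
      simp only [RCLike.re_to_complex] at this
      simp only [Complex.sub_re, Complex.ofReal_re]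
      linarith
    rw [key, Complex.norm_exp] at h3
    have h5 := Real.exp_le_one_iff.1 (h3.trans h4)
    simp only [RCLike.re_to_complex] at h2
    simp only [Complex.sub_re, Complex.ofReal_re] at h5
    linarith
  refine ⟨⟨p, hpK⟩, fun a => ?_⟩
  refine eq_of_forall_dist_le fun ε hε => ?_
  obtain ⟨g, hg, h1⟩ := bezb_app a (half_pos hε)
  have h2 := bezb_norm χ (a - bezb_r K hg)
  rw [map_sub, key] at h2
  have h3 : ‖a.1 ⟨p, hpK⟩ - g p‖ ≤ ‖a - bezb_r K hg‖ :=
    ContinuousMap.norm_coe_le_norm (a - bezb_r K hg).1 ⟨p, hpK⟩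
  have h4 := dist_triangle_right (χ a) (a.1 ⟨p, hpK⟩) (g p)
  rw [dist_eq_norm (χ a) (g p), dist_eq_norm _ (g p)] at h4
  linarith

theorem bezout {K : Set (Cn ι)} (hK : IsCompact K) (hc : Convex ℝ K) {κ : Type} [Fintype κ]
    {m : κ → Cn ι → ℂ} (hm : ∀ i, AnalyticOnNhd ℂ (m i) K) (h0 : ∀ z ∈ K, ∃ i, m i z ≠ 0) :
    ∃ b : κ → Cn ι → ℂ, (∀ i, AnalyticOnNhd ℂ (b i) K) ∧
      ∀ᶠ z in 𝓝ˢ K, ∑ i, b i z * m i z = 1 := by
  have : CompactSpace K := isCompact_iff_compactSpace.1 hK
  have hA : ∀ i, (⟨fun z => m i z, (hm i).continuousOn.domRestrict⟩ : C(K, ℂ)) ∈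
      (bezb_E K).topologicalClosure := fun i => by
    refine Metric.mem_closure_iff.2 fun ε hε => ?_
    obtain ⟨g, hg, h1⟩ := runge hK hc (hm i) (half_pos hε)
    refine ⟨(bezb_r K hg).1, ⟨g, hg, fun _ => rfl⟩, lt_of_le_of_lt ?_ (half_lt_self hε)⟩
    refine (ContinuousMap.dist_le (half_pos hε).le).2 fun z => ?_
    rw [dist_comm, dist_eq_norm]
    exact (h1 z z.2).le
  set μ : κ → (bezb_E K).topologicalClosure := fun i => ⟨_, hA i⟩ with hμ
  have htop : Ideal.span (range μ) = ⊤ := by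
    by_contra hne
    obtain ⟨M, hM, hle⟩ := Ideal.exists_le_maximal _ hne
    obtain ⟨p, hp⟩ := bezb_char hK.isClosed hc
      (WeakDual.CharacterSpace.toAlgHom M.toCharacterSpace)
    obtain ⟨i, hi⟩ := h0 p p.2
    have h1 := M.toCharacterSpace_apply_eq_zero_of_mem (hle (Ideal.subset_span ⟨i, rfl⟩))
    exact hi ((hp (μ i)).symm.trans h1)
  obtain ⟨a, ha⟩ := Ideal.mem_span_range_iff_exists_fun.1 (htop ▸ Submodule.mem_top (x := 1))
  have hC : 0 < ∑ i, ‖μ i‖ + 1 := by positivity
  choose g hg h1 using fun i => bezb_app (a i) (inv_pos.2 hC)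
  have hne : ∀ z ∈ K, ∑ i, g i z * m i z ≠ 0 := fun z hz e => by
    have h2 : ‖∑ i, (a i - bezb_r K (hg i)) * μ i‖ < 1 := by
      refine (norm_sum_le _ _).trans_lt ?_
      refine (Finset.sum_le_sum fun i _ => (norm_mul_le _ _).trans
        (mul_le_mul_of_nonneg_right (h1 i).le (norm_nonneg _))).trans_lt ?_
      rw [← Finset.mul_sum, inv_mul_lt_iff₀ hC]
      linarith
    have h3 := ContinuousMap.norm_coe_le_norm (∑ i, (a i - bezb_r K (hg i)) * μ i).1 ⟨z, hz⟩
    have h4 : (∑ i, (a i - bezb_r K (hg i)) * μ i).1 ⟨z, hz⟩ = 1 := by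
      simp only [sub_mul, Finset.sum_sub_distrib, ha]
      simp only [AddSubgroupClass.coe_sub, AddSubmonoidClass.coe_finsetSum, MulMemClass.coe_mul,
        OneMemClass.coe_one, ContinuousMap.sub_apply, ContinuousMap.coe_sum, Finset.sum_apply,
        ContinuousMap.mul_apply, ContinuousMap.one_apply, sub_eq_self]
      exact e
    rw [h4, norm_one] at h3
    exact absurd (h3.trans_lt h2) (lt_irrefl _)
  have han : AnalyticOnNhd ℂ (fun z => ∑ i, g i z * m i z) K := fun z hz =>
    Finset.analyticAt_fun_sum _ fun i _ => (hg i z trivial).mul (hm i z hz)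
  refine ⟨fun i z => g i z / ∑ i, g i z * m i z, fun i z hz =>
    (hg i z trivial).div (han z hz) (hne z hz), eventually_nhdsSet_iff_forall.2 fun z hz => ?_⟩
  filter_upwards [(han z hz).continuousAt.eventually_ne (hne z hz)] with w hw
  simp only [div_mul_eq_mul_div, ← Finset.sum_div]
  exact div_self hw

end

end Vale.Agent.P290
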