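import Vale.Agent.P290.Top

/-!
P290 Box. Helper lemma names start with box_.
xc k is continuous and real linear. isCompact_Bx: closed and bounded. ‖z - y‖ ≤ 2 δ if all real coordinates differ by at most δ.
box_ind: Lebesgue number (`lebesgue_number_lemma_of_metric_nhds` or similar) on the compact C ∩ Bx lo0 hi0 gives δ > 0 such that P holds
for C ∩ Bx lo hi whenever lo0 ≤ lo, hi ≤ hi0 and hi k - lo k ≤ δ for all k (empty case: h0). Then induction on a Finset s of
coordinates: P holds whenever hi k - lo k ≤ δ for k ∉ s; for insert k s induct on n with hi k - lo k ≤ n δ, cutting at c = lo k + δ.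
-/

namespace Vale.Agent.P290

open scoped Manifold ContDiff Topology LinearAlgebra.Projectivization
open Set Filter Metric Function

noncomputable section

variable {ι : Type} [Fintype ι] [DecidableEq ι]

omit [Fintype ι] [DecidableEq ι] in
theorem box_cont (k : ι × Bool) : Continuous (xc k) := by
  obtain ⟨i, _ | _⟩ := k
  exacts [Complex.continuous_im.comp (continuous_apply i),
    Complex.continuous_re.comp (continuous_apply i)]

omit [Fintype ι] [DecidableEq ι] in
theorem box_lin (k : ι × Bool) : IsLinearMap ℝ (xc k) := by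
  obtain ⟨i, _ | _⟩ := k <;> exact ⟨fun _ _ => by simp [xc], fun _ _ => by simp [xc]⟩

omit [DecidableEq ι] in
theorem isCompact_Bx (lo hi : ι × Bool → ℝ) : IsCompact (Bx lo hi) := by
  refine isCompact_of_isClosed_isBounded ?_ ((isBounded_closedBall (x := 0)
    (r := 2 * (‖lo‖ + ‖hi‖))).subset fun z hz => ?_)
  · rw [Bx, ofPred_forall]
    exact isClosed_iInter fun k => isClosed_Icc.preimage (box_cont k)
  · have h : ∀ k, |xc k z| ≤ ‖lo‖ + ‖hi‖ := fun k => by
      have h1 := abs_le.1 (norm_le_pi_norm lo k)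
      have h2 := abs_le.1 (norm_le_pi_norm hi k)
      exact abs_le.2 ⟨by linarith [(hz k).1, norm_nonneg hi], by linarith [(hz k).2, norm_nonneg lo]⟩
    rw [mem_closedBall_zero_iff, pi_norm_le_iff_of_nonneg (by positivity), two_mul]
    exact fun i => (Complex.norm_le_abs_re_add_abs_im _).trans
      (add_le_add (h (i, true)) (h (i, false)))

omit [Fintype ι] [DecidableEq ι] in
theorem convex_Bx (lo hi : ι × Bool → ℝ) : Convex ℝ (Bx lo hi) := by
  rw [Bx, ofPred_forall]
  exact convex_iInter fun k => (convex_Icc (lo k) (hi k)).is_linear_preimage (box_lin k)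

omit [Fintype ι] in
theorem Bx_union {lo hi : ι × Bool → ℝ} {k : ι × Bool} {c : ℝ} (h1 : lo k ≤ c) (h2 : c ≤ hi k) :
    Bx lo (update hi k c) ∪ Bx (update lo k c) hi = Bx lo hi := by
  ext z
  simp only [Bx, mem_union, mem_ofPred_eq, forall_and, ← Pi.le_def, le_update_iff, update_le_iff]
  refine ⟨?_, fun h => (le_total (xc k z) c).imp (fun e => ⟨h.1, e, fun j _ => h.2 j⟩)
    fun e => ⟨⟨e, fun j _ => h.1 j⟩, h.2⟩⟩
  rintro (h | h)
  · exact ⟨h.1, fun j => (eq_or_ne j k).elim (fun e => e ▸ h.2.1.trans h2) (h.2.2 j)⟩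
  · exact ⟨fun j => (eq_or_ne j k).elim (fun e => e ▸ h1.trans h.1.1) (h.1.2 j), h.2⟩

omit [Fintype ι] in
theorem Bx_inter {lo hi : ι × Bool → ℝ} {k : ι × Bool} {c : ℝ} (h1 : lo k ≤ c) (h2 : c ≤ hi k) :
    Bx lo (update hi k c) ∩ Bx (update lo k c) hi = Bx (update lo k c) (update hi k c) := by
  ext z
  simp only [Bx, mem_inter_iff, mem_ofPred_eq, forall_and, ← Pi.le_def, le_update_iff, update_le_iff]
  exact ⟨fun h => ⟨h.2.1, h.1.2⟩, fun h =>
    ⟨⟨fun j => (eq_or_ne j k).elim (fun e => e ▸ h1.trans h.1.1) (h.1.2 j), h.2⟩, h.1,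
      fun j => (eq_or_ne j k).elim (fun e => e ▸ h.2.1.trans h2) (h.2.2 j)⟩⟩

omit [DecidableEq ι] in
theorem isClosed_Pol (L : List ((Cn ι →L[ℂ] ℂ) × ℝ)) : IsClosed (Pol L) := by
  simp only [Pol, ofPred_forall]
  exact isClosed_iInter fun c => isClosed_iInter fun _ =>
    isClosed_le (Complex.continuous_re.comp c.1.continuous) continuous_const

omit [DecidableEq ι] in
theorem convex_Pol (L : List ((Cn ι →L[ℂ] ℂ) × ℝ)) : Convex ℝ (Pol L) := by
  simp only [Pol, ofPred_forall]
  exact convex_iInter fun c => convex_iInter fun _ =>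
    convex_halfSpace_le ⟨fun _ _ => by simp, fun _ _ => by simp⟩ _

end

end Vale.Agent.P290
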