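import Vale.Agent.P290.Box

/-!
P290 BoxI (second part of Box; the plan covers both parts). Helper lemma names start with boxi_.
xc k is continuous and real linear. isCompact_Bx: closed and bounded. ‖z - y‖ ≤ 2 δ if all real coordinates differ by at most δ.
box_ind: Lebesgue number (`lebesgue_number_lemma_of_metric_nhds` or similar) on the compact C ∩ Bx lo0 hi0 gives δ > 0 such that P holds
for C ∩ Bx lo hi whenever lo0 ≤ lo, hi ≤ hi0 and hi k - lo k ≤ δ for all k (empty case: h0). Then induction on a Finset s of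
coordinates: P holds whenever hi k - lo k ≤ δ for k ∉ s; for insert k s induct on n with hi k - lo k ≤ n δ, cutting at c = lo k + δ.
-/

namespace Vale.Agent.P290

open scoped Manifold ContDiff Topology LinearAlgebra.Projectivization
open Set Filter Metric Function

noncomputable section

variable {ι : Type} [Fintype ι] [DecidableEq ι]

theorem box_ind {C : Set (Cn ι)} (hC : IsClosed C) {P : Set (Cn ι) → Prop} (h0 : P ∅)
    (mono : ∀ S S', S' ⊆ S → P S → P S') (lo0 hi0 : ι × Bool → ℝ)
    (loc : ∀ z ∈ C ∩ Bx lo0 hi0, ∃ N ∈ 𝓝 z, P N)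
    (gl : ∀ (lo hi : ι × Bool → ℝ) (k : ι × Bool) (c : ℝ), lo k ≤ c → c ≤ hi k →
      P (C ∩ Bx lo (update hi k c)) → P (C ∩ Bx (update lo k c) hi) → P (C ∩ Bx lo hi)) :
    P (C ∩ Bx lo0 hi0) := by
  have hcpt : IsCompact (C ∩ Bx lo0 hi0) := (isCompact_Bx lo0 hi0).inter_left hC
  choose! N hN hPN using loc
  obtain ⟨δ, hδ, hleb⟩ := lebesgue_number_lemma_of_metric
    (c := fun x : (C ∩ Bx lo0 hi0 : Set (Cn ι)) => interior (N x)) hcpt (fun _ => isOpen_interior)
    fun x hx => mem_iUnion.2 ⟨⟨x, hx⟩, mem_interior_iff_mem_nhds.2 (hN x hx)⟩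
  have hε : 0 < δ / 3 := by positivity
  have base : ∀ lo hi : ι × Bool → ℝ, lo0 ≤ lo → hi ≤ hi0 → (∀ k, hi k - lo k ≤ δ / 3) →
      P (C ∩ Bx lo hi) := by
    intro lo hi h1 h2 h3
    rcases (C ∩ Bx lo hi).eq_empty_or_nonempty with he | ⟨x, hx⟩
    · rw [he]; exact h0
    · have hx0 : x ∈ C ∩ Bx lo0 hi0 :=
        ⟨hx.1, fun k => ⟨(h1 k).trans (hx.2 k).1, (hx.2 k).2.trans (h2 k)⟩⟩
      obtain ⟨y, hy⟩ := hleb x hx0
      refine mono _ _ (fun z hz => interior_subset (hy ?_)) (hPN y y.2)
      have h : ∀ k, |xc k z - xc k x| ≤ δ / 3 := fun k =>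
        abs_le.2 ⟨by linarith [(hz.2 k).1, (hx.2 k).2, h3 k],
          by linarith [(hz.2 k).2, (hx.2 k).1, h3 k]⟩
      rw [mem_ball, dist_eq_norm, pi_norm_lt_iff hδ]
      intro i
      have h4 := Complex.norm_le_abs_re_add_abs_im ((z - x) i)
      have h5 : |((z - x) i).re| ≤ δ / 3 := h (i, true)
      have h6 : |((z - x) i).im| ≤ δ / 3 := h (i, false)
      linarith
  have main : ∀ s : Finset (ι × Bool), ∀ lo hi : ι × Bool → ℝ, lo0 ≤ lo → hi ≤ hi0 →
      (∀ k ∉ s, hi k - lo k ≤ δ / 3) → P (C ∩ Bx lo hi) := by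
    intro s
    induction s using Finset.induction_on with
    | empty => exact fun lo hi h1 h2 h3 => base lo hi h1 h2 fun k => h3 k (Finset.notMem_empty k)
    | insert k s hk ih =>
      have small : ∀ lo hi : ι × Bool → ℝ, lo0 ≤ lo → hi ≤ hi0 →
          (∀ j ∉ insert k s, hi j - lo j ≤ δ / 3) → hi k - lo k ≤ δ / 3 → P (C ∩ Bx lo hi) := by
        intro lo hi h1 h2 h3 h4
        refine ih lo hi h1 h2 fun j hj => ?_
        rcases eq_or_ne j k with rfl | hjk
        · exact h4
        · exact h3 j (by simp [hj, hjk])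
      have step : ∀ n : ℕ, ∀ lo hi : ι × Bool → ℝ, lo0 ≤ lo → hi ≤ hi0 →
          (∀ j ∉ insert k s, hi j - lo j ≤ δ / 3) → hi k - lo k ≤ n * (δ / 3) →
            P (C ∩ Bx lo hi) := by
        intro n
        induction n with
        | zero =>
          intro lo hi h1 h2 h3 h4
          exact small lo hi h1 h2 h3 (by simp at h4; linarith)
        | succ n ihn =>
          intro lo hi h1 h2 h3 h4
          by_cases h5 : hi k - lo k ≤ δ / 3
          · exact small lo hi h1 h2 h3 h5
          · push Not at h5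
            have hjk : ∀ j ∉ insert k s, j ≠ k := fun j hj e => hj (by simp [e])
            refine gl lo hi k (lo k + δ / 3) (by linarith) (by linarith) ?_ ?_
            · refine small _ _ h1 ?_ ?_ ?_
              · refine update_le_iff.2 ⟨?_, fun j _ => h2 j⟩
                linarith [h2 k]
              · intro j hj
                rw [update_of_ne (hjk j hj)]
                exact h3 j hj
              · rw [update_self]; linarith
            · refine ihn _ _ ?_ h2 ?_ ?_
              · refine le_update_iff.2 ⟨?_, fun j _ => h1 j⟩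
                linarith [h1 k]
              · intro j hj
                rw [update_of_ne (hjk j hj)]
                exact h3 j hj
              · rw [update_self]
                push_cast at h4
                linarith
      intro lo hi h1 h2 h3
      obtain ⟨n, hn⟩ := exists_nat_ge ((hi k - lo k) / (δ / 3))
      exact step n lo hi h1 h2 h3 ((div_le_iff₀ hε).1 hn)
  exact main Finset.univ lo0 hi0 le_rfl le_rfl fun k hk => absurd (Finset.mem_univ k) hk

end

end Vale.Agent.P290
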