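import Vale.Agent.P290.OnL

/-!
P290 Bridge (second part of OnL; the plan covers both parts). Helper lemma names start with bridge_.
Projective line lemmas: `Projectivization.mk_eq_mk_iff'`, `Projectivization.mk_rep`, `Projectivization.rep_nonzero`.
IsLift.hol: the lift is MDifferentiableAt near x, so in the chart at x it is differentiable near the point, analytic by `P278.osgood_at`
(see `bridge` below: prove bridge first for a general boundaryless pair of models, via `contMDiffAt_iff` and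
`mdifferentiableAt_iff_of_mem_source` / `P278.ident_diff` style argument).
-/

namespace Vale.Agent.P290

open scoped Manifold ContDiff Topology LinearAlgebra.Projectivization
open Set Filter Metric Function

noncomputable section

theorem bridge {A B : Type} [NormedAddCommGroup A] [NormedSpace ℂ A] [FiniteDimensional ℂ A]
    [NormedAddCommGroup B] [NormedSpace ℂ B] [CompleteSpace B] {M N : Type*} [TopologicalSpace M]
    [ChartedSpace A M] [IsManifold 𝓘(ℂ, A) ω M] [TopologicalSpace N] [ChartedSpace B N]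
    [IsManifold 𝓘(ℂ, B) ω N] {f : M → N} {x : M}
    (h : ∀ᶠ y in 𝓝 x, MDifferentiableAt 𝓘(ℂ, A) 𝓘(ℂ, B) f y) : Hol A B f x := by
  have hc : ContinuousAt f x := h.self_of_nhds.continuousAt
  refine contMDiffAt_iff.2 ⟨hc, ?_⟩
  refine ContDiffAt.contDiffWithinAt (AnalyticAt.contDiffAt (P278.osgood_at ?_))
  have h1 : ∀ᶠ y in 𝓝 x, y ∈ (chartAt A x).source := chart_source_mem_nhds A x
  have h2 : ∀ᶠ y in 𝓝 x, f y ∈ (chartAt B (f x)).source :=
    hc.preimage_mem_nhds (chart_source_mem_nhds B (f x))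
  have h3 : ∀ᶠ y in 𝓝 x, DifferentiableAt ℂ
      (extChartAt 𝓘(ℂ, B) (f x) ∘ f ∘ (extChartAt 𝓘(ℂ, A) x).symm) (extChartAt 𝓘(ℂ, A) x y) := by
    filter_upwards [h, h1, h2] with y hy k1 k2
    have k3 := ((mdifferentiableAt_iff_of_mem_source k1 k2).1 hy).2
    rwa [ModelWithCorners.Boundaryless.range_eq_univ, differentiableWithinAt_univ] at k3
  have h4 : ∀ᶠ z in 𝓝 (extChartAt 𝓘(ℂ, A) x x), z ∈ (extChartAt 𝓘(ℂ, A) x).target :=
    extChartAt_target_mem_nhds x
  have h5 : Tendsto (extChartAt 𝓘(ℂ, A) x).symm (𝓝 (extChartAt 𝓘(ℂ, A) x x)) (𝓝 x) := by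
    have k := continuousAt_extChartAt_symm (I := 𝓘(ℂ, A)) x
    rwa [ContinuousAt, extChartAt_to_inv] at k
  filter_upwards [h4, h5.eventually h3] with z k1 k2
  rwa [(extChartAt 𝓘(ℂ, A) x).right_inv k1] at k2

variable {X : Type*} [MetricSpace X] [ChartedSpace C2 X] [IsManifold 𝓘(ℂ, C2) ω X]
  {π : X → P1} {a : X → C2} {x : X}

theorem IsLift.hol (h : IsLift π a x) : Hol C2 C2 a x :=
  bridge (Filter.Eventually.mono h fun _ hy => hy.1)

omit [IsManifold 𝓘(ℂ, C2) ω X] in
theorem IsLift.on (h : IsLift π a x) : ∀ᶠ y in 𝓝 x, On (π y) (a y) :=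
  Filter.Eventually.mono h fun _ hy => hy.2

omit [IsManifold 𝓘(ℂ, C2) ω X] in
theorem IsLift.ev (h : IsLift π a x) : ∀ᶠ y in 𝓝 x, IsLift π a y :=
  Filter.Eventually.eventually_nhds h

omit [IsManifold 𝓘(ℂ, C2) ω X] in
theorem HolP.lift_at (h : HolP π) {e : C2} (he : On (π x) e) : ∃ a, IsLift π a x ∧ a x = e := by
  obtain ⟨a, ha⟩ := h x
  obtain ⟨c, hc, hce⟩ := he.exists_smul ha.on.self_of_nhds
  refine ⟨fun y => c • a y, ?_, hce.symm⟩
  refine Filter.Eventually.mono ha fun y hy => ⟨?_, On.smul hy.2 hc⟩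
  exact hy.1.const_smul c

end

end Vale.Agent.P290
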