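import Vale.Agent.P290.RectB
import Vale.Agent.P290.PInt
import Vale.Agent.P290.BoxI

/-!
P290 Cau. Helper lemma names start with cau_.
cauchy4: if Bx lo hi is empty take zeros. Else the compact box has a closed thickening inside the open set where h is analytic, so for
some ε > 0, h is analytic on Bx (lo - ε) (hi + ε). With a = lo (i,true) - ε, b = hi (i,true) + ε, c = lo (i,false) - ε,
d = hi (i,false) + ε let each piece be (2πI)⁻¹ times the side integral of h (update z i ζ) / (ζ - z i) (signs of rect_cauchy).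
Analyticity by an_int with G (z, ζ) = h (update z i ζ) / (ζ - z i) ((z, ζ) ↦ update z i ζ is continuous linear). The identity holds on
the open box (lo - ε, hi + ε) by rect_cauchy (`update_eq_self`).
split_univ: for k = (i, true) apply cauchy4 to the middle box, q = - pL, p = pR + pB + pT; for k = (i, false), q = - pB, p = the rest.
-/

namespace Vale.Agent.P290

open scoped Manifold ContDiff Topology LinearAlgebra.Projectivization
open Set Filter Metric Function

noncomputable section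

variable {ι : Type} [Fintype ι] [DecidableEq ι]

theorem cau_enl {lo hi : ι × Bool → ℝ} {h : Cn ι → ℂ} (hh : AnalyticOnNhd ℂ h (Bx lo hi)) :
    ∃ ε : ℝ, 0 < ε ∧ AnalyticOnNhd ℂ h (Bx (fun k => lo k - ε) fun k => hi k + ε) := by
  haveI : Nonempty {ε : ℝ // 0 < ε} := ⟨⟨1, one_pos⟩⟩
  have key := exists_subset_nhds_of_isCompact'
    (V := fun ε : {ε : ℝ // 0 < ε} => Bx (fun k => lo k - ε.1) fun k => hi k + ε.1)
    (U := {z | AnalyticAt ℂ h z}) ?_ (fun _ => isCompact_Bx _ _)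
    (fun _ => (isCompact_Bx _ _).isClosed) ?_
  · obtain ⟨ε, hε⟩ := key
    exact ⟨ε.1, ε.2, fun z hz => hε hz⟩
  · intro x y
    refine ⟨⟨min x.1 y.1, lt_min x.2 y.2⟩, fun z hz k => ?_, fun z hz k => ?_⟩
    · have h1 := hz k
      have h2 := min_le_left x.1 y.1
      dsimp only at h1 ⊢
      constructor <;> linarith [h1.1, h1.2]
    · have h1 := hz k
      have h2 := min_le_right x.1 y.1
      dsimp only at h1 ⊢
      constructor <;> linarith [h1.1, h1.2]
  · intro z hz
    refine (hh z fun k => ⟨?_, ?_⟩).eventually_analyticAt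
    · refine le_of_forall_pos_le_add fun ε hε => ?_
      have := (mem_iInter.1 hz ⟨ε, hε⟩ k).1
      dsimp only at this
      linarith
    · refine le_of_forall_pos_le_add fun ε hε => ?_
      exact (mem_iInter.1 hz ⟨ε, hε⟩ k).2

omit [Fintype ι] in
theorem cau_mem {lo hi : ι × Bool → ℝ} {i : ι} {z : Cn ι} {ζ : ℂ}
    (hz : ∀ k : ι × Bool, k.1 ≠ i → lo k ≤ xc k z ∧ xc k z ≤ hi k)
    (h1 : ζ.re ∈ Icc (lo (i, true)) (hi (i, true)))
    (h2 : ζ.im ∈ Icc (lo (i, false)) (hi (i, false))) : update z i ζ ∈ Bx lo hi := by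
  rintro ⟨j, b⟩
  by_cases hj : j = i
  · subst hj
    cases b
    · simpa [xc] using h2
    · simpa [xc] using h1
  · have := hz (j, b) hj
    simpa [xc, update_of_ne hj] using this

theorem cau_upd (i : ι) (q : Cn ι × ℂ) :
    AnalyticAt ℂ (fun q : Cn ι × ℂ => update q.1 i q.2) q := by
  refine analyticAt_pi_iff.2 fun j => ?_
  by_cases hj : j = i
  · subst hj
    simp only [update_self]
    exact analyticAt_snd
  · simp only [update_of_ne hj]
    exact ((ContinuousLinearMap.proj (R := ℂ) (φ := fun _ : ι => ℂ) j).comp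
      (ContinuousLinearMap.fst ℂ (Cn ι) ℂ)).analyticAt q

theorem cau_G {h : Cn ι → ℂ} {i : ι} {z : Cn ι} {ζ : ℂ} (hh : AnalyticAt ℂ h (update z i ζ))
    (hne : ζ ≠ z i) :
    AnalyticAt ℂ (fun q : Cn ι × ℂ => h (update q.1 i q.2) / (q.2 - q.1 i)) (z, ζ) := by
  have h1 : AnalyticAt ℂ (fun q : Cn ι × ℂ => h (update q.1 i q.2)) (z, ζ) :=
    AnalyticAt.comp (g := h) (f := fun q : Cn ι × ℂ => update q.1 i q.2) hh (cau_upd i (z, ζ))
  have h2 : AnalyticAt ℂ (fun q : Cn ι × ℂ => q.1 i) (z, ζ) :=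
    ((ContinuousLinearMap.proj (R := ℂ) (φ := fun _ : ι => ℂ) i).comp
      (ContinuousLinearMap.fst ℂ (Cn ι) ℂ)).analyticAt (z, ζ)
  exact h1.div (analyticAt_snd.sub h2) (sub_ne_zero.2 hne)

theorem cau_hor {lo hi : ι × Bool → ℝ} {h : Cn ι → ℂ} (hh : AnalyticOnNhd ℂ h (Bx lo hi)) {i : ι}
    {z : Cn ι} (hz : ∀ k : ι × Bool, k.1 ≠ i → lo k ≤ xc k z ∧ xc k z ≤ hi k)
    (hab : lo (i, true) ≤ hi (i, true)) {e : ℝ} (he : e ∈ Icc (lo (i, false)) (hi (i, false)))
    (hne : e ≠ (z i).im) :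
    AnalyticAt ℂ (fun y : Cn ι => ∫ x : ℝ in (lo (i, true))..(hi (i, true)),
      h (update y i (x + e * Complex.I)) / (x + e * Complex.I - y i)) z := by
  refine an_int (G := fun q : Cn ι × ℂ => h (update q.1 i q.2) / (q.2 - q.1 i))
    (γ := fun x : ℝ => (x : ℂ) + e * Complex.I) (by fun_prop) fun t ht => ?_
  rw [uIcc_of_le hab] at ht
  refine cau_G (hh _ (cau_mem hz (by simpa using ht) (by simpa using he))) fun h' => hne ?_
  simpa using congrArg Complex.im h'

theorem cau_ver {lo hi : ι × Bool → ℝ} {h : Cn ι → ℂ} (hh : AnalyticOnNhd ℂ h (Bx lo hi)) {i : ι}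
    {z : Cn ι} (hz : ∀ k : ι × Bool, k.1 ≠ i → lo k ≤ xc k z ∧ xc k z ≤ hi k)
    (hab : lo (i, false) ≤ hi (i, false)) {e : ℝ} (he : e ∈ Icc (lo (i, true)) (hi (i, true)))
    (hne : e ≠ (z i).re) :
    AnalyticAt ℂ (fun y : Cn ι => ∫ x : ℝ in (lo (i, false))..(hi (i, false)),
      h (update y i (e + x * Complex.I)) / (e + x * Complex.I - y i)) z := by
  refine an_int (G := fun q : Cn ι × ℂ => h (update q.1 i q.2) / (q.2 - q.1 i))
    (γ := fun x : ℝ => (e : ℂ) + x * Complex.I) (by fun_prop) fun t ht => ?_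
  rw [uIcc_of_le hab] at ht
  refine cau_G (hh _ (cau_mem hz (by simpa using he) (by simpa using ht))) fun h' => hne ?_
  simpa using congrArg Complex.re h'

theorem cauchy4 {lo hi : ι × Bool → ℝ} {h : Cn ι → ℂ} (hh : AnalyticOnNhd ℂ h (Bx lo hi)) (i : ι) :
    ∃ pL pR pB pT : Cn ι → ℂ, (∀ᶠ z in 𝓝ˢ (Bx lo hi), h z = pL z + pR z + pB z + pT z) ∧
      ∀ z : Cn ι, (∀ k : ι × Bool, k.1 ≠ i → lo k ≤ xc k z ∧ xc k z ≤ hi k) →
        (lo (i, true) ≤ (z i).re → AnalyticAt ℂ pL z) ∧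
        ((z i).re ≤ hi (i, true) → AnalyticAt ℂ pR z) ∧
        (lo (i, false) ≤ (z i).im → AnalyticAt ℂ pB z) ∧
        ((z i).im ≤ hi (i, false) → AnalyticAt ℂ pT z) := by
  rcases (Bx lo hi).eq_empty_or_nonempty with hE | ⟨z₀, hz₀⟩
  · refine ⟨0, 0, 0, 0, by rw [hE, nhdsSet_empty]; exact eventually_bot, fun z _ =>
      ⟨fun _ => analyticAt_const, fun _ => analyticAt_const, fun _ => analyticAt_const,
        fun _ => analyticAt_const⟩⟩
  have hle : ∀ k, lo k ≤ hi k := fun k => (hz₀ k).1.trans (hz₀ k).2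
  obtain ⟨ε, hε, hh'⟩ := cau_enl hh
  set lo' : ι × Bool → ℝ := fun k => lo k - ε with hlo
  set hi' : ι × Bool → ℝ := fun k => hi k + ε with hhi
  have h1 : ∀ k, lo' k < lo k := fun k => by simp only [hlo]; linarith
  have h2 : ∀ k, hi k < hi' k := fun k => by simp only [hhi]; linarith
  have hle' : ∀ k, lo' k ≤ hi' k := fun k => by linarith [h1 k, h2 k, hle k]
  clear_value lo' hi'
  let H : ℝ → Cn ι → ℂ := fun e y => ∫ x : ℝ in (lo' (i, true))..(hi' (i, true)),
    h (update y i (x + e * Complex.I)) / (x + e * Complex.I - y i)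
  let V : ℝ → Cn ι → ℂ := fun e y => ∫ x : ℝ in (lo' (i, false))..(hi' (i, false)),
    h (update y i (e + x * Complex.I)) / (e + x * Complex.I - y i)
  let κ : ℂ := (2 * Real.pi * Complex.I)⁻¹
  refine ⟨fun y => -(κ * Complex.I) * V (lo' (i, true)) y,
    fun y => κ * Complex.I * V (hi' (i, true)) y, fun y => κ * H (lo' (i, false)) y,
    fun y => -κ * H (hi' (i, false)) y, ?_, fun z hz => ?_⟩
  · have hO : IsOpen {z : Cn ι | ∀ k, lo' k < xc k z ∧ xc k z < hi' k} := by
      rw [ofPred_forall]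
      exact isOpen_iInter_of_finite fun k =>
        (isOpen_lt continuous_const (box_cont k)).inter (isOpen_lt (box_cont k) continuous_const)
    have hsub : Bx lo hi ⊆ {z : Cn ι | ∀ k, lo' k < xc k z ∧ xc k z < hi' k} := fun z hz k =>
      ⟨(h1 k).trans_le (hz k).1, (hz k).2.trans_lt (h2 k)⟩
    filter_upwards [hO.mem_nhdsSet.2 hsub] with z hz
    have hr := rect_cauchy (w := z i) (g := fun ζ => h (update z i ζ)) (hz (i, true)).1
      (hz (i, true)).2 (hz (i, false)).1 (hz (i, false)).2 fun ζ hζ1 hζ2 => by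
        have h3 : AnalyticAt ℂ h (update z i ζ) :=
          hh' _ (cau_mem (fun k _ => ⟨(hz k).1.le, (hz k).2.le⟩) hζ1 hζ2)
        have h4 : AnalyticAt ℂ (fun ζ : ℂ => update z i ζ) ζ :=
          AnalyticAt.comp (g := fun q : Cn ι × ℂ => update q.1 i q.2) (f := fun ζ : ℂ => (z, ζ))
            (cau_upd i (z, ζ)) (analyticAt_const.prod analyticAt_id)
        exact AnalyticAt.comp (g := h) (f := fun ζ : ℂ => update z i ζ) h3 h4
    simp only [update_eq_self] at hr
    have hκ : κ * (2 * Real.pi * Complex.I) = 1 := inv_mul_cancel₀ Complex.two_pi_I_ne_zero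
    have hr' : H (lo' (i, false)) z - H (hi' (i, false)) z + Complex.I * V (hi' (i, true)) z -
        Complex.I * V (lo' (i, true)) z = 2 * Real.pi * Complex.I * h z := hr
    linear_combination (-κ) * hr' - h z * hκ
  · have hz' : ∀ k : ι × Bool, k.1 ≠ i → lo' k ≤ xc k z ∧ xc k z ≤ hi' k := fun k hk =>
      ⟨(h1 k).le.trans (hz k hk).1, (hz k hk).2.trans (h2 k).le⟩
    refine ⟨fun hc => analyticAt_const.mul ?_, fun hc => analyticAt_const.mul ?_,
      fun hc => analyticAt_const.mul ?_, fun hc => analyticAt_const.mul ?_⟩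
    · exact cau_ver hh' hz' (hle' _) ⟨le_rfl, hle' _⟩ ((h1 _).trans_le hc).ne
    · exact cau_ver hh' hz' (hle' _) ⟨hle' _, le_rfl⟩ (hc.trans_lt (h2 _)).ne'
    · exact cau_hor hh' hz' (hle' _) ⟨le_rfl, hle' _⟩ ((h1 _).trans_le hc).ne
    · exact cau_hor hh' hz' (hle' _) ⟨hle' _, le_rfl⟩ (hc.trans_lt (h2 _)).ne'

end

end Vale.Agent.P290
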