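import Vale.Agent.P290.Bridge

/-!
P290 Chart. Helper lemma names start with chart_.
sig_eq: u = u 0 • e0 + u 1 • e1, bilinearity, alt (σ e1 e0 = - σ e0 e1 from alt (e0 + e1)). For φ in the atlas use
`mdifferentiableAt_atlas`, `mdifferentiableAt_atlas_symm`, `OpenPartialHomeomorph.MDifferentiable.symm_comp_deriv`, `.comp_symm_deriv`
(`mdifferentiable_of_mem_atlas`), `contMDiffOn_of_mem_maximalAtlas`, `contMDiffOn_symm_of_mem_maximalAtlas`, `mfderiv_comp`.
rho_an: TwoForm.hol and `P278.osgood`. sig_chart: u = dφ⁻¹ (dφ u), expand dφ u in e0, e1.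
chart_an: Hol is an open condition (`contMDiffAt_iff_contMDiffAt_nhds`), chain rule, md_eq.
-/

namespace Vale.Agent.P290

open scoped Manifold ContDiff Topology LinearAlgebra.Projectivization
open Set Filter Metric Function

noncomputable section

theorem chart_alt {B : C2 →L[ℂ] C2 →L[ℂ] ℂ} (h : ∀ v, B v v = 0) (L : C2 →L[ℂ] C2) (u v : C2) :
    B (L u) (L v) = B (L e0) (L e1) * det2 u v := by
  have e : ∀ u : C2, u = u 0 • e0 + u 1 • e1 := fun u => by
    ext i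
    fin_cases i <;> simp [e0, e1]
  have a := h (L e0 + L e1)
  conv_lhs => rw [e u, e v]
  simp only [map_add, map_smul, add_apply, smul_apply, smul_eq_mul, h, det2] at a ⊢
  linear_combination (u 1 * v 0) * a

variable {X : Type*} [MetricSpace X] [ChartedSpace C2 X] [IsManifold 𝓘(ℂ, C2) ω X]

omit [IsManifold 𝓘(ℂ, C2) ω X] in
theorem sig_eq (σ : TwoForm X) (x : X) (u v : C2) : σ.σ x u v = σ.σ x e0 e1 * det2 u v := by
  exact chart_alt (σ.alt x) (ContinuousLinearMap.id ℂ C2) u v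

omit [IsManifold 𝓘(ℂ, C2) ω X] in
theorem sig_ne (σ : TwoForm X) (x : X) : σ.σ x e0 e1 ≠ 0 := by
  refine fun h => σ.ne x ?_
  ext1 u
  ext1 v
  rw [sig_eq, h, zero_mul]
  rfl

variable {φ : OpenPartialHomeomorph X C2}

theorem chart_hol (hφ : φ ∈ atlas C2 X) {x : X} (hx : x ∈ φ.source) : Hol C2 C2 φ x := by
  exact contMDiffAt_of_mem_maximalAtlas (IsManifold.subset_maximalAtlas hφ) hx

theorem chart_symm_hol (hφ : φ ∈ atlas C2 X) {y : C2} (hy : y ∈ φ.target) :
    Hol C2 C2 φ.symm y := by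
  exact contMDiffAt_symm_of_mem_maximalAtlas (IsManifold.subset_maximalAtlas hφ) hy

theorem md_symm_md (hφ : φ ∈ atlas C2 X) {x : X} (hx : x ∈ φ.source) (u : C2) :
    md C2 C2 φ.symm (φ x) (md C2 C2 φ x u) = u := by
  exact DFunLike.congr_fun ((mdifferentiable_of_mem_atlas (I := 𝓘(ℂ, C2)) hφ).symm_comp_deriv hx) u

theorem md_md_symm (hφ : φ ∈ atlas C2 X) {x : X} (hx : x ∈ φ.source) (u : C2) :
    md C2 C2 φ x (md C2 C2 φ.symm (φ x) u) = u := by
  have := DFunLike.congr_fun ((mdifferentiable_of_mem_atlas (I := 𝓘(ℂ, C2)) hφ).comp_symm_deriv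
    (φ.map_source hx)) u
  rw [φ.left_inv hx] at this
  exact this

omit [IsManifold 𝓘(ℂ, C2) ω X] in
theorem rho_an (σ : TwoForm X) (hφ : φ ∈ atlas C2 X) {y : C2} (hy : y ∈ φ.target) :
    AnalyticAt ℂ (rho σ φ) y := by
  exact P278.osgood φ.open_target (σ.hol φ hφ e0 e1) y hy

theorem sig_chart (σ : TwoForm X) (hφ : φ ∈ atlas C2 X) {x : X} (hx : x ∈ φ.source) :
    rho σ φ (φ x) ≠ 0 ∧ ∀ u v, σ.σ x u v =
      rho σ φ (φ x) * det2 (md C2 C2 φ x u) (md C2 C2 φ x v) := by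
  have h : ∀ u v, σ.σ x u v = rho σ φ (φ x) * det2 (md C2 C2 φ x u) (md C2 C2 φ x v) :=
    fun u v => by
      rw [rho, φ.left_inv hx, ← chart_alt (σ.alt x), md_symm_md hφ hx, md_symm_md hφ hx]
  exact ⟨fun e => sig_ne σ x (by rw [h, e, zero_mul]), h⟩

end

end Vale.Agent.P290
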