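import Vale.Agent.P290.Chart

/-!
P290 ChartS (second part of Chart; the plan covers both parts). Helper lemma names start with charts_.
sig_eq: u = u 0 • e0 + u 1 • e1, bilinearity, alt (σ e1 e0 = - σ e0 e1 from alt (e0 + e1)). For φ in the atlas use
`mdifferentiableAt_atlas`, `mdifferentiableAt_atlas_symm`, `OpenPartialHomeomorph.MDifferentiable.symm_comp_deriv`, `.comp_symm_deriv`
(`mdifferentiable_of_mem_atlas`), `contMDiffOn_of_mem_maximalAtlas`, `contMDiffOn_symm_of_mem_maximalAtlas`, `mfderiv_comp`.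
rho_an: TwoForm.hol and `P278.osgood`. sig_chart: u = dφ⁻¹ (dφ u), expand dφ u in e0, e1.
chart_an: Hol is an open condition (`contMDiffAt_iff_contMDiffAt_nhds`), chain rule, md_eq.
-/

namespace Vale.Agent.P290

open scoped Manifold ContDiff Topology LinearAlgebra.Projectivization
open Set Filter Metric Function

noncomputable section

variable {X : Type*} [MetricSpace X] [ChartedSpace C2 X] [IsManifold 𝓘(ℂ, C2) ω X]
variable {φ : OpenPartialHomeomorph X C2}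

theorem chart_an (hφ : φ ∈ atlas C2 X) {N : Type} [NormedAddCommGroup N] [NormedSpace ℂ N]
    {S : N → X} {p : N} (hS : Hol N C2 S p) (hp : S p ∈ φ.source) :
    AnalyticAt ℂ (φ ∘ S) p ∧ ∀ᶠ q in 𝓝 p, S q ∈ φ.source ∧ Hol N C2 S q ∧
      ∀ u, fderiv ℂ (φ ∘ S) q u = md C2 C2 φ (S q) (md N C2 S q u) := by
  refine ⟨hol_iff.mp (ContMDiffAt.comp p (chart_hol hφ hp) hS), ?_⟩
  have h1 : ∀ᶠ q in 𝓝 p, S q ∈ φ.source :=
    (ContMDiffAt.continuousAt hS).preimage_mem_nhds (φ.open_source.mem_nhds hp)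
  have h2 : ∀ᶠ q in 𝓝 p, Hol N C2 S q :=
    (contMDiffAt_iff_contMDiffAt_nhds (by simp)).mp hS
  filter_upwards [h1, h2] with q hq1 hq2
  refine ⟨hq1, hq2, fun u => ?_⟩
  rw [← md_eq]
  exact mfderiv_comp_apply q (ContMDiffAt.mdifferentiableAt (chart_hol hφ hq1) (by simp))
    (ContMDiffAt.mdifferentiableAt hq2 (by simp)) u

theorem fun_chart (hφ : φ ∈ atlas C2 X) {B : Type} [NormedAddCommGroup B] [NormedSpace ℂ B]
    [CompleteSpace B] {f : X → B} {x : X} (hx : x ∈ φ.source) (hf : Hol C2 B f x) :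
    AnalyticAt ℂ (f ∘ φ.symm) (φ x) ∧
      ∀ u, md C2 B f x u = fderiv ℂ (f ∘ φ.symm) (φ x) (md C2 C2 φ x u) := by
  have hs := chart_symm_hol hφ (φ.map_source hx)
  have hf' : Hol C2 B f (φ.symm (φ x)) := by rwa [φ.left_inv hx]
  refine ⟨hol_iff.mp (ContMDiffAt.comp (φ x) hf' hs), fun u => ?_⟩
  rw [← md_eq]
  have h := mfderiv_comp_apply_of_eq (φ x) (ContMDiffAt.mdifferentiableAt hf (by simp))
    (ContMDiffAt.mdifferentiableAt hs (by simp)) (φ.left_inv hx) (md C2 C2 φ x u)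
  refine Eq.trans ?_ h.symm
  exact congrArg (md C2 B f x) (md_symm_md hφ hx u).symm

omit [IsManifold 𝓘(ℂ, C2) ω X] in
theorem charts_comp {H : X → C2} {γ : ℂ → X} {s : ℂ} (h : Sol H γ s) {B : Type}
    [NormedAddCommGroup B] [NormedSpace ℂ B] {f : X → B} (hf : Hol C2 B f (γ s)) :
    HasDerivAt (f ∘ γ) (md C2 B f (γ s) (H (γ s))) s := by
  have h1 := HasMFDerivAt.comp s (ContMDiffAt.mdifferentiableAt hf (by simp)).hasMFDerivAt h
  have h2 : HasFDerivAt (f ∘ γ) ((md C2 B f (γ s)).comp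
      ((1 : ℂ →L[ℂ] ℂ).smulRight (H (γ s)) : ℂ →L[ℂ] C2)) s :=
    hasMFDerivAt_iff_hasFDerivAt.mp h1
  simpa using h2.hasDerivAt

theorem sol_chart (hφ : φ ∈ atlas C2 X) {H : X → C2} {γ : ℂ → X} {s : ℂ}
    (hs : γ s ∈ φ.source) (hc : ContinuousAt γ s) :
    Sol H γ s ↔ HasDerivAt (φ ∘ γ) (md C2 C2 φ (γ s) (H (γ s))) s := by
  refine ⟨fun h => charts_comp h (chart_hol hφ hs), fun h => ?_⟩
  have hsym := (ContMDiffAt.mdifferentiableAt (chart_symm_hol hφ (φ.map_source hs))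
    (by simp)).hasMFDerivAt
  have h1 := HasMFDerivAt.comp (f := φ ∘ γ) s hsym h.hasFDerivAt.hasMFDerivAt
  have h2 : γ =ᶠ[𝓝 s] φ.symm ∘ φ ∘ γ := by
    filter_upwards [hc.preimage_mem_nhds (φ.open_source.mem_nhds hs)] with t ht
    exact (φ.left_inv ht).symm
  refine (h1.congr_of_eventuallyEq h2).congr_mfderiv ?_
  refine ContinuousLinearMap.ext fun (c : ℂ) => ?_
  change md C2 C2 φ.symm (φ (γ s)) ((c : ℂ) • md C2 C2 φ (γ s) (H (γ s))) = (c : ℂ) • H (γ s)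
  rw [map_smul, md_symm_md hφ hs]

omit [IsManifold 𝓘(ℂ, C2) ω X] in
theorem Sol.deriv_comp {H : X → C2} {γ : ℂ → X} {s : ℂ} (h : Sol H γ s) {B : Type}
    [NormedAddCommGroup B] [NormedSpace ℂ B] {f : X → B} (hf : Hol C2 B f (γ s)) :
    HasDerivAt (f ∘ γ) (md C2 B f (γ s) (H (γ s))) s :=
  charts_comp h hf

omit [IsManifold 𝓘(ℂ, C2) ω X] in
theorem Sol.shift {H : X → C2} {γ : ℂ → X} {a s : ℂ} (h : Sol H γ (a + s)) :
    Sol H (fun t => γ (a + t)) s := by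
  have h0 : HasDerivAt (fun t : ℂ => a + t) 1 s := (hasDerivAt_id s).const_add a
  have h1 := HasMFDerivAt.comp (f := fun t : ℂ => a + t) s h h0.hasFDerivAt.hasMFDerivAt
  refine h1.congr_mfderiv ?_
  refine ContinuousLinearMap.ext fun (c : ℂ) => ?_
  change ((c : ℂ) • (1 : ℂ)) • H (γ (a + s)) = (c : ℂ) • H (γ (a + s))
  rw [smul_eq_mul, mul_one]

omit [IsManifold 𝓘(ℂ, C2) ω X] in
theorem Sol.scale {H H' : X → C2} {γ : ℂ → X} {c s : ℂ} (h : Sol H γ (c * s))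
    (hH : H' (γ (c * s)) = c • H (γ (c * s))) : Sol H' (fun t => γ (c * t)) s := by
  have h0 : HasDerivAt (fun t : ℂ => c * t) c s := by
    simpa using (hasDerivAt_id s).const_mul c
  have h1 := HasMFDerivAt.comp (f := fun t : ℂ => c * t) s h h0.hasFDerivAt.hasMFDerivAt
  refine h1.congr_mfderiv ?_
  refine ContinuousLinearMap.ext fun (d : ℂ) => ?_
  change ((d : ℂ) • c) • H (γ (c * s)) = (d : ℂ) • H' (γ (c * s))
  rw [hH, smul_eq_mul, mul_smul]

end

end Vale.Agent.P290
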