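import Vale.Agent.P290.ChartS

/-!
P290 Comp. Helper lemma names start with comp_.
hol, val: `ContMDiffAt.comp`, `ContMDiffAt.prodMk`, `contMDiffAt_fst`; the projections T1 × T2 → Ti are `ContinuousLinearMap.contMDiff`
(model 𝓘(ℂ, T1 × T2)). Partial maps x ↦ M (z, x, 0), t ↦ M (z, f z, t) are ContMDiffAt, hence MDifferentiableAt; `mfderiv_comp`.
Ranges: restrict t ↦ comp along the linear maps inl, inr. pres: {q | ContMDiffAt M1 q} is a neighbourhood of each (z, f z, 0)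
(`contMDiffAt_iff_contMDiffAt_nhds`); tube and unif with base map z ↦ (f z, 0) give δ such that h' z = M1 (z, h z, τ1 z) is HolOn K and within δ2 of g.
rg_open: S (z, t) = M (z, f z, t) is Hol at (z0, 0); in the chart at S (z0, 0) (chart_an) pick u v with det2 (w u) (w v) ≠ 0,
w = fderiv (φ ∘ S) (z, 0) ∘ inr, continuous in z; two vectors with det2 ≠ 0 span; md_symm_md.
-/

namespace Vale.Agent.P290

open scoped Manifold ContDiff Topology LinearAlgebra.Projectivization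
open Set Filter Metric Function

noncomputable section

variable {X : Type*} [MetricSpace X] [ChartedSpace C2 X] [IsManifold 𝓘(ℂ, C2) ω X]
  {ι : Type} [Fintype ι]

variable {T T1 T2 : Type} [NormedAddCommGroup T] [NormedSpace ℂ T] [NormedAddCommGroup T1]
  [NormedSpace ℂ T1] [NormedAddCommGroup T2] [NormedSpace ℂ T2] {K Q : Set (Cn ι)}

omit [IsManifold 𝓘(ℂ, C2) ω X] in
theorem comp_three {E H N : Type*} [NormedAddCommGroup E] [NormedSpace ℂ E] [TopologicalSpace H]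
    {I : ModelWithCorners ℂ E H} [TopologicalSpace N] [ChartedSpace H N] {M : Cn ι × X × T → X}
    {a : N → Cn ι} {x : N → X} {t : N → T} {p : N} {q : Cn ι × X × T}
    (hM : ContMDiffAt (I3 (Cn ι) T) 𝓘(ℂ, C2) ω M q) (ha : ContMDiffAt I 𝓘(ℂ, Cn ι) ω a p)
    (hx : ContMDiffAt I 𝓘(ℂ, C2) ω x p) (ht : ContMDiffAt I 𝓘(ℂ, T) ω t p)
    (e : (a p, x p, t p) = q) : ContMDiffAt I 𝓘(ℂ, C2) ω (fun p => M (a p, x p, t p)) p :=
  hM.comp_of_eq (ha.prodMk (hx.prodMk ht)) e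

theorem comp_md {A B C : Type} [NormedAddCommGroup A] [NormedSpace ℂ A] [NormedAddCommGroup B]
    [NormedSpace ℂ B] [NormedAddCommGroup C] [NormedSpace ℂ C] {M N P : Type*} [TopologicalSpace M]
    [ChartedSpace A M] [TopologicalSpace N] [ChartedSpace B N] [TopologicalSpace P]
    [ChartedSpace C P] {g : N → P} {f : M → N} {x : M} {y : N} (hg : Hol B C g y) (hf : Hol A B f x)
    (e : f x = y) (v : A) : md A C (fun p => g (f p)) x v = md B C g y (md A B f x v) := by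
  subst e
  exact mfderiv_comp_apply x (ContMDiffAt.mdifferentiableAt hg (by simp))
    (ContMDiffAt.mdifferentiableAt hf (by simp)) v

omit [IsManifold 𝓘(ℂ, C2) ω X] in
theorem comp_an {G : T → X} {p : Cn ι → T} {z : Cn ι} (hG : Hol T C2 G (p z))
    (hp : AnalyticAt ℂ p z) : Hol (Cn ι) C2 (fun w => G (p w)) z := by
  obtain ⟨c, d⟩ := contMDiffAt_iff_target.1 hG
  refine contMDiffAt_iff_target.2 ⟨c.comp hp.continuousAt, contMDiffAt_iff_contDiffAt.2 ?_⟩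
  exact ((contMDiffAt_iff_contDiffAt.1 d).analyticAt.comp hp).contDiffAt

theorem comp_near (hK : IsCompact K) {f g : Cn ι → X} (hf : HolOn f K) {M : Cn ι × X × T → X}
    (h : Tr K Q f g M) {ε : ℝ} (hε : 0 < ε) : ∃ δ : ℝ, 0 < δ ∧ ∀ z ∈ K, ∀ x t, dist x (f z) < δ →
      ‖t‖ < δ → ContMDiffAt (I3 (Cn ι) T) 𝓘(ℂ, C2) ω M (z, x, t) ∧ dist (M (z, x, t)) (g z) < ε := by
  have hc : ∀ z ∈ K, ContinuousAt (fun z => ((f z, 0) : X × T)) z := fun z hz =>
    (ContMDiffAt.continuousAt (hf z hz)).prodMk continuousAt_const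
  obtain ⟨δ, h0, h1⟩ := tube hK hc (W := {q | ContMDiffAt (I3 (Cn ι) T) 𝓘(ℂ, C2) ω M q})
    fun z hz => (contMDiffAt_iff_contMDiffAt_nhds (by simp)).1 (h.hol z hz)
  obtain ⟨δ', h0', h1'⟩ := unif hK hc (G := M) (fun z hz => (h.hol z hz).continuousAt) hε
  refine ⟨min δ δ', lt_min h0 h0', fun z hz x t hx ht => ?_⟩
  have hd : dist ((x, t) : X × T) (f z, 0) < min δ δ' := by
    rw [Prod.dist_eq, dist_zero_right]
    exact max_lt hx ht
  refine ⟨h1 z hz _ (hd.trans_le (min_le_left _ _)), ?_⟩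
  rw [← h.val z hz]
  exact h1' z hz _ (hd.trans_le (min_le_right _ _))

theorem Tr.comp (hK : IsCompact K) {f g h : Cn ι → X} (hf : HolOn f K)
    {M1 : Cn ι × X × T1 → X} {M2 : Cn ι × X × T2 → X} (h1 : Tr K Q f g M1) (h2 : Tr K Q g h M2) :
    ∃ M : Cn ι × X × (T1 × T2) → X, Tr K Q f h M ∧ ∀ z ∈ K, Rg g M2 z ≤ Rg f M z ∧
      ∀ v ∈ Rg f M1 z, md C2 C2 (fun x => M2 (z, x, 0)) (g z) v ∈ Rg f M z := by
  have hol : ∀ z ∈ K, ContMDiffAt (I3 (Cn ι) (T1 × T2)) 𝓘(ℂ, C2) ω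
      (fun q : Cn ι × X × (T1 × T2) => M2 (q.1, M1 (q.1, q.2.1, q.2.2.1), q.2.2.2))
      (z, f z, 0) := fun z hz => by
    have b : ContMDiffAt (I3 (Cn ι) (T1 × T2)) 𝓘(ℂ, T1 × T2) ω
        (fun q : Cn ι × X × (T1 × T2) => q.2.2) (z, f z, 0) := contMDiffAt_snd.snd
    refine comp_three (h2.hol z hz) contMDiffAt_fst
      (comp_three (h1.hol z hz) contMDiffAt_fst contMDiffAt_snd.fst
        ((ContinuousLinearMap.fst ℂ T1 T2).contMDiff.contMDiffAt.comp _ b) rfl)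
      ((ContinuousLinearMap.snd ℂ T1 T2).contMDiff.contMDiffAt.comp _ b) ?_
    rw [← h1.val z hz]
    rfl
  have x1 : ∀ z ∈ K, Hol C2 C2 (fun x => M1 (z, x, 0)) (f z) := fun z hz =>
    comp_three (h1.hol z hz) contMDiffAt_const contMDiffAt_id contMDiffAt_const rfl
  have x2 : ∀ z ∈ K, Hol C2 C2 (fun x => M2 (z, x, 0)) (g z) := fun z hz =>
    comp_three (h2.hol z hz) contMDiffAt_const contMDiffAt_id contMDiffAt_const rfl
  refine ⟨fun q => M2 (q.1, M1 (q.1, q.2.1, q.2.2.1), q.2.2.2),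
    ⟨hol, fun z hz => ?_, fun z hz w => ?_, ?_⟩, fun z hz => ?_⟩
  · rw [← h2.val z hz, ← h1.val z hz]
    rfl
  · obtain ⟨v, rfl⟩ := h2.sur z hz w
    obtain ⟨u, rfl⟩ := h1.sur z hz v
    exact ⟨u, comp_md (x2 z hz) (x1 z hz) (h1.val z hz) u⟩
  · obtain ⟨δ1, p1, q1⟩ := h1.pres
    obtain ⟨δ2, p2, q2⟩ := h2.pres
    obtain ⟨δ, p, q⟩ := comp_near hK hf h1 p2
    refine ⟨min δ (min δ1 δ2), lt_min p (lt_min p1 p2), fun k τ hk hτ hd ha => ?_⟩
    have t1 : AnalyticOnNhd ℂ (fun z => (τ z).1) K := fun z hz =>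
      analyticAt_fst.comp (hτ z hz)
    have t2 : AnalyticOnNhd ℂ (fun z => (τ z).2) K := fun z hz =>
      analyticAt_snd.comp (hτ z hz)
    simp only [lt_min_iff] at hd
    have r := fun z hz => q z hz (k z) (τ z).1 (hd z hz).1.1
      ((norm_fst_le _).trans_lt (hd z hz).2.1)
    refine q2 (fun z => M1 (z, k z, (τ z).1)) (fun z => (τ z).2) (fun z hz => ?_) t2
      (fun z hz => ⟨(r z hz).2, (norm_snd_le _).trans_lt (hd z hz).2.2.2⟩)
      (q1 k _ hk t1 (fun z hz => ⟨(hd z hz).1.2.1, (norm_fst_le _).trans_lt (hd z hz).2.2.1⟩) ha)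
    have l1 : ContMDiffAt 𝓘(ℂ, Cn ι × T1) 𝓘(ℂ, Cn ι) ω Prod.fst (z, (τ z).1) :=
      (ContinuousLinearMap.fst ℂ (Cn ι) T1).contMDiff.contMDiffAt
    have l2 : ContMDiffAt 𝓘(ℂ, Cn ι × T1) 𝓘(ℂ, T1) ω Prod.snd (z, (τ z).1) :=
      (ContinuousLinearMap.snd ℂ (Cn ι) T1).contMDiff.contMDiffAt
    exact comp_an (G := fun q : Cn ι × T1 => M1 (q.1, k q.1, q.2)) (p := fun z => (z, (τ z).1))
      (comp_three (r z hz).1 l1 (ContMDiffAt.comp _ (hk z hz) l1) l2 rfl)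
      (analyticAt_id.prod (t1 z hz))
  · have hS : Hol (T1 × T2) C2 (fun t : T1 × T2 => M2 (z, M1 (z, f z, t.1), t.2)) 0 :=
      comp_three (a := fun _ => z) (x := fun _ => f z) (t := id) (hol z hz) contMDiffAt_const
        contMDiffAt_const contMDiffAt_id rfl
    have il : Hol T1 (T1 × T2) (ContinuousLinearMap.inl ℂ T1 T2) 0 :=
      (ContinuousLinearMap.inl ℂ T1 T2).contMDiff.contMDiffAt
    have ir : Hol T2 (T1 × T2) (ContinuousLinearMap.inr ℂ T1 T2) 0 :=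
      (ContinuousLinearMap.inr ℂ T1 T2).contMDiff.contMDiffAt
    constructor
    · rintro _ ⟨u, rfl⟩
      refine ⟨_, (comp_md hS ir (map_zero _) u).symm.trans ?_⟩
      simp only [ContinuousLinearMap.inr_apply, h1.val z hz]
      rfl
    · rintro _ ⟨u, rfl⟩
      have t1 : Hol T1 C2 (fun t => M1 (z, f z, t)) 0 :=
        comp_three (h1.hol z hz) contMDiffAt_const contMDiffAt_const contMDiffAt_id rfl
      exact ⟨_, (comp_md hS il (map_zero _) u).symm.trans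
        (comp_md (x2 z hz) t1 (h1.val z hz) u)⟩

end

end Vale.Agent.P290
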