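import Vale.Agent.P290.PInt

/-!
P290 Div. Helper lemma names start with div_.
div_an: at p with u p ≠ 0 the function is eventually D z / u z. At p with u p = 0: near p it equals
∫ t in 0..1, fderiv D (z - (1 - t) • u z • v) v (an_int; fderiv D is analytic: `AnalyticAt.fderiv`): the point z0 = z - u z • v lies in ker u,
D z0 = 0, and D z = D z - D z0 = u z * integral by the fundamental theorem of calculus along the segment (inside a ball around p).
-/

namespace Vale.Agent.P290

open scoped Manifold ContDiff Topology LinearAlgebra.Projectivization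
open Set Filter Metric Function

noncomputable section

open Classical in
/-- The quotient `D / u`. -/
def dvd {E : Type*} [NormedAddCommGroup E] [NormedSpace ℂ E] (D : E → ℂ) (u : E →L[ℂ] ℂ) (v : E)
    (z : E) : ℂ := if u z = 0 then fderiv ℂ D z v else D z / u z

theorem div_an {E : Type*} [NormedAddCommGroup E] [NormedSpace ℂ E] [FiniteDimensional ℂ E]
    {D : E → ℂ} {u : E →L[ℂ] ℂ} {v : E} (hv : u v = 1) {p : E} (hD : AnalyticAt ℂ D p)
    (h0 : ∀ᶠ z in 𝓝 p, u z = 0 → D z = 0) :
    AnalyticAt ℂ (dvd D u v) p ∧ ∀ᶠ z in 𝓝 p, D z = u z * dvd D u v z := by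
  have := FiniteDimensional.complete ℂ E
  refine ⟨?_, h0.mono fun z hz => ?_⟩
  swap
  · unfold dvd
    split_ifs with h
    · rw [hz h, h, zero_mul]
    · field_simp
  by_cases hp : u p = 0
  swap
  · refine (hD.fun_div (u.analyticAt p) hp).congr ?_
    filter_upwards [u.continuous.continuousAt.eventually_ne hp] with z hz
    simp only [dvd, if_neg hz]
  have hG : ∀ t ∈ uIcc (0 : ℝ) 1, AnalyticAt ℂ (fun q : E × ℂ =>
      fderiv ℂ D (q.1 - u q.1 • v + q.2 • u q.1 • v) v) (p, (t : ℂ)) := by
    intro t _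
    have h1 : AnalyticAt ℂ (fun q : E × ℂ => u q.1 • v) (p, (t : ℂ)) :=
      ((u.analyticAt _).comp analyticAt_fst).smul analyticAt_const
    have h2 : AnalyticAt ℂ (fun q : E × ℂ => q.1 - u q.1 • v + q.2 • u q.1 • v) (p, (t : ℂ)) :=
      (analyticAt_fst.sub h1).add (analyticAt_snd.smul h1)
    have h3 := hD.fderiv.comp_of_eq h2 (by simp [hp])
    exact ((ContinuousLinearMap.apply ℂ ℂ v).analyticAt _).comp h3
  refine (an_int Complex.continuous_ofReal hG).congr ?_
  obtain ⟨r, hr, hb⟩ := Metric.eventually_nhds_iff_ball.1 (hD.eventually_analyticAt.and h0)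
  have hc : ContinuousAt (fun z : E => z - u z • v) p := by fun_prop
  have h1 : ∀ᶠ z in 𝓝 p, z - u z • v ∈ ball p r :=
    hc.eventually_mem (by simpa [hp] using ball_mem_nhds p hr)
  filter_upwards [h1, ball_mem_nhds p hr] with z hz0 hz
  unfold dvd
  split_ifs with h
  · simp [h]
  have hm : ∀ t ∈ uIcc (0 : ℝ) 1, z - u z • v + (t : ℂ) • u z • v ∈ ball p r := by
    intro t ht
    rw [uIcc_of_le zero_le_one] at ht
    rw [Complex.coe_smul]
    exact (convex_ball p r).add_smul_mem hz0 (by simpa using hz) ht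
  have hd : ∀ t ∈ uIcc (0 : ℝ) 1, HasDerivAt (fun t : ℝ => D (z - u z • v + (t : ℂ) • u z • v))
      (u z * fderiv ℂ D (z - u z • v + (t : ℂ) • u z • v) v) t := by
    intro t ht
    have h2 := (P278.osg2_line (hb _ (hm t ht)).1.differentiableAt).comp_ofReal
    rwa [map_smul, smul_eq_mul] at h2
  have hk : ContinuousOn (fun t : ℝ => u z * fderiv ℂ D (z - u z • v + (t : ℂ) • u z • v) v)
      (uIcc (0 : ℝ) 1) := by
    intro t ht
    have h2 : ContinuousAt (fun t : ℝ => z - u z • v + (t : ℂ) • u z • v) t := by fun_prop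
    have h3 := ContinuousAt.comp (f := fun t : ℝ => z - u z • v + (t : ℂ) • u z • v)
      (hb _ (hm t ht)).1.fderiv.continuousAt h2
    exact (continuousAt_const.mul (h3.clm_apply continuousAt_const)).continuousWithinAt
  have h4 := intervalIntegral.integral_eq_sub_of_hasDerivAt hd hk.intervalIntegrable
  have h5 : D (z - u z • v) = 0 := (hb _ hz0).2 (by simp [hv])
  rw [intervalIntegral.integral_const_mul] at h4
  rw [eq_div_iff h, mul_comm, h4]
  simp [h5]

end

end Vale.Agent.P290
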