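import Vale.Agent.P290.Comp

/-!
P290 RgO (second part of Comp; the plan covers both parts). Helper lemma names start with rgo_.
hol, val: `ContMDiffAt.comp`, `ContMDiffAt.prodMk`, `contMDiffAt_fst`; the projections T1 × T2 → Ti are `ContinuousLinearMap.contMDiff`
(model 𝓘(ℂ, T1 × T2)). Partial maps x ↦ M (z, x, 0), t ↦ M (z, f z, t) are ContMDiffAt, hence MDifferentiableAt; `mfderiv_comp`.
Ranges: restrict t ↦ comp along the linear maps inl, inr. pres: {q | ContMDiffAt M1 q} is a neighbourhood of each (z, f z, 0)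
(`contMDiffAt_iff_contMDiffAt_nhds`); tube and unif with base map z ↦ (f z, 0) give δ such that h' z = M1 (z, h z, τ1 z) is HolOn K and within δ2 of g.
rg_open: S (z, t) = M (z, f z, t) is Hol at (z0, 0); in the chart at S (z0, 0) (chart_an) pick u v with det2 (w u) (w v) ≠ 0,
w = fderiv (φ ∘ S) (z, 0) ∘ inr, continuous in z; two vectors with det2 ≠ 0 span; md_symm_md.
-/

namespace Vale.Agent.P290

open scoped Manifold ContDiff Topology LinearAlgebra.Projectivization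
open Set Filter Metric Function

noncomputable section

variable {X : Type*} [MetricSpace X] [ChartedSpace C2 X] [IsManifold 𝓘(ℂ, C2) ω X]
  {ι : Type} [Fintype ι]
variable {T T1 T2 : Type} [NormedAddCommGroup T] [NormedSpace ℂ T] [NormedAddCommGroup T1]
  [NormedSpace ℂ T1] [NormedAddCommGroup T2] [NormedSpace ℂ T2] {K Q : Set (Cn ι)}

omit [IsManifold 𝓘(ℂ, C2) ω X] in
theorem Tr.congr {f g g' : Cn ι → X} {M : Cn ι × X × T → X} (h : Tr K Q f g M)
    (hg : ∀ z ∈ K, g z = g' z) : Tr K Q f g' M := by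
  exact ⟨h.hol, fun z hz => (h.val z hz).trans (hg z hz), h.sur, h.pres⟩

omit [IsManifold 𝓘(ℂ, C2) ω X] in
theorem Tr.hol_S {f g : Cn ι → X} (hf : HolOn f K) {M : Cn ι × X × T → X} (h : Tr K Q f g M) :
    ∀ z ∈ K, Hol (Cn ι × T) C2 (fun q => M (q.1, f q.1, q.2)) (z, 0) := by
  intro z hz
  have h1 : ContMDiffAt 𝓘(ℂ, Cn ι × T) 𝓘(ℂ, Cn ι) ω (fun q : Cn ι × T => q.1) (z, 0) :=
    (ContinuousLinearMap.fst ℂ (Cn ι) T).contMDiff _
  have h2 : ContMDiffAt 𝓘(ℂ, Cn ι × T) 𝓘(ℂ, T) ω (fun q : Cn ι × T => q.2) (z, 0) :=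
    (ContinuousLinearMap.snd ℂ (Cn ι) T).contMDiff _
  have h3 : ContMDiffAt 𝓘(ℂ, Cn ι × T) 𝓘(ℂ, C2) ω (fun q : Cn ι × T => f q.1) (z, 0) :=
    ContMDiffAt.comp (z, 0) (hf z hz) h1
  exact ContMDiffAt.comp (z, 0) (f := fun q : Cn ι × T => (q.1, f q.1, q.2)) (h.hol z hz)
    (h1.prodMk (h3.prodMk h2))

omit [IsManifold 𝓘(ℂ, C2) ω X] in
theorem rgo_md {S : Cn ι × T → X} {z : Cn ι} (hS : Hol (Cn ι × T) C2 S (z, 0)) (u : T) :
    md T C2 (fun t => S (z, t)) 0 u = md (Cn ι × T) C2 S (z, 0) (0, u) := by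
  have h1 := (hasFDerivAt_prodMk_right (𝕜 := ℂ) z (0 : T)).hasMFDerivAt
  have h2 := (ContMDiffAt.mdifferentiableAt hS (by simp)).hasMFDerivAt
  have h3 := (HasMFDerivAt.comp (0 : T) (f := fun t : T => (z, t)) h2 h1).mfderiv
  exact congrArg (fun l : T →L[ℂ] C2 => l u) h3

theorem rgo_span {W : T →L[ℂ] C2} {u v : T} (h : det2 (W u) (W v) ≠ 0) : Surjective W := by
  intro y
  refine ⟨(det2 y (W v) / det2 (W u) (W v)) • u + (det2 (W u) y / det2 (W u) (W v)) • v, ?_⟩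
  rw [map_add, map_smul, map_smul]
  funext i
  simp only [Pi.add_apply, Pi.smul_apply, smul_eq_mul]
  field_simp
  unfold det2
  fin_cases i
  · simp only [Fin.zero_eta]
    ring
  · simp only [Fin.mk_one]
    ring

theorem rg_open {S : Cn ι × T → X} {z0 : Cn ι} (hS : Hol (Cn ι × T) C2 S (z0, 0))
    (h : Surjective (md T C2 (fun t => S (z0, t)) 0)) :
    ∀ᶠ z in 𝓝 z0, Surjective (md T C2 (fun t => S (z, t)) 0) := by
  have hφ := chart_mem_atlas C2 (S (z0, 0))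
  obtain ⟨h1, h2⟩ := chart_an hφ hS (mem_chart_source C2 _)
  generalize chartAt C2 (S (z0, 0)) = φ at hφ h1 h2
  have hc : ContinuousAt (fun z : Cn ι => ((z, 0) : Cn ι × T)) z0 := by fun_prop
  have h3 := hc.tendsto.eventually h2
  have h4 : ∀ u : T, ContinuousAt (fun z : Cn ι => fderiv ℂ (φ ∘ S) (z, 0) (0, u)) z0 := fun u =>
    (ContinuousAt.comp (f := fun z : Cn ι => ((z, 0) : Cn ι × T)) h1.fderiv.continuousAt
      hc).clm_apply continuousAt_const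
  obtain ⟨k1, k2, k3⟩ := h2.self_of_nhds
  have h5 : ∀ y : C2, ∃ u : T, fderiv ℂ (φ ∘ S) (z0, 0) (0, u) = y := fun y => by
    obtain ⟨u, hu⟩ := h (md C2 C2 φ.symm (φ (S (z0, 0))) y)
    exact ⟨u, by rw [k3, ← rgo_md k2, hu, md_md_symm hφ k1]⟩
  obtain ⟨u, hu⟩ := h5 e0
  obtain ⟨v, hv⟩ := h5 e1
  have h6 : ContinuousAt (fun z : Cn ι => det2 (fderiv ℂ (φ ∘ S) (z, 0) (0, u))
      (fderiv ℂ (φ ∘ S) (z, 0) (0, v))) z0 := by
    have a := continuousAt_pi.1 (h4 u)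
    have b := continuousAt_pi.1 (h4 v)
    exact ((a 0).mul (b 1)).sub ((a 1).mul (b 0))
  have h7 := h6.eventually_ne (y := 0) (by
    rw [hu, hv]
    simp [det2, e0, e1])
  filter_upwards [h3, h7] with z hz hd y
  obtain ⟨m1, m2, m3⟩ := hz
  obtain ⟨t, ht⟩ := rgo_span
    (W := (fderiv ℂ (φ ∘ S) (z, 0)).comp (ContinuousLinearMap.inr ℂ (Cn ι) T)) hd
    (md C2 C2 φ (S (z, 0)) y)
  refine ⟨t, ?_⟩
  have e : md C2 C2 φ (S (z, 0)) (md (Cn ι × T) C2 S (z, 0) (0, t)) = md C2 C2 φ (S (z, 0)) y :=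
    (m3 _).symm.trans ht
  rw [rgo_md m2, ← md_symm_md hφ m1 y, ← e, md_symm_md hφ m1]

end

end Vale.Agent.P290
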