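import Vale.Agent.P290.Basic
import Vale.Agent.P290.RgO
import Vale.Agent.P290.AccB

/-!
P290 Dom. Helper lemma names start with dom_.
dom_at: x = f z0, j from hreg, a a lift of π j ∘ f (lift_comp), s, i from access, g z = Φ j (f z) (a z) s (HolOn by Fl.hol_comp; a is also a
lift of π j ∘ g by Fl.fib), b a lift of π i ∘ g. Ma = basic j s : f → g with V j (g z0) (a z0) in its range; Mb = basic i 0 : g → g (Fl.zero,
Tr.congr) with V i (g z0) (b z0) in its range and x-derivative id; so Rg of Ma;Mb is ⊤ at z0 (sig_eq: det2 ≠ 0, two such vectors span).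
Mc = basic j (-s) : g → f (Fl.add, Fl.zero); Tr.sur gives ⊤ again.
dom_all: `IsCompact.induction_on` on K for P Z = ∃ T .. M, Tr K Q f f M ∧ ∀ z ∈ Z ∩ K, Rg f M z = ⊤; empty: M q = q.2.1 with T = ℂ;
union: Tr.comp and Tr.sur; local: dom_at, Tr.hol_S, rg_open (`LinearMap.range_eq_top`).
-/

namespace Vale.Agent.P290

open scoped Manifold ContDiff Topology LinearAlgebra.Projectivization
open Set Filter Metric Function

noncomputable section

variable {X : Type*} [MetricSpace X] [ChartedSpace C2 X] [IsManifold 𝓘(ℂ, C2) ω X]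
  {ι : Type} [Fintype ι]

variable {σ : TwoForm X} {k : ℕ} {π : Fin k → X → P1} {K Q : Set (Cn ι)}

theorem dom_span {W : Submodule ℂ C2} {u v : C2} (hu : u ∈ W) (hv : v ∈ W) (h : det2 u v ≠ 0) :
    W = ⊤ := by
  rw [eq_top_iff]
  intro w _
  have e : w = (det2 w v / det2 u v) • u + (det2 u w / det2 u v) • v := by
    funext i
    simp only [Pi.add_apply, Pi.smul_apply, smul_eq_mul]
    field_simp
    fin_cases i
    · simp only [det2, Fin.zero_eta]
      ring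
    · simp only [det2, Fin.mk_one]
      ring
  rw [e]
  exact W.add_mem (W.smul_mem _ hu) (W.smul_mem _ hv)

theorem dom_at (hπ : ∀ j, HolP (π j)) (F : ∀ j, Fl σ (π j))
    (hfin : ∀ x, {y | ∀ j, π j y = π j x}.Finite) (hreg : ∀ x, ∃ j, RegP (π j) x)
    (hK : IsCompact K) (hc : Convex ℝ K) (hQ : IsCompact Q) (hcQ : Convex ℝ Q) (hKQ : K ⊆ Q)
    {f : Cn ι → X} (hf : HolOn f K) {z0 : Cn ι} (hz : z0 ∈ K) :
    ∃ M : Cn ι × X × ((ℂ × ℂ) × ℂ) → X, Tr K Q f f M ∧ Rg f M z0 = ⊤ := by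
  obtain ⟨j, hj⟩ := hreg (f z0)
  obtain ⟨a, ha⟩ := lift_comp (hπ j) hK hc hf
  have ha1 : ∀ z ∈ K, On (π j (f z)) (a z) := fun z hz => ha.2.self_of_nhdsSet z hz
  obtain ⟨s, i, hs⟩ := access hπ F (hfin (f z0)) hj (ha1 z0 hz)
  set g : Cn ι → X := fun z => (F j).Φ (f z) (a z) s with hg
  have hgh : HolOn g K := fun z hz =>
    (F j).hol_comp (τ := fun _ => s) (hf z hz) (hol_iff.2 (ha.1 z hz)) contMDiffAt_const
      ((eventually_nhdsSet_iff_forall.1 ha.2) z hz)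
  have hag : LiftOn (fun z => π j (g z)) a K := by
    refine ⟨ha.1, ha.2.mono fun z hz => ?_⟩
    show On (π j ((F j).Φ (f z) (a z) s)) (a z)
    rw [(F j).fib s hz]
    exact hz
  obtain ⟨b, hb⟩ := lift_comp (hπ i) hK hc hgh
  have hb1 : ∀ z ∈ K, On (π i (g z)) (b z) := fun z hz => hb.2.self_of_nhdsSet z hz
  obtain ⟨Ma, hMa, hMa'⟩ := basic (hπ j) (F j) hK hc hQ hcQ hKQ hf ha s
  obtain ⟨Mb, hMb, hMb'⟩ := basic (hπ i) (F i) hK hc hQ hcQ hKQ hgh hb 0
  obtain ⟨Mc, hMc, -⟩ := basic (hπ j) (F j) hK hc hQ hcQ hKQ hgh hag (-s)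
  have hMb2 : Tr K Q g g Mb := hMb.congr fun z hz => (F i).zero (hb1 z hz)
  have hMc2 : Tr K Q g f Mc := hMc.congr fun z hz => by
    show (F j).Φ ((F j).Φ (f z) (a z) s) (a z) (-s) = f z
    rw [(F j).add s (-s) (ha1 z hz), add_neg_cancel, (F j).zero (ha1 z hz)]
  obtain ⟨M1, hM1, hM1'⟩ := Tr.comp hK hf hMa hMb2
  obtain ⟨M2, hM2, hM2'⟩ := Tr.comp hK hf hM1 hMc2
  refine ⟨M2, hM2, ?_⟩
  have htop : Rg f M1 z0 = ⊤ := by
    have hu : (F j).V (g z0) (a z0) ∈ Rg f M1 z0 := by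
      have h1 := (hM1' z0 hz).2 _ (hMa' z0 hz).1
      rwa [(hMb' z0 hz).2 rfl] at h1
    have hv : (F i).V (g z0) (b z0) ∈ Rg f M1 z0 := by
      have h1 := (hMb' z0 hz).1
      rw [(F i).zero (hb1 z0 hz)] at h1
      exact (hM1' z0 hz).1 h1
    refine dom_span hu hv fun h0 => hs (b z0) (hb1 z0 hz) ?_
    show σ.σ (g z0) ((F j).V (g z0) (a z0)) ((F i).V (g z0) (b z0)) = 0
    rw [sig_eq, h0, mul_zero]
  rw [eq_top_iff]
  intro w _
  obtain ⟨v, rfl⟩ := hMc2.sur z0 hz w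
  exact (hM2' z0 hz).2 v (htop ▸ Submodule.mem_top)


end

end Vale.Agent.P290
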