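import Vale.Agent.P290.Dom

/-!
P290 DomB (second part of Dom; the plan covers both parts). Helper lemma names start with domb_.
dom_at: x = f z0, j from hreg, a a lift of π j ∘ f (lift_comp), s, i from access, g z = Φ j (f z) (a z) s (HolOn by Fl.hol_comp; a is also a
lift of π j ∘ g by Fl.fib), b a lift of π i ∘ g. Ma = basic j s : f → g with V j (g z0) (a z0) in its range; Mb = basic i 0 : g → g (Fl.zero,
Tr.congr) with V i (g z0) (b z0) in its range and x-derivative id; so Rg of Ma;Mb is ⊤ at z0 (sig_eq: det2 ≠ 0, two such vectors span).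
Mc = basic j (-s) : g → f (Fl.add, Fl.zero); Tr.sur gives ⊤ again.
dom_all: `IsCompact.induction_on` on K for P Z = ∃ T .. M, Tr K Q f f M ∧ ∀ z ∈ Z ∩ K, Rg f M z = ⊤; empty: M q = q.2.1 with T = ℂ;
union: Tr.comp and Tr.sur; local: dom_at, Tr.hol_S, rg_open (`LinearMap.range_eq_top`).
-/

namespace Vale.Agent.P290

open scoped Manifold ContDiff Topology LinearAlgebra.Projectivization
open Set Filter Metric Function

noncomputable section

variable {X : Type*} [MetricSpace X] [ChartedSpace C2 X] [IsManifold 𝓘(ℂ, C2) ω X]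
  {ι : Type} [Fintype ι]
variable {σ : TwoForm X} {k : ℕ} {π : Fin k → X → P1} {K Q : Set (Cn ι)}

theorem dom_all (hπ : ∀ j, HolP (π j)) (F : ∀ j, Fl σ (π j))
    (hfin : ∀ x, {y | ∀ j, π j y = π j x}.Finite) (hreg : ∀ x, ∃ j, RegP (π j) x)
    (hK : IsCompact K) (hc : Convex ℝ K) (hQ : IsCompact Q) (hcQ : Convex ℝ Q) (hKQ : K ⊆ Q)
    {f : Cn ι → X} (hf : HolOn f K) :
    ∃ (T : Type) (_ : NormedAddCommGroup T) (_ : NormedSpace ℂ T) (_ : FiniteDimensional ℂ T)
      (M : Cn ι × X × T → X), Tr K Q f f M ∧ ∀ z ∈ K, Rg f M z = ⊤ := by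
  have key : ∃ (T : Type) (_ : NormedAddCommGroup T) (_ : NormedSpace ℂ T)
      (_ : FiniteDimensional ℂ T) (M : Cn ι × X × T → X),
      Tr K Q f f M ∧ ∀ z ∈ K, z ∈ K → Rg f M z = ⊤ := by
    refine hK.induction_on (p := fun Z => ∃ (T : Type) (_ : NormedAddCommGroup T)
      (_ : NormedSpace ℂ T) (_ : FiniteDimensional ℂ T) (M : Cn ι × X × T → X),
      Tr K Q f f M ∧ ∀ z ∈ Z, z ∈ K → Rg f M z = ⊤) ?_ ?_ ?_ ?_
    · refine ⟨ℂ, inferInstance, inferInstance, inferInstance, fun q => q.2.1,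
        ⟨fun z _ => contMDiffAt_snd.fst, fun z _ => rfl, fun z _ v => ⟨v, ?_⟩, 1, one_pos,
          fun h τ _ _ _ hh => hh⟩, fun z hz => hz.elim⟩
      exact DFunLike.congr_fun (mfderiv_id (I := 𝓘(ℂ, C2)) (x := f z)) v
    · rintro s t hst ⟨T, i1, i2, i3, M, h1, h2⟩
      exact ⟨T, i1, i2, i3, M, h1, fun z hz => h2 z (hst hz)⟩
    · rintro s t ⟨T, i1, i2, i3, M, h1, h2⟩ ⟨T', j1, j2, j3, M', h1', h2'⟩
      obtain ⟨N, n1, n2⟩ := Tr.comp hK hf h1 h1'
      refine ⟨T × T', inferInstance, inferInstance, inferInstance, N, n1, fun z hz hzK => ?_⟩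
      rcases hz with hz | hz
      · refine Submodule.eq_top_iff'.2 fun w => ?_
        obtain ⟨v, rfl⟩ := h1'.sur z hzK w
        exact (n2 z hzK).2 v (by rw [h2 z hz hzK]; exact Submodule.mem_top)
      · exact top_le_iff.1 (h2' z hz hzK ▸ (n2 z hzK).1)
    · intro z0 hz
      obtain ⟨M, h1, h2⟩ := dom_at hπ F hfin hreg hK hc hQ hcQ hKQ hf hz
      have h3 := rg_open (S := fun q => M (q.1, f q.1, q.2)) (h1.hol_S hf z0 hz)
        (LinearMap.range_eq_top.1 h2)
      exact ⟨_, mem_nhdsWithin_of_mem_nhds h3, _, inferInstance, inferInstance, inferInstance, M,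
        h1, fun z hz _ => LinearMap.range_eq_top.2 hz⟩
  obtain ⟨T, i1, i2, i3, M, h1, h2⟩ := key
  exact ⟨T, i1, i2, i3, M, h1, fun z hz => h2 z hz hz⟩

end

end Vale.Agent.P290
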