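import Vale.Agent.P290.LimB

/-! P290 Exh: exhaustion by closed balls. -/

namespace Vale.Agent.P290

open scoped Manifold ContDiff Topology LinearAlgebra.Projectivization
open Set Filter Metric Function

noncomputable section

variable {X : Type*} [MetricSpace X] [ChartedSpace C2 X] [IsManifold 𝓘(ℂ, C2) ω X]

theorem oka_of_appr [CompactSpace X] (h : ∀ (m : ℕ) (K Q : Set (Cn (Fin m))), IsCompact K →
    Convex ℝ K → IsCompact Q → Convex ℝ Q → K ⊆ Q → ∀ f : Cn (Fin m) → X, HolOn f K →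
      Appr K Q f) : Oka X := by
  intro m K U _ hK hc hU hKU f hf ε hε
  have hfK : HolOn f K := fun z hz => bridge (by
    filter_upwards [hU.mem_nhds (hKU hz)] with y hy
    exact (hf y hy).mdifferentiableAt (hU.mem_nhds hy))
  obtain ⟨R, hR⟩ := hK.isBounded.subset_closedBall (0 : Cn (Fin m))
  set Q : ℕ → Set (Cn (Fin m)) := fun n => closedBall 0 (R + n) with hQ
  have hQm : ∀ {a b : ℕ}, a ≤ b → Q a ⊆ Q b := fun hab =>
    closedBall_subset_closedBall (by gcongr)
  have hKQ : K ⊆ Q 0 := by simpa [hQ] using hR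
  obtain ⟨F0, hF0, d0⟩ := h m K (Q 0) hK hc (isCompact_closedBall _ _) (convex_closedBall _ _)
    hKQ f hfK (ε / 4) (by positivity)
  have step : ∀ n (F : {F : Cn (Fin m) → X // HolOn F (Q n)}),
      ∃ G : {F : Cn (Fin m) → X // HolOn F (Q (n + 1))},
        ∀ z ∈ Q n, dist (F.1 z) (G.1 z) ≤ ε / 4 / 2 / 2 ^ n := fun n F => by
    obtain ⟨G, hG, d⟩ := h m (Q n) (Q (n + 1)) (isCompact_closedBall _ _) (convex_closedBall _ _)
      (isCompact_closedBall _ _) (convex_closedBall _ _) (hQm n.le_succ) F.1 F.2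
      (ε / 4 / 2 / 2 ^ n) (by positivity)
    exact ⟨⟨G, hG⟩, fun z hz => by rw [dist_comm]; exact (d z hz).le⟩
  choose S hS using step
  let F : ∀ n, {F : Cn (Fin m) → X // HolOn F (Q n)} := fun n => Nat.rec ⟨F0, hF0⟩ S n
  have hd : ∀ N, ∀ z ∈ Q N, ∀ n, dist ((F (N + n)).1 z) ((F (N + (n + 1))).1 z) ≤
      ε / 4 / 2 ^ N / 2 / 2 ^ n := fun N z hz n =>
    (hS (N + n) (F (N + n)) z (hQm (Nat.le_add_right _ _) hz)).trans
      (le_of_eq (by rw [pow_add]; ring))
  have hmem : ∀ z : Cn (Fin m), ∃ N, z ∈ ball (0 : Cn (Fin m)) (R + (N : ℕ)) := fun z => by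
    obtain ⟨N, hN⟩ := exists_nat_gt (‖z‖ - R)
    exact ⟨N, by rw [mem_ball_zero_iff]; linarith⟩
  have hT : ∀ z, ∃ x, Tendsto (fun n => (F n).1 z) atTop (𝓝 x) := fun z => by
    obtain ⟨N, hN⟩ := hmem z
    obtain ⟨x, hx⟩ := cauchySeq_tendsto_of_complete
      (cauchySeq_of_le_geometric_two (hd N z (ball_subset_closedBall hN)))
    refine ⟨x, (tendsto_add_atTop_iff_nat N).1 ?_⟩
    exact hx.congr fun n => by rw [add_comm]
  choose G hG using hT
  have tail : ∀ N, ∀ z ∈ Q N, dist ((F N).1 z) (G z) ≤ ε / 4 / 2 ^ N := fun N z hz => by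
    have := dist_le_of_le_geometric_two_of_tendsto₀ (hd N z hz) (a := G z) 
      (((tendsto_add_atTop_iff_nat N).2 (hG z)).congr fun n => by rw [add_comm])
    simpa using this
  refine ⟨G, fun z => ?_, fun z hz => ?_⟩
  · obtain ⟨N, hN⟩ := hmem z
    refine (hol_lim (F := fun n => (F n).1) isOpen_ball ?_ ?_ z hN).mdifferentiableAt (by simp)
    · filter_upwards [eventually_ge_atTop N] with n hn w hw
      exact (F n).2 w (hQm hn (ball_subset_closedBall hw))
    · refine tendstoUniformlyOn_iff.2 fun δ hδ => ?_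
      have ht : Tendsto (fun n : ℕ => ε / 4 / 2 ^ n) atTop (𝓝 0) :=
        tendsto_const_nhds.div_atTop (tendsto_pow_atTop_atTop_of_one_lt one_lt_two)
      filter_upwards [eventually_ge_atTop N, ht.eventually_lt_const hδ] with n hn hn' w hw
      rw [dist_comm]
      exact (tail n w (hQm hn (ball_subset_closedBall hw))).trans_lt hn'
  · have e1 : dist (F0 z) (G z) ≤ ε / 4 / 2 ^ 0 := tail 0 z (hKQ hz)
    have := dist_triangle_left (G z) (f z) (F0 z)
    have := d0 z hz
    simp only [pow_zero, div_one] at e1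
    linarith

end

end Vale.Agent.P290
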