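import Vale.Agent.P290.Div
import Vale.Agent.P290.BoxI

/-!
P290 Ext. Helper lemma names start with ext_.
Oka's extension lemma. u z = z none - ℓ (z ∘ some), v = Pi.single none 1. box_ind with
P S = ∃ F, AnalyticOnNhd F S ∧ ∀ᶠ z in 𝓝ˢ S, u z = 0 → F z = f (z ∘ some). Local: at z with u z = 0 take F = f (· ∘ some) and N the open
set where it is analytic; at z with u z ≠ 0 take F = 0, N = {u ≠ 0}. Gluing: D = FA - FB vanishes on ker u near the middle set M,
h = dvd D u v is analytic near M (div_an), h = p - q (hS), FA - u p = FB - u q near M; `glue`, `an_congr`, Bx_union, Bx_inter,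
`nhdsSet_union`.
-/

namespace Vale.Agent.P290

open scoped Manifold ContDiff Topology LinearAlgebra.Projectivization
open Set Filter Metric Function

noncomputable section

variable {ι : Type} [Fintype ι] [DecidableEq ι]

theorem ext_gen {C : Set (Cn ι)} (hC : IsClosed C) (hS : Split C) {u : Cn ι →L[ℂ] ℂ} {v : Cn ι}
    (hv : u v = 1) (lo hi : ι × Bool → ℝ) {g : Cn ι → ℂ}
    (hg : ∀ z ∈ C ∩ Bx lo hi, u z = 0 → AnalyticAt ℂ g z) :
    ∃ F : Cn ι → ℂ, AnalyticOnNhd ℂ F (C ∩ Bx lo hi) ∧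
      ∀ᶠ z in 𝓝ˢ (C ∩ Bx lo hi), u z = 0 → F z = g z := by
  refine box_ind hC (P := fun S => ∃ F : Cn ι → ℂ, AnalyticOnNhd ℂ F S ∧
    ∀ᶠ z in 𝓝ˢ S, u z = 0 → F z = g z) ⟨fun _ => 0, analyticOnNhd_const, by simp⟩ ?_ lo hi ?_ ?_
  · rintro S S' h ⟨F, h1, h2⟩
    exact ⟨F, h1.mono h, h2.filter_mono (nhdsSet_mono h)⟩
  · intro z hz
    by_cases h : u z = 0
    · exact ⟨_, (hg z hz h).eventually_analyticAt, g, fun _ hy => hy,
        Eventually.of_forall fun _ _ => rfl⟩
    · have ho : IsOpen {y | u y ≠ 0} := isOpen_ne_fun u.continuous continuous_const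
      refine ⟨_, ho.mem_nhds h, fun _ => 0, analyticOnNhd_const, ?_⟩
      filter_upwards [ho.mem_nhdsSet_self] with y hy h0 using absurd h0 hy
  · rintro lo hi k c h1 h2 ⟨FA, a1, a2⟩ ⟨FB, b1, b2⟩
    have e : C ∩ Bx lo (update hi k c) ∩ (C ∩ Bx (update lo k c) hi) =
        C ∩ Bx (update lo k c) (update hi k c) := by
      rw [← inter_inter_distrib_left, Bx_inter h1 h2]
    have hd : ∀ z ∈ C ∩ Bx (update lo k c) (update hi k c),
        AnalyticAt ℂ (dvd (fun z => FA z - FB z) u v) z ∧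
          ∀ᶠ y in 𝓝 z, FA y - FB y = u y * dvd (fun z => FA z - FB z) u v y := by
      intro z hz
      rw [← e] at hz
      refine div_an hv ((a1 z hz.1).sub (b1 z hz.2)) ?_
      filter_upwards [a2.filter_mono (nhds_le_nhdsSet hz.1),
        b2.filter_mono (nhds_le_nhdsSet hz.2)] with y ha hb h0
      rw [ha h0, hb h0, sub_self]
    obtain ⟨p, q, hp, hq, hpq⟩ := hS lo hi k c h1 h2 _ fun z hz => (hd z hz).1
    have hu : ∀ z, AnalyticAt ℂ u z := u.analyticAt
    obtain ⟨w, w1, w2⟩ := glue ((isCompact_Bx lo (update hi k c)).inter_left hC)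
      ((isCompact_Bx (update lo k c) hi).inter_left hC)
      (u := fun z => FA z - u z * p z) (v := fun z => FB z - u z * q z) (by
        rw [e]
        filter_upwards [hpq, eventually_nhdsSet_iff_forall.2 fun z hz => (hd z hz).2] with y k1 k2
        rw [k1] at k2
        linear_combination k2)
    rw [← Bx_union h1 h2, inter_union_distrib_left]
    refine ⟨w, fun z hz => ?_, ?_⟩
    · rcases hz with hz | hz
      · exact an_congr w1 (fun y hy => (a1 y hy).sub ((hu y).mul (hp y hy))) z hz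
      · exact an_congr w2 (fun y hy => (b1 y hy).sub ((hu y).mul (hq y hy))) z hz
    · rw [nhdsSet_union, eventually_sup]
      constructor
      · filter_upwards [w1, a2] with y k1 k2 h0
        rw [k1, h0, k2 h0, zero_mul, sub_zero]
      · filter_upwards [w2, b2] with y k1 k2 h0
        rw [k1, h0, k2 h0, zero_mul, sub_zero]

theorem ext_oka {C : Set (Cn (Option ι))} (hC : IsClosed C) (hS : Split C) (ℓ : Cn ι →L[ℂ] ℂ)
    (lo hi : Option ι × Bool → ℝ) {f : Cn ι → ℂ}
    (hf : ∀ z ∈ C ∩ Bx lo hi, z none = ℓ (fun i => z (some i)) →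
      AnalyticAt ℂ f fun i => z (some i)) :
    ∃ F : Cn (Option ι) → ℂ, AnalyticOnNhd ℂ F (C ∩ Bx lo hi) ∧
      ∀ᶠ z in 𝓝ˢ (C ∩ Bx lo hi), z none = ℓ (fun i => z (some i)) →
        F z = f fun i => z (some i) := by
  obtain ⟨pr, hpr⟩ : ∃ pr : Cn (Option ι) →L[ℂ] Cn ι, ∀ z, pr z = fun i => z (some i) :=
    ⟨ContinuousLinearMap.pi fun i => ContinuousLinearMap.proj (some i), fun _ => rfl⟩
  have hu : ∀ z : Cn (Option ι),
      (ContinuousLinearMap.proj none - ℓ.comp pr : Cn (Option ι) →L[ℂ] ℂ) z =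
        z none - ℓ fun i => z (some i) := fun z => by
    rw [← hpr]
    rfl
  obtain ⟨F, h1, h2⟩ := ext_gen hC hS (u := ContinuousLinearMap.proj none - ℓ.comp pr)
    (v := Pi.single none 1) (by
      rw [hu, show (fun i => (Pi.single none 1 : Cn (Option ι)) (some i)) = 0 from
        funext fun i => by simp]
      simp) lo hi (g := fun z => f (pr z)) fun z hz h0 => by
      rw [hu, sub_eq_zero] at h0
      exact AnalyticAt.comp (by rw [hpr]; exact hf z hz h0) (pr.analyticAt z)
  refine ⟨F, h1, h2.mono fun z hz h0 => ?_⟩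
  rw [← hpr, hz (by rw [hu, h0, sub_self])]

end

end Vale.Agent.P290
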