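import Vale.Agent.P290.ChartS

/-!
P290 Ham. Helper lemma names start with ham_.
ham_eq: sig_eq, w = w 0 • e0 + w 1 • e1. sig_inj: test with e0, e1. ham_vf: for y near φ x, with g = f ∘ φ.symm, the pushed field is
(rho σ φ y)⁻¹ • ![fderiv g y e1, - fderiv g y e0]: both vectors u satisfy rho * det2 u w = fderiv g y w for all w (sig_chart, fun_chart,
md_md_symm). Analytic by `AnalyticAt.fderiv`, rho_an, `analyticAt_pi_iff`.
aff lemmas: near x, aff π c = a 1 / a 0 resp. - a 0 / a 1 for a lift a (On.exists_smul with on_rep). aff_compact: the set is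
{x | ‖rep (1 - c)‖ ≤ ρ ‖rep c‖} minus nothing (rep ≠ 0); its complement is open (use a lift, scaling invariance); closed in compact X.
aff_md: quotient rule in a chart (fun_chart) or with `HasMFDerivAt`.
-/

namespace Vale.Agent.P290

open scoped Manifold ContDiff Topology LinearAlgebra.Projectivization
open Set Filter Metric Function

noncomputable section

variable {X : Type*} [MetricSpace X] [ChartedSpace C2 X] [IsManifold 𝓘(ℂ, C2) ω X]

theorem ham_dec (w : C2) : w = w 0 • e0 + w 1 • e1 := by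
  funext i
  fin_cases i <;> simp [e0, e1]

theorem ham_det0 (u : C2) : det2 u e0 = -u 1 := by simp [det2, e0]

theorem ham_det1 (u : C2) : det2 u e1 = u 0 := by simp [det2, e1]

omit [IsManifold 𝓘(ℂ, C2) ω X] in
theorem ham_eq (σ : TwoForm X) (f : X → ℂ) (x : X) (w : C2) :
    σ.σ x (ham σ f x) w = md C2 ℂ f x w := by
  have h := sig_ne σ x
  rw [sig_eq]
  conv_rhs => rw [ham_dec w, map_add, map_smul, map_smul]
  simp only [ham, det2, Pi.smul_apply, smul_eq_mul, Matrix.cons_val_zero, Matrix.cons_val_one]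
  field_simp
  ring

omit [IsManifold 𝓘(ℂ, C2) ω X] in
theorem sig_inj (σ : TwoForm X) {x : X} {u v : C2} (h : ∀ w, σ.σ x u w = σ.σ x v w) : u = v := by
  have h0 := h e0
  have h1 := h e1
  rw [sig_eq σ x u, sig_eq σ x v] at h0 h1
  have h0 := mul_left_cancel₀ (sig_ne σ x) h0
  have h1 := mul_left_cancel₀ (sig_ne σ x) h1
  rw [ham_det0, ham_det0, neg_inj] at h0
  rw [ham_det1, ham_det1] at h1
  rw [ham_dec u, ham_dec v, h0, h1]

theorem ham_chart (σ : TwoForm X) {f : X → ℂ} {φ : OpenPartialHomeomorph X C2}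
    (hφ : φ ∈ atlas C2 X) {x : X} (hx : x ∈ φ.source) (hf : Hol C2 ℂ f x) :
    md C2 C2 φ x (ham σ f x) = (rho σ φ (φ x))⁻¹ •
      ![fderiv ℂ (f ∘ φ.symm) (φ x) e1, -fderiv ℂ (f ∘ φ.symm) (φ x) e0] := by
  obtain ⟨h0, h1⟩ := sig_chart σ hφ hx
  have key : ∀ w, rho σ φ (φ x) * det2 (md C2 C2 φ x (ham σ f x)) w =
      fderiv ℂ (f ∘ φ.symm) (φ x) w := by
    intro w
    have a1 := h1 (ham σ f x) (md C2 C2 φ.symm (φ x) w)
    rw [ham_eq, (fun_chart hφ hx hf).2, md_md_symm hφ hx] at a1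
    exact a1.symm
  have k0 := key e0
  have k1 := key e1
  rw [ham_det0] at k0
  rw [ham_det1] at k1
  rw [← k0, ← k1]
  funext i
  fin_cases i
  · simp [← mul_assoc, inv_mul_cancel₀ h0]
  · simp [← mul_assoc, inv_mul_cancel₀ h0]

theorem ham_vf (σ : TwoForm X) {f : X → ℂ} {O : Set X} (hf : ∀ x ∈ O, Hol C2 ℂ f x) :
    VF (ham σ f) O := by
  intro φ hφ x hx hs
  have h1 : ∀ᶠ z in 𝓝 x, Hol C2 ℂ f z :=
    (contMDiffAt_iff_contMDiffAt_nhds (by simp)).1 (hf x hx)
  have h2 : ∀ᶠ y in 𝓝 (φ x), Hol C2 ℂ f (φ.symm y) := by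
    have hc := φ.continuousAt_symm (φ.map_source hs)
    rw [ContinuousAt, φ.left_inv hs] at hc
    exact hc.eventually h1
  have hg := (fun_chart hφ hs (hf x hx)).1.fderiv
  have ha : ∀ e : C2, AnalyticAt ℂ (fun y => fderiv ℂ (f ∘ φ.symm) y e) (φ x) := fun e =>
    ((ContinuousLinearMap.apply ℂ ℂ e).analyticAt _).comp hg
  have hr := (rho_an σ hφ (φ.map_source hs)).inv (sig_chart σ hφ hs).1
  have hA : AnalyticAt ℂ (fun y => (rho σ φ y)⁻¹ •
      (![fderiv ℂ (f ∘ φ.symm) y e1, -fderiv ℂ (f ∘ φ.symm) y e0] : C2)) (φ x) := by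
    refine AnalyticAt.smul hr (analyticAt_pi_iff.2 fun i => ?_)
    fin_cases i
    · exact ha e1
    · exact (ha e0).neg
  refine hA.congr ?_
  filter_upwards [h2, φ.open_target.mem_nhds (φ.map_source hs)] with y hy ht
  rw [ham_chart σ hφ (φ.map_target ht) hy, φ.right_inv ht]

variable {π : X → P1}

end

end Vale.Agent.P290
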