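import Vale.Agent.P290.Exh

/-!
P290 Hom (second part of Exh; the plan covers both parts). Helper lemma names start with hom_.
oka_of_appr: f is HolOn K (bridge; MDifferentiableOn on the open U gives MDifferentiableAt near points). K ⊆ closedBall 0 R, Q n = closedBall 0 (R + n).
Recursively choose F n HolOn (Q n) with dist (F 0) f < ε / 4 on K and dist (F (n + 1)) (F n) < ε / 4 / 2 ^ n on Q n (subtype recursion or
`exists_seq_of_forall...`; `Nat.rec` on {F // HolOn F (Q n)}). For z ∈ Q N, n ≥ N the sequence is Cauchy with geometric tails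
(`cauchySeq_of_le_geometric_two`, `dist_le_of_le_geometric_two_of_tendsto` on the shifted sequence); G z = limUnder. Uniform convergence on
each ball 0 (R + N), hol_lim, `ContMDiffAt.mdifferentiableAt`.
appr_of_open: K empty or p ∈ K; f t z = f (p + t • (z - p)) is HolOn K for t ∈ [0,1]. The set of t with Appr is closed in [0,1] and open
(uniform continuity of f on K, ‖(t - t') • (z - p)‖ small), contains 0 (constant map): `IsClosed.Icc_subset_of_forall_mem_nhdsWithin` or
`IsPreconnected.induction`-type lemma. Appr only depends on the values on K.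
-/

namespace Vale.Agent.P290

open scoped Manifold ContDiff Topology LinearAlgebra.Projectivization
open Set Filter Metric Function

noncomputable section

variable {X : Type*} [MetricSpace X] [ChartedSpace C2 X] [IsManifold 𝓘(ℂ, C2) ω X]

omit [IsManifold 𝓘(ℂ, C2) ω X] in
theorem appr_of_open {ι : Type} [Fintype ι] {K Q : Set (Cn ι)} (hK : IsCompact K)
    (hc : Convex ℝ K) (h : ∀ f : Cn ι → X, HolOn f K → ∃ δ : ℝ, 0 < δ ∧ ∀ g : Cn ι → X,
      HolOn g K → (∀ z ∈ K, dist (g z) (f z) < δ) → Appr K Q f → Appr K Q g)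
    {f : Cn ι → X} (hf : HolOn f K) : Appr K Q f := by
  rcases K.eq_empty_or_nonempty with rfl | ⟨p, hp⟩
  · exact fun ε _ => ⟨fun _ => f 0, fun z _ => contMDiffAt_const, fun z hz => hz.elim⟩
  set A : ℝ → Cn ι → Cn ι := fun t z => p + (t : ℂ) • (z - p) with hA
  have hAK : ∀ t ∈ Icc (0 : ℝ) 1, ∀ z ∈ K, A t z ∈ K := fun t ht z hz => by
    have := hc.add_smul_sub_mem hp hz ht
    simpa only [hA, Complex.coe_smul] using this
  have hH : ∀ t ∈ Icc (0 : ℝ) 1, HolOn (fun z => f (A t z)) K := fun t ht z hz => by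
    have h1 : Hol (Cn ι) (Cn ι) (A t) z := hol_iff.2 (by
      simp only [hA]
      fun_prop)
    exact ContMDiffAt.comp z (hf _ (hAK t ht z hz)) h1
  have hcont : ContinuousOn f K := fun z hz => (hf z hz).continuousAt.continuousWithinAt
  obtain ⟨R, hR⟩ := (hK.isBounded.subset_closedBall p)
  have hU : ∀ η : ℝ, 0 < η → ∃ δ : ℝ, 0 < δ ∧ ∀ t ∈ Icc (0 : ℝ) 1, ∀ t' ∈ Icc (0 : ℝ) 1,
      dist t t' < δ → ∀ z ∈ K, dist (f (A t z)) (f (A t' z)) < η := fun η hη => by
    obtain ⟨δ, hδ, hu⟩ := Metric.uniformContinuousOn_iff.1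
      (hK.uniformContinuousOn_of_continuous hcont) η hη
    refine ⟨δ / (|R| + 1), by positivity, fun t ht t' ht' htt z hz => ?_⟩
    refine hu _ (hAK t ht z hz) _ (hAK t' ht' z hz) ?_
    have e : A t z - A t' z = ((t - t' : ℝ) : ℂ) • (z - p) := by
      simp only [hA]
      push_cast
      rw [sub_smul]
      abel
    have hz' : ‖z - p‖ ≤ |R| + 1 := by
      have := hR hz
      rw [mem_closedBall, dist_eq_norm] at this
      linarith [le_abs_self R]
    rw [dist_eq_norm, e, norm_smul, Complex.norm_real]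
    rw [dist_eq_norm, lt_div_iff₀ (by positivity)] at htt
    exact lt_of_le_of_lt (mul_le_mul_of_nonneg_left hz' (norm_nonneg _)) htt
  have key : Icc (0 : ℝ) 1 ⊆ {t | Appr K Q fun z => f (A t z)} := by
    refine IsClosed.Icc_subset_of_forall_mem_nhdsWithin ?_ ?_ ?_
    · refine isClosed_of_closure_subset fun t ht => ?_
      have hI : t ∈ Icc (0 : ℝ) 1 :=
        isClosed_Icc.closure_subset (closure_mono inter_subset_right ht)
      refine ⟨fun ε hε => ?_, hI⟩
      obtain ⟨δ, hδ, hu⟩ := hU (ε / 2) (half_pos hε)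
      obtain ⟨t', ht', hd⟩ := Metric.mem_closure_iff.1 ht δ hδ
      obtain ⟨F, hF, hF'⟩ := ht'.1 (ε / 2) (half_pos hε)
      refine ⟨F, hF, fun z hz => ?_⟩
      have h1 := hF' z hz
      have h2 := hu t hI t' ht'.2 hd z hz
      rw [dist_comm] at h2
      linarith [dist_triangle (F z) (f (A t' z)) (f (A t z))]
    · refine fun ε hε => ⟨fun _ => f p, fun z _ => contMDiffAt_const, fun z _ => ?_⟩
      simp [hA, hε]
    · rintro t ⟨ht, ht0, ht1⟩
      obtain ⟨δ, hδ, hd⟩ := h _ (hH t ⟨ht0, ht1.le⟩)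
      obtain ⟨η, hη, hu⟩ := hU δ hδ
      have h1 : Ioo t (min 1 (t + η)) ∈ 𝓝[>] t := Ioo_mem_nhdsGT (lt_min ht1 (by linarith))
      filter_upwards [h1] with t' ht'
      have hI : t' ∈ Icc (0 : ℝ) 1 := ⟨ht0.trans ht'.1.le, (ht'.2.trans_le (min_le_left _ _)).le⟩
      refine hd _ (hH t' hI) (fun z hz => hu t' hI t ⟨ht0, ht1.le⟩ ?_ z hz) ht
      have := ht'.2.trans_le (min_le_right _ _)
      rw [Real.dist_eq, abs_lt]
      constructor <;> linarith [ht'.1]
  have h1 := key (right_mem_Icc.2 zero_le_one)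
  simpa [hA] using h1

end

end Vale.Agent.P290
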