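import Vale.Agent.P290.PInt

/-!
P290 Log. Helper lemma names start with log_.
M empty is trivial. p ∈ M. U = {z | AnalyticAt c z ∧ c z ≠ 0} is open; a thickening of M is convex (`Convex.thickening`) and inside U
(`IsCompact.exists_thickening_subset_open`). h z = log (c p) + ∫ t in 0..1, fderiv c (p + t • (z - p)) (z - p) / c (p + t • (z - p)),
analytic on the thickening by an_int (G (z, t) with complex t, γ = ofReal). For fixed z the function
t ↦ c (p + t • (z - p)) * exp (- ∫ s in 0..t, ...) has derivative zero on [0,1] (`constant_of_has_deriv_right_zero`).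
-/

namespace Vale.Agent.P290

open scoped Manifold ContDiff Topology LinearAlgebra.Projectivization
open Set Filter Metric Function

noncomputable section

variable {ι : Type} [Fintype ι]

theorem exists_log {M : Set (Cn ι)} (hM : IsCompact M) (hc : Convex ℝ M) {c : Cn ι → ℂ}
    (h : AnalyticOnNhd ℂ c M) (h0 : ∀ z ∈ M, c z ≠ 0) :
    ∃ l : Cn ι → ℂ, AnalyticOnNhd ℂ l M ∧ ∀ᶠ z in 𝓝ˢ M, c z = Complex.exp (l z) := by
  rcases M.eq_empty_or_nonempty with rfl | hne
  · exact ⟨0, fun _ h => h.elim, by simp⟩
  obtain ⟨δ, hδ, hU⟩ := hM.exists_thickening_subset_open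
    (t := interior {z | AnalyticAt ℂ c z ∧ c z ≠ 0}) isOpen_interior fun z hz => mem_interior_iff_mem_nhds.2
      ((h z hz).eventually_analyticAt.and ((h z hz).continuousAt.eventually_ne (h0 z hz)))
  have hV := hU.trans interior_subset
  have hs := self_subset_thickening hδ M
  have := (hc.thickening δ).contractibleSpace (hne.mono hs)
  obtain ⟨l, l1, l2⟩ := Complex.exists_continuousOn_eqOn_exp_comp (U := thickening δ M)
    (SimplyConnectedSpace.ofContractible _) isOpen_thickening (g := c)
    (fun z hz => (hV hz).1.continuousAt.continuousWithinAt) fun ⟨z, hz, e⟩ => (hV hz).2 e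
  refine ⟨l, fun z hz => ?_, mem_of_superset (isOpen_thickening.mem_nhdsSet.2 hs)
    fun z hz => (l2 hz).symm⟩
  have n := isOpen_thickening.mem_nhds (hs hz)
  refine (analyticAt_const (v := l z)).add (((h z hz).div_const (c := c z)).clog
    (by simp [h0 z hz])) |>.congr ?_
  filter_upwards [n, (l1.continuousAt n).eventually (ball_mem_nhds _ Real.pi_pos)] with y h1 h2
  have h3 := abs_lt.1 ((Complex.abs_im_le_norm _).trans_lt (mem_ball_iff_norm.1 h2))
  rw [Pi.add_apply, ← l2 h1, ← l2 (hs hz), comp_apply, comp_apply, ← Complex.exp_sub,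
    Complex.log_exp h3.1 h3.2.le, add_sub_cancel]

end

end Vale.Agent.P290
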