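import Vale.Agent.P290.BoxI

/-!
P290 Poly. Helper lemma names start with poly_.
K is bounded, so K ⊆ Bx (-R) R. For y in the compact set Bx \ U, `RCLike.geometric_hahn_banach_closed_point` gives ℓ, u with
re (ℓ z) < u on K and u < re (ℓ y); the open half spaces {u < re ℓ} cover, take a finite subcover (`IsCompact.elim_nhds_subcover`)
and turn the Finset into a list.
-/

namespace Vale.Agent.P290

open scoped Manifold ContDiff Topology LinearAlgebra.Projectivization
open Set Filter Metric Function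

noncomputable section

variable {ι : Type} [Fintype ι]

theorem exists_pol {K U : Set (Cn ι)} (hK : IsCompact K) (hc : Convex ℝ K) (hU : IsOpen U)
    (hKU : K ⊆ U) : ∃ (L : List ((Cn ι →L[ℂ] ℂ) × ℝ)) (lo hi : ι × Bool → ℝ),
      K ⊆ Pol L ∩ Bx lo hi ∧ Pol L ∩ Bx lo hi ⊆ U := by
  classical
  obtain ⟨R, hR⟩ := hK.isBounded.exists_norm_le
  have hB : K ⊆ Bx (fun _ => -R) (fun _ => R) := by
    intro z hz k
    have h1 : ‖z k.1‖ ≤ R := (norm_le_pi_norm z k.1).trans (hR z hz)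
    rw [← abs_le]
    unfold xc
    cases k.2
    · exact (Complex.abs_im_le_norm _).trans h1
    · exact (Complex.abs_re_le_norm _).trans h1
  have hC : IsCompact (Bx (ι := ι) (fun _ => -R) (fun _ => R) \ U) :=
    (isCompact_Bx _ _).diff hU
  have hs : ∀ y : Cn ι, ∃ c : (Cn ι →L[ℂ] ℂ) × ℝ, y ∉ U →
      (∀ z ∈ K, (c.1 z).re < c.2) ∧ c.2 < (c.1 y).re := by
    intro y
    by_cases hy : y ∈ U
    · exact ⟨(0, 0), fun h => absurd hy h⟩
    · obtain ⟨l, u, h1, h2⟩ := RCLike.geometric_hahn_banach_closed_point (𝕜 := ℂ) hc hK.isClosed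
        (fun h => hy (hKU h))
      exact ⟨(l, u), fun _ => ⟨h1, h2⟩⟩
  choose c hc' using hs
  obtain ⟨t, ht, hcov⟩ := hC.elim_nhds_subcover (fun y => {z | (c y).2 < ((c y).1 z).re})
    fun y hy => (isOpen_lt continuous_const
      (Complex.continuous_re.comp (c y).1.continuous)).mem_nhds (hc' y hy.2).2
  refine ⟨t.toList.map c, fun _ => -R, fun _ => R, fun z hz => ⟨?_, hB hz⟩, fun z hz => ?_⟩
  · intro d hd
    obtain ⟨y, hy, rfl⟩ := List.mem_map.1 hd
    exact ((hc' y (ht y (Finset.mem_toList.1 hy)).2).1 z hz).le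
  · by_contra hzU
    obtain ⟨y, hy, h⟩ := mem_iUnion₂.1 (hcov ⟨hz.2, hzU⟩)
    exact absurd (hz.1 _ (List.mem_map.2 ⟨y, Finset.mem_toList.2 hy, rfl⟩)) (not_le.2 h)

end

end Vale.Agent.P290
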