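import Vale.Agent.P290.Spl
import Vale.Agent.P290.Poly
import Vale.Agent.P290.Log
import Vale.Agent.P290.Bridge
import Vale.Agent.P290.BezB

/-!
P290 Lift. Helper lemma names start with lift_.
exists_lift: U = {z | ∃ a, LiftOn p a {z}} is open (`nhdsSet_singleton`, `eventually_eventually_nhds`, `AnalyticAt.eventually_analyticAt`).
exists_pol gives K ⊆ Pol L ∩ Bx ⊆ U. box_ind with P S = ∃ a, LiftOn p a S. Gluing: near the middle set M (compact, convex) aA = c • aB with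
c z = if aB z 0 ≠ 0 then aA z 0 / aB z 0 else aA z 1 / aB z 1; near a point of M, c equals aA z i / aB z i for an i with aB i ≠ 0 there
(On.exists_smul), so it is analytic and nonzero. exists_log: c = exp l, l = p - q (split_len), exp (-p) • aA = exp (-q) • aB near M; glue.
exists_alpha: bezout with κ = Fin 2, m i z = a z i; `analyticAt_pi_iff`.
-/

namespace Vale.Agent.P290

open scoped Manifold ContDiff Topology LinearAlgebra.Projectivization
open Set Filter Metric Function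

noncomputable section

variable {ι : Type} [Fintype ι]

theorem lift_mono {p : Cn ι → P1} {a : Cn ι → C2} {S S' : Set (Cn ι)} (h : LiftOn p a S)
    (hs : S' ⊆ S) : LiftOn p a S' := ⟨h.1.mono hs, h.2.filter_mono (nhdsSet_mono hs)⟩

theorem lift_loc {p : Cn ι → P1} {a : Cn ι → C2} {z : Cn ι} (h : LiftOn p a {z}) :
    ∃ N ∈ 𝓝 z, LiftOn p a N :=
  ⟨_, (h.1 z rfl).eventually_analyticAt.and
    (eventually_eventually_nhds.2 (nhdsSet_singleton (x := z) ▸ h.2)), fun _ hy => hy.1,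
    eventually_nhdsSet_iff_forall.2 fun _ hy => hy.2⟩

theorem lift_ratio {p : Cn ι → P1} {a b : Cn ι → C2} {M : Set (Cn ι)} (ha : LiftOn p a M)
    (hb : LiftOn p b M) : ∃ c : Cn ι → ℂ, AnalyticOnNhd ℂ c M ∧ (∀ z ∈ M, c z ≠ 0) ∧
      ∀ᶠ z in 𝓝ˢ M, a z = c z • b z := by
  choose! c h1 h2 using fun z (h : On (p z) (a z) ∧ On (p z) (b z)) => h.1.exists_smul h.2
  have h := ha.2.and hb.2
  refine ⟨c, fun z hz => ?_, fun z hz => h1 z (h.self_of_nhdsSet z hz), h.mono h2⟩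
  obtain ⟨i, hi⟩ := ne_iff.1 (h.self_of_nhdsSet z hz).2.ne
  have k := analyticAt_pi_iff.1 (hb.1 z hz) i
  refine ((analyticAt_pi_iff.1 (ha.1 z hz) i).fun_div k hi).congr ?_
  filter_upwards [eventually_nhdsSet_iff_forall.1 h z hz, k.continuousAt.eventually_ne hi]
    with y k1 k2
  rw [h2 y k1, Pi.smul_apply, smul_eq_mul, mul_div_cancel_right₀ _ k2]

theorem lift_exp {p : Cn ι → P1} {a w : Cn ι → C2} {f : Cn ι → ℂ} {S : Set (Cn ι)}
    (ha : LiftOn p a S) (hf : AnalyticOnNhd ℂ f S)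
    (hw : w =ᶠ[𝓝ˢ S] fun z => Complex.exp (-f z) • a z) : LiftOn p w S := by
  refine ⟨an_congr hw fun z hz => ((hf z hz).neg.cexp').smul (ha.1 z hz), ?_⟩
  filter_upwards [hw, ha.2] with z k1 k2
  exact k1 ▸ k2.smul (Complex.exp_ne_zero _)

theorem exists_lift {K : Set (Cn ι)} (hK : IsCompact K) (hc : Convex ℝ K) {p : Cn ι → P1}
    (h : ∀ z ∈ K, ∃ a, LiftOn p a {z}) : ∃ a, LiftOn p a K := by
  classical
  obtain ⟨L, lo0, hi0, h1, h2⟩ := exists_pol hK hc (U := {z | ∃ a, LiftOn p a {z}})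
    (isOpen_iff_mem_nhds.2 fun z ⟨a, ha⟩ => by
      obtain ⟨N, hN, k⟩ := lift_loc ha
      exact mem_of_superset hN fun y hy => ⟨a, lift_mono k (singleton_subset_iff.2 hy)⟩) h
  refine (box_ind (isClosed_Pol L) (P := fun S => ∃ a, LiftOn p a S)
    ⟨0, analyticOnNhd_const, by simp⟩ (fun S S' hs => Exists.imp fun a ha => lift_mono ha hs) lo0 hi0
    (fun z hz => ?_) ?_).imp fun a ha => lift_mono ha h1
  · obtain ⟨a, ha⟩ := h2 hz
    exact (lift_loc ha).imp fun N k => ⟨k.1, a, k.2⟩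
  rintro lo hi k c k1 k2 ⟨a, ha⟩ ⟨b, hb⟩
  have cp := fun lo hi => (isCompact_Bx lo hi).inter_left (isClosed_Pol L)
  have e := (inter_inter_distrib_left (Pol L) _ _).symm.trans (congrArg _ (Bx_inter k1 k2))
  obtain ⟨r, r1, r2, r3⟩ := lift_ratio (lift_mono ha (e ▸ inter_subset_left))
    (lift_mono hb (e ▸ inter_subset_right))
  obtain ⟨l, l1, l2⟩ := exists_log (cp _ _) ((convex_Pol L).inter (convex_Bx _ _)) r1 r2
  obtain ⟨f, g, f1, g1, f2⟩ := split_len _ ι L rfl lo hi k c k1 k2 l l1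
  obtain ⟨w, w1, w2⟩ := glue (cp _ _) (cp _ _) (u := fun z => Complex.exp (-f z) • a z)
    (v := fun z => Complex.exp (-g z) • b z) (by
      rw [e]
      filter_upwards [r3, l2, f2] with z z1 z2 z3
      rw [z1, z2, z3, smul_smul, ← Complex.exp_add, sub_eq_add_neg, neg_add_cancel_left])
  have a1 := lift_exp ha f1 w1
  have b1 := lift_exp hb g1 w2
  rw [← Bx_union k1 k2, inter_union_distrib_left]
  exact ⟨w, fun z hz => hz.elim (a1.1 z) (b1.1 z), by
    rw [nhdsSet_union]; exact eventually_sup.2 ⟨a1.2, b1.2⟩⟩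

theorem exists_alpha {K : Set (Cn ι)} (hK : IsCompact K) (hc : Convex ℝ K) {p : Cn ι → P1}
    {a : Cn ι → C2} (h : LiftOn p a K) :
    ∃ α : Cn ι → C2, AnalyticOnNhd ℂ α K ∧ ∀ᶠ z in 𝓝ˢ K, α z ⬝ᵥ a z = 1 := by
  obtain ⟨b, h1, h2⟩ := bezout hK hc (m := fun i z => a z i)
    (fun i z hz => analyticAt_pi_iff.1 (h.1 z hz) i)
    fun z hz => ne_iff.1 (h.2.self_of_nhdsSet z hz).ne
  exact ⟨fun z i => b i z, fun z hz => analyticAt_pi_iff.2 fun i => h1 i z hz, h2⟩

theorem lift_comp {X : Type*} [MetricSpace X] [ChartedSpace C2 X] [IsManifold 𝓘(ℂ, C2) ω X]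
    {π : X → P1} (hπ : HolP π) {K : Set (Cn ι)} (hK : IsCompact K) (hc : Convex ℝ K)
    {f : Cn ι → X} (hf : HolOn f K) : ∃ a, LiftOn (fun z => π (f z)) a K := by
  refine exists_lift hK hc fun z hz => ?_
  obtain ⟨a, ha⟩ := hπ (f z)
  refine ⟨fun y => a (f y), ?_, ?_⟩
  · rintro _ rfl
    exact hol_iff.1 (ContMDiffAt.comp _ ha.hol (hf _ hz))
  · rw [nhdsSet_singleton]
    exact (hf z hz).continuousAt ha.on

end

end Vale.Agent.P290
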