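import Vale.Agent.P290.ChartS

/-!
P290 Lim. Helper lemma names start with lim_.
weier: on a ball 2r ⊆ U the derivatives are uniformly Cauchy on the ball r by the Cauchy estimate `P278.osg2_cauchy` applied to u n - u m;
`hasFDerivAt_of_tendstoUniformlyOn` (limit of the derivatives by completeness: `UniformCauchySeqOn.tendstoUniformlyOn_of_tendsto`,
`cauchySeq_tendsto_of_complete`), then `P278.osgood_at`.
hol_lim: F is continuous on the open set U (`TendstoUniformlyOn.continuousOn`). φ = chartAt (F z); a closed ball closedBall (F z) (2 δ) lies in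
φ.source, is compact, φ is uniformly continuous on it; on a small open U' ∋ z, F and (eventually) F n take values in it, φ ∘ F n → φ ∘ F
uniformly on U'; weier after shifting the index; F = φ.symm ∘ (φ ∘ F) near z (chart_symm_hol).
-/

namespace Vale.Agent.P290

open scoped Manifold ContDiff Topology LinearAlgebra.Projectivization
open Set Filter Metric Function

noncomputable section

variable {X : Type*} [MetricSpace X] [ChartedSpace C2 X] [IsManifold 𝓘(ℂ, C2) ω X]
  {ι : Type} [Fintype ι]

theorem weier {u : ℕ → Cn ι → C2} {v : Cn ι → C2} {U : Set (Cn ι)} (hU : IsOpen U)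
    (hu : ∀ n, AnalyticOnNhd ℂ (u n) U) (h : TendstoUniformlyOn u v atTop U) :
    AnalyticOnNhd ℂ v U := by
  refine P278.osgood hU fun x hx => ?_
  obtain ⟨R, hR, hs⟩ := nhds_basis_closedBall.mem_iff.1 (hU.mem_nhds hx)
  have hr : 0 < R / 2 := half_pos hR
  have sub : ∀ y ∈ ball x (R / 2), closedBall y (R / 2) ⊆ U := fun y hy z hz => hs (by
    rw [mem_closedBall] at hz ⊢
    rw [mem_ball] at hy
    linarith [dist_triangle z y x])
  have inU : ∀ y ∈ ball x (R / 2), y ∈ U := fun y hy => sub y hy (mem_closedBall_self hr.le)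
  have hc : UniformCauchySeqOn (fun n => fderiv ℂ (u n)) atTop (ball x (R / 2)) := by
    rw [Metric.uniformCauchySeqOn_iff]
    intro ε hε
    obtain ⟨N, hN⟩ := Metric.uniformCauchySeqOn_iff.1 h.uniformCauchySeqOn (ε / 2 * (R / 2))
      (by positivity)
    refine ⟨N, fun m hm n hn y hy => ?_⟩
    have h1 := P278.osg2_cauchy (g := u m - u n) hU
      ((hu m).differentiableOn.sub (hu n).differentiableOn) hr (sub y hy)
      (N := ε / 2 * (R / 2)) fun z hz => by
        have := hN m hm n hn z (sub y hy hz)
        rw [dist_eq_norm] at this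
        exact this.le
    rw [fderiv_sub (hu m y (inU y hy)).differentiableAt (hu n y (inU y hy)).differentiableAt,
      mul_div_cancel_right₀ _ hr.ne'] at h1
    rw [dist_eq_norm]
    linarith
  have hl : ∀ y ∈ ball x (R / 2), Tendsto (fun n => fderiv ℂ (u n) y) atTop
      (𝓝 (limUnder atTop fun n => fderiv ℂ (u n) y)) := fun y hy =>
    (hc.cauchySeq hy).tendsto_limUnder
  have ht := hc.tendstoUniformlyOn_of_tendsto hl
  exact (hasFDerivAt_of_tendstoUniformlyOn isOpen_ball ht
    (fun n y hy => (hu n y (inU y hy)).differentiableAt.hasFDerivAt)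
    (fun y hy => h.tendsto_at (inU y hy))
    (mem_ball_self hr)).differentiableAt.differentiableWithinAt

end

end Vale.Agent.P290
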