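import Vale.Agent.P290.Lim

/-!
P290 LimB (second part of Lim; the plan covers both parts). Helper lemma names start with limb_.
weier: on a ball 2r ⊆ U the derivatives are uniformly Cauchy on the ball r by the Cauchy estimate `P278.osg2_cauchy` applied to u n - u m;
`hasFDerivAt_of_tendstoUniformlyOn` (limit of the derivatives by completeness: `UniformCauchySeqOn.tendstoUniformlyOn_of_tendsto`,
`cauchySeq_tendsto_of_complete`), then `P278.osgood_at`.
hol_lim: F is continuous on the open set U (`TendstoUniformlyOn.continuousOn`). φ = chartAt (F z); a closed ball closedBall (F z) (2 δ) lies in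
φ.source, is compact, φ is uniformly continuous on it; on a small open U' ∋ z, F and (eventually) F n take values in it, φ ∘ F n → φ ∘ F
uniformly on U'; weier after shifting the index; F = φ.symm ∘ (φ ∘ F) near z (chart_symm_hol).
-/

namespace Vale.Agent.P290

open scoped Manifold ContDiff Topology LinearAlgebra.Projectivization
open Set Filter Metric Function

noncomputable section

variable {X : Type*} [MetricSpace X] [ChartedSpace C2 X] [IsManifold 𝓘(ℂ, C2) ω X]
  {ι : Type} [Fintype ι]

theorem hol_lim [CompactSpace X] {F : ℕ → Cn ι → X} {G : Cn ι → X} {U : Set (Cn ι)}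
    (hU : IsOpen U) (hF : ∀ᶠ n in atTop, HolOn (F n) U) (h : TendstoUniformlyOn F G atTop U) :
    HolOn G U := by
  intro z hz
  have cG : ContinuousOn G U := h.continuousOn
    (hF.mono fun n hn w hw => (hn w hw).continuousAt.continuousWithinAt).frequently
  have hφ := chart_mem_atlas C2 (G z)
  obtain ⟨δ, δ0, hδ⟩ := nhds_basis_closedBall.mem_iff.1
    ((chartAt C2 (G z)).open_source.mem_nhds (mem_chart_source C2 (G z)))
  generalize chartAt C2 (G z) = φ at hφ hδ
  have uc : UniformContinuousOn φ (closedBall (G z) δ) :=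
    isClosed_closedBall.isCompact.uniformContinuousOn_of_continuous (φ.continuousOn.mono hδ)
  have o : IsOpen (U ∩ G ⁻¹' ball (G z) (δ / 2)) := cG.isOpen_inter_preimage hU isOpen_ball
  have z0 : z ∈ U ∩ G ⁻¹' ball (G z) (δ / 2) := ⟨hz, mem_ball_self (half_pos δ0)⟩
  obtain ⟨N, hN⟩ := eventually_atTop.1
    (hF.and (Metric.tendstoUniformlyOn_iff.1 h (δ / 2) (half_pos δ0)))
  have m1 : ∀ w ∈ U ∩ G ⁻¹' ball (G z) (δ / 2), G w ∈ closedBall (G z) δ := fun w hw =>
    (le_of_lt hw.2).trans (half_le_self δ0.le)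
  have m2 : ∀ n, ∀ w ∈ U ∩ G ⁻¹' ball (G z) (δ / 2), F (n + N) w ∈ closedBall (G z) δ :=
    fun n w hw => by
      have k1 := (hN (n + N) (N.le_add_left n)).2 w hw.1
      have k2 : dist (G w) (G z) < δ / 2 := hw.2
      have k3 := dist_triangle_left (F (n + N) w) (G z) (G w)
      exact mem_closedBall.2 (by linarith)
  have t : TendstoUniformlyOn (fun n => φ ∘ F (n + N)) (φ ∘ G) atTop
      (U ∩ G ⁻¹' ball (G z) (δ / 2)) := by
    refine Metric.tendstoUniformlyOn_iff.2 fun ε hε => ?_
    obtain ⟨η, η0, hη⟩ := Metric.uniformContinuousOn_iff.1 uc ε hε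
    filter_upwards [(tendsto_add_atTop_nat N).eventually
      (Metric.tendstoUniformlyOn_iff.1 h η η0)] with n hn w hw
    exact hη _ (m1 w hw) _ (m2 n w hw) (hn w hw.1)
  have a := weier o (fun n w hw => (chart_an hφ ((hN (n + N) (N.le_add_left n)).1 w hw.1)
    (hδ (m2 n w hw))).1) t z z0
  refine (ContMDiffAt.comp z (chart_symm_hol hφ (φ.map_source (hδ (m1 z z0))))
    (hol_iff.2 a)).congr_of_eventuallyEq ?_
  filter_upwards [o.mem_nhds z0] with w hw
  exact (φ.left_inv (hδ (m1 w hw))).symm

end

end Vale.Agent.P290
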