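import Vale.Agent.P290.ChartS

/-!
P290 Nrm. Helper lemma names start with nrm_.
nrm_eq: On.exists_smul with on_rep. nrm_hol: take a lift a at g p (HolP.lift_at); near p, nrm = (α q ⬝ᵥ a (g q))⁻¹ • a (g q) (nrm_eq);
compose the analytic map (α, a) ↦ (α ⬝ᵥ a)⁻¹ • a on C2 × C2 with `ContMDiffAt.prodMk_space` (`ContDiffAt.comp_contMDiffAt`).
Fl.hol_comp: Fl.hol, `ContMDiffAt.prodMk`, `ContMDiffAt.prodMk_space`, continuity pulls the eventual identity back.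
-/

namespace Vale.Agent.P290

open scoped Manifold ContDiff Topology LinearAlgebra.Projectivization
open Set Filter Metric Function

noncomputable section

variable {X : Type*} [MetricSpace X] [ChartedSpace C2 X] [IsManifold 𝓘(ℂ, C2) ω X]

variable {π : X → P1}

omit [MetricSpace X] [ChartedSpace C2 X] [IsManifold 𝓘(ℂ, C2) ω X] in
theorem nrm_eq {α e : C2} {x : X} (he : On (π x) e) (h : α ⬝ᵥ e ≠ 0) :
    nrm π α x = (α ⬝ᵥ e)⁻¹ • e ∧ On (π x) (nrm π α x) := by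
  obtain ⟨c, hc, rfl⟩ := he.exists_smul (on_rep (π x))
  have h1 : α ⬝ᵥ (π x).rep ≠ 0 := fun h0 => h (by rw [dotProduct_smul, h0, smul_zero])
  refine ⟨?_, (on_rep _).smul (inv_ne_zero h1)⟩
  rw [nrm, dotProduct_smul, smul_smul, smul_eq_mul, mul_inv, mul_right_comm, inv_mul_cancel₀ hc,
    one_mul]

variable {A G N : Type*} [NormedAddCommGroup A] [NormedSpace ℂ A] [TopologicalSpace G]
  {I : ModelWithCorners ℂ A G} [TopologicalSpace N] [ChartedSpace G N] {p : N}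

theorem nrm_hol (hπ : HolP π) {α : N → C2} {g : N → X} (hα : ContMDiffAt I 𝓘(ℂ, C2) ω α p)
    (hg : ContMDiffAt I 𝓘(ℂ, C2) ω g p) (h : α p ⬝ᵥ (π (g p)).rep ≠ 0) :
    ContMDiffAt I 𝓘(ℂ, C2) ω (fun q => nrm π (α q) (g q)) p ∧
      ∀ᶠ q in 𝓝 p, α q ⬝ᵥ (π (g q)).rep ≠ 0 := by
  obtain ⟨a, ha⟩ := hπ (g p)
  have h1 : ∀ {q}, On (π (g q)) (a (g q)) → (α q ⬝ᵥ (π (g q)).rep ≠ 0 ↔ α q ⬝ᵥ a (g q) ≠ 0) := by
    intro q hq
    obtain ⟨c, hc, e⟩ := hq.exists_smul (on_rep _)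
    rw [e, dotProduct_smul, smul_eq_mul, mul_ne_zero_iff_left hc]
  have h2 := hg.continuousAt.eventually ha.on
  have h3 := (h1 h2.self_of_nhds).1 h
  have h4 : ContMDiffAt I 𝓘(ℂ, C2 × C2) ω (fun q => (α q, a (g q))) p :=
    hα.prodMk_space (ContMDiffAt.comp p ha.hol hg)
  have h5 : ContDiff ℂ ω fun r : C2 × C2 => r.1 ⬝ᵥ r.2 := by
    unfold dotProduct
    fun_prop
  have h6 : ∀ᶠ q in 𝓝 p, α q ⬝ᵥ a (g q) ≠ 0 :=
    (h5.continuous.continuousAt.comp h4.continuousAt).eventually_ne h3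
  have h7 : ContDiffAt ℂ ω (fun r : C2 × C2 => (r.1 ⬝ᵥ r.2)⁻¹ • r.2) (α p, a (g p)) :=
    (h5.contDiffAt.inv h3).smul contDiffAt_snd
  refine ⟨(h7.comp_contMDiffAt (f := fun q => (α q, a (g q))) h4).congr_of_eventuallyEq ?_, ?_⟩
  · filter_upwards [h2, h6] with q e1 e2
    exact (nrm_eq e1 e2).1
  · filter_upwards [h2, h6] with q e1 e2
    exact (h1 e1).2 e2

omit [IsManifold 𝓘(ℂ, C2) ω X] in
theorem Fl.hol_comp {σ : TwoForm X} (F : Fl σ π) {g : N → X} {a : N → C2} {τ : N → ℂ}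
    (hg : ContMDiffAt I 𝓘(ℂ, C2) ω g p) (ha : ContMDiffAt I 𝓘(ℂ, C2) ω a p)
    (hτ : ContMDiffAt I 𝓘(ℂ, ℂ) ω τ p) (h : ∀ᶠ q in 𝓝 p, On (π (g q)) (a q)) :
    ContMDiffAt I 𝓘(ℂ, C2) ω (fun q => F.Φ (g q) (a q) (τ q)) p := by
  obtain ⟨Ψ, h1, h2⟩ := F.hol (τ p) h.self_of_nhds
  have h3 : ContMDiffAt I (IR (C2 × ℂ)) ω (fun q => (g q, a q, τ q)) p :=
    hg.prodMk (ha.prodMk_space hτ)
  refine (ContMDiffAt.comp p (f := fun q => (g q, a q, τ q)) h1 h3).congr_of_eventuallyEq ?_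
  filter_upwards [h, h3.continuousAt.eventually h2] with q e1 e2
  exact e2 e1

end

end Vale.Agent.P290
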