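import Vale.Agent.P290.Top

/-!
P290 OnL. Helper lemma names start with onl_.
Projective line lemmas: `Projectivization.mk_eq_mk_iff'`, `Projectivization.mk_rep`, `Projectivization.rep_nonzero`.
IsLift.hol: the lift is MDifferentiableAt near x, so in the chart at x it is differentiable near the point, analytic by `P278.osgood_at`
(see `bridge` below: prove bridge first for a general boundaryless pair of models, via `contMDiffAt_iff` and
`mdifferentiableAt_iff_of_mem_source` / `P278.ident_diff` style argument).
-/

namespace Vale.Agent.P290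

open scoped Manifold ContDiff Topology LinearAlgebra.Projectivization
open Set Filter Metric Function

noncomputable section

theorem on_rep (p : P1) : On p p.rep :=
  ⟨Projectivization.rep_nonzero p, (Projectivization.mk_rep p).symm⟩

theorem On.ne {p : P1} {a : C2} (h : On p a) : a ≠ 0 := h.1

theorem On.smul {p : P1} {a : C2} (h : On p a) {c : ℂ} (hc : c ≠ 0) : On p (c • a) := by
  obtain ⟨ha, hp⟩ := h
  refine ⟨smul_ne_zero hc ha, ?_⟩
  rw [hp]
  exact ((Projectivization.mk_eq_mk_iff' ℂ _ _ (smul_ne_zero hc ha) ha).2 ⟨c, rfl⟩).symm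

theorem On.exists_smul {p : P1} {a b : C2} (ha : On p a) (hb : On p b) :
    ∃ c : ℂ, c ≠ 0 ∧ a = c • b := by
  obtain ⟨ha0, hpa⟩ := ha
  obtain ⟨hb0, hpb⟩ := hb
  obtain ⟨c, hc⟩ := (Projectivization.mk_eq_mk_iff' ℂ _ _ ha0 hb0).1 (hpa.symm.trans hpb)
  refine ⟨c, ?_, hc.symm⟩
  rintro rfl
  exact ha0 (by rw [← hc, zero_smul])

theorem On.eq {p q : P1} {a : C2} (hp : On p a) (hq : On q a) : p = q := by
  obtain ⟨_, h1⟩ := hp
  obtain ⟨_, h2⟩ := hq
  exact h1.trans h2.symm

theorem On.of_det {p : P1} {a b : C2} (ha : On p a) (hb : b ≠ 0) (h : det2 a b = 0) : On p b := by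
  have ha0 := ha.ne
  unfold det2 at h
  have key : ∃ c : ℂ, b = c • a := by
    by_cases h0 : a 0 = 0
    · have h1 : a 1 ≠ 0 := by
        intro h1
        apply ha0
        ext i
        fin_cases i
        · simpa using h0
        · simpa using h1
      have hb0 : b 0 = 0 := by
        rw [h0, zero_mul, zero_sub, neg_eq_zero] at h
        exact (mul_eq_zero.1 h).resolve_left h1
      refine ⟨b 1 / a 1, ?_⟩
      ext i
      fin_cases i
      · simp [h0, hb0]
      · simp [h1]
    · refine ⟨b 0 / a 0, ?_⟩
      ext i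
      fin_cases i
      · simp [h0]
      · show b 1 = b 0 / a 0 * a 1
        field_simp
        linear_combination h
  obtain ⟨c, rfl⟩ := key
  refine ha.smul ?_
  rintro rfl
  exact hb (zero_smul _ _)

end

end Vale.Agent.P290
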