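import Vale.Agent.P290.Defs

/-!
P290 Rect. Helper lemma names start with rect_.
rect_one: fundamental theorem of calculus on each side with `Complex.log (ζ - w)` (bottom, top, right sides lie in the slit plane) and
`Complex.log (-(ζ - w))` on the left side; log (-u) = log u - π I if 0 < im u, log u + π I if im u < 0
(`Complex.arg_neg_eq_arg_sub_pi_of_im_pos`, `Complex.arg_neg_eq_arg_add_pi_of_im_neg`).
rect_cauchy: `Complex.integral_boundary_rect_eq_zero_of_differentiableOn` for `dslope g w` (`differentiableOn_dslope`),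
g ζ / (ζ - w) = dslope g w ζ + g w * (ζ - w)⁻¹ on the sides.
-/

namespace Vale.Agent.P290

open scoped Manifold ContDiff Topology LinearAlgebra.Projectivization
open Set Filter Metric Function

noncomputable section

theorem rect_ftc {p v : ℂ} (h : ∀ t : ℝ, p + t * v ∈ Complex.slitPlane) (a b : ℝ) :
    ∫ t : ℝ in a..b, v * (p + t * v)⁻¹ = Complex.log (p + b * v) - Complex.log (p + a * v) := by
  refine intervalIntegral.integral_eq_sub_of_hasDerivAt
    (f := fun t : ℝ => Complex.log (p + t * v)) (fun t _ => ?_) ?_
  · have h1 : HasDerivAt (fun t : ℝ => p + t * v) v t := by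
      simpa using ((Complex.ofRealCLM.hasDerivAt (x := t)).mul_const v).const_add p
    simpa [div_eq_mul_inv] using h1.clog_real (h t)
  · refine Continuous.intervalIntegrable ?_ _ _
    exact continuous_const.mul (Continuous.inv₀ (by fun_prop)
      fun t => Complex.slitPlane_ne_zero (h t))

theorem rect_pos {u : ℂ} (h : 0 < u.im) :
    Complex.log (-u) = Complex.log u - Real.pi * Complex.I := by
  rw [Complex.log, Complex.log, Complex.arg_neg_eq_arg_sub_pi_of_im_pos h, norm_neg]
  push_cast
  ring

theorem rect_neg {u : ℂ} (h : u.im < 0) :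
    Complex.log (-u) = Complex.log u + Real.pi * Complex.I := by
  rw [Complex.log, Complex.log, Complex.arg_neg_eq_arg_add_pi_of_im_neg h, norm_neg]
  push_cast
  ring

theorem rect_one {a b c d : ℝ} {w : ℂ} (ha : a < w.re) (hb : w.re < b) (hc : c < w.im)
    (hd : w.im < d) :
    (∫ x : ℝ in a..b, ((x : ℂ) + c * Complex.I - w)⁻¹) -
      (∫ x : ℝ in a..b, ((x : ℂ) + d * Complex.I - w)⁻¹) +
      Complex.I * (∫ y : ℝ in c..d, ((b : ℂ) + y * Complex.I - w)⁻¹) -
      Complex.I * (∫ y : ℝ in c..d, ((a : ℂ) + y * Complex.I - w)⁻¹) =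
      2 * Real.pi * Complex.I := by
  have h1 := rect_ftc (p := c * Complex.I - w) (v := 1)
    (fun t => Or.inr (by simp; linarith)) a b
  have h2 := rect_ftc (p := d * Complex.I - w) (v := 1)
    (fun t => Or.inr (by simp; linarith)) a b
  have h3 := rect_ftc (p := b - w) (v := Complex.I) (fun t => Or.inl (by simp; linarith)) c d
  have h4 := rect_ftc (p := -(a - w)) (v := -Complex.I)
    (fun t => Or.inl (by simp; linarith)) c d
  have e1 : ∀ x y : ℝ, (y : ℂ) * Complex.I - w + x * 1 = x + y * Complex.I - w := fun x y => by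
    ring
  have e3 : ∀ x y : ℝ, (x : ℂ) - w + y * Complex.I = x + y * Complex.I - w := fun x y => by ring
  have e4 : ∀ x y : ℝ, -((x : ℂ) - w) + y * -Complex.I = -(x + y * Complex.I - w) :=
    fun x y => by ring
  simp only [e1, one_mul] at h1 h2
  simp only [e3, intervalIntegral.integral_const_mul] at h3
  simp only [e4, inv_neg, neg_mul_neg, intervalIntegral.integral_const_mul] at h4
  rw [rect_pos (by simp; linarith), rect_neg (by simp; linarith)] at h4
  rw [h1, h2, h3, h4]
  ring

end

end Vale.Agent.P290
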