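import Vale.Agent.P290.Rect

/-!
P290 RectB (second part of Rect; the plan covers both parts). Helper lemma names start with rectb_.
rect_one: fundamental theorem of calculus on each side with `Complex.log (ζ - w)` (bottom, top, right sides lie in the slit plane) and
`Complex.log (-(ζ - w))` on the left side; log (-u) = log u - π I if 0 < im u, log u + π I if im u < 0
(`Complex.arg_neg_eq_arg_sub_pi_of_im_pos`, `Complex.arg_neg_eq_arg_add_pi_of_im_neg`).
rect_cauchy: `Complex.integral_boundary_rect_eq_zero_of_differentiableOn` for `dslope g w` (`differentiableOn_dslope`),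
g ζ / (ζ - w) = dslope g w ζ + g w * (ζ - w)⁻¹ on the sides.
-/

namespace Vale.Agent.P290

open scoped Manifold ContDiff Topology LinearAlgebra.Projectivization
open Set Filter Metric Function

noncomputable section

theorem rectb_side {g : ℂ → ℂ} {w : ℂ} {u v : ℝ} {γ : ℝ → ℂ} (hγ : Continuous γ)
    (hne : ∀ x, γ x ≠ w) (hg : ∀ x ∈ uIcc u v, AnalyticAt ℂ g (γ x)) :
    ∫ x in u..v, g (γ x) / (γ x - w) =
      (∫ x in u..v, dslope g w (γ x)) + g w * ∫ x in u..v, (γ x - w)⁻¹ := by
  have hi : Continuous fun x => (γ x - w)⁻¹ :=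
    (hγ.sub continuous_const).inv₀ fun x => sub_ne_zero.2 (hne x)
  have hgc : ContinuousOn (fun x => g (γ x)) (uIcc u v) := fun x hx =>
    ((hg x hx).continuousAt.comp hγ.continuousAt).continuousWithinAt
  have he : ∀ x, dslope g w (γ x) = g (γ x) / (γ x - w) - g w * (γ x - w)⁻¹ := fun x => by
    rw [dslope_of_ne _ (hne x), slope_def_field, sub_div, div_eq_mul_inv (g w)]
  have h1 : IntervalIntegrable (fun x => g (γ x) / (γ x - w)) MeasureTheory.volume u v := by
    simp only [div_eq_mul_inv]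
    exact (hgc.mul hi.continuousOn).intervalIntegrable
  simp only [he]
  rw [intervalIntegral.integral_sub h1 ((hi.intervalIntegrable u v).const_mul (g w)),
    intervalIntegral.integral_const_mul]
  ring

theorem rect_cauchy {a b c d : ℝ} {w : ℂ} (ha : a < w.re) (hb : w.re < b) (hc : c < w.im)
    (hd : w.im < d) {g : ℂ → ℂ}
    (hg : ∀ ζ : ℂ, ζ.re ∈ Icc a b → ζ.im ∈ Icc c d → AnalyticAt ℂ g ζ) :
    (∫ x : ℝ in a..b, g (x + c * Complex.I) / (x + c * Complex.I - w)) -
      (∫ x : ℝ in a..b, g (x + d * Complex.I) / (x + d * Complex.I - w)) +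
      Complex.I * (∫ y : ℝ in c..d, g (b + y * Complex.I) / (b + y * Complex.I - w)) -
      Complex.I * (∫ y : ℝ in c..d, g (a + y * Complex.I) / (a + y * Complex.I - w)) =
      2 * Real.pi * Complex.I * g w := by
  have hab : a ≤ b := (ha.trans hb).le
  have hcd : c ≤ d := (hc.trans hd).le
  have hd0 : DifferentiableOn ℂ g (uIcc a b ×ℂ uIcc c d) := fun ζ hζ => by
    rw [uIcc_of_le hab, uIcc_of_le hcd] at hζ
    exact (hg ζ hζ.1 hζ.2).differentiableAt.differentiableWithinAt
  have hw : (uIcc a b ×ℂ uIcc c d) ∈ 𝓝 w := by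
    rw [uIcc_of_le hab, uIcc_of_le hcd]
    exact inter_mem (Complex.continuous_re.continuousAt.preimage_mem_nhds (Icc_mem_nhds ha hb))
      (Complex.continuous_im.continuousAt.preimage_mem_nhds (Icc_mem_nhds hc hd))
  have h0 := Complex.integral_boundary_rect_eq_zero_of_differentiableOn (dslope g w) ⟨a, c⟩ ⟨b, d⟩
    ((Complex.differentiableOn_dslope hw).2 hd0)
  simp only [smul_eq_mul] at h0
  have h1 := rect_one ha hb hc hd
  have hh : ∀ e : ℝ, e ≠ w.im → e ∈ Icc c d →
      ∫ x : ℝ in a..b, g (x + e * Complex.I) / (x + e * Complex.I - w) =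
        (∫ x : ℝ in a..b, dslope g w (x + e * Complex.I)) +
          g w * ∫ x : ℝ in a..b, ((x : ℂ) + e * Complex.I - w)⁻¹ := fun e he hm =>
    rectb_side (γ := fun x : ℝ => (x : ℂ) + e * Complex.I) (by fun_prop)
      (fun x h => he (by simpa using congrArg Complex.im h)) fun x hx =>
        hg _ (by rw [uIcc_of_le hab] at hx; simpa using hx) (by simpa using hm)
  have hv : ∀ e : ℝ, e ≠ w.re → e ∈ Icc a b →
      ∫ y : ℝ in c..d, g (e + y * Complex.I) / (e + y * Complex.I - w) =
        (∫ y : ℝ in c..d, dslope g w (e + y * Complex.I)) +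
          g w * ∫ y : ℝ in c..d, ((e : ℂ) + y * Complex.I - w)⁻¹ := fun e he hm =>
    rectb_side (γ := fun y : ℝ => (e : ℂ) + y * Complex.I) (by fun_prop)
      (fun x h => he (by simpa using congrArg Complex.re h)) fun x hx =>
        hg _ (by simpa using hm) (by rw [uIcc_of_le hcd] at hx; simpa using hx)
  rw [hh c hc.ne ⟨le_rfl, hcd⟩, hh d hd.ne' ⟨hcd, le_rfl⟩, hv a ha.ne ⟨le_rfl, hab⟩,
    hv b hb.ne' ⟨hab, le_rfl⟩]
  linear_combination h0 + g w * h1

end

end Vale.Agent.P290
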