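import Vale.Agent.P290.Top

/-!
P290 Runge. Helper lemma names start with runge_.
Oka-Weil on a compact convex set by the identity theorem. K empty is trivial; else p ∈ K. In the Banach space C(K, ℂ) let A be the
closure of the submodule of restrictions of entire functions. Ω = {t : ℂ | ∀ z ∈ K, AnalyticAt f (p + t • (z - p))} is open (tube) and
contains the real segment [0,1] (convexity). u t = the continuous map z ↦ f (p + t • (z - p)) for t ∈ Ω (0 otherwise) is complex
differentiable on Ω (uniform continuity of fderiv f on a compact neighbourhood and the mean value inequality; or show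
`DifferentiableOn` from continuity and the circle integral). For small t, u t ∈ A: f has a power series on a ball at p, partial sums are
entire and converge uniformly (`HasFPowerSeriesOnBall.tendstoUniformlyOn`, `FormalMultilinearSeries.partialSum`,
`ContinuousMultilinearMap.contDiff`). If u 1 ∉ A take Λ continuous linear, zero on A, Λ (u 1) ≠ 0 (or the quotient map `A.mkQ` to the
normed quotient); Λ ∘ u is analytic near every point of the preconnected segment and zero near 0:
`AnalyticOnNhd.eqOn_zero_of_preconnected_of_eventuallyEq_zero`. Split into lemmas.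
-/

namespace Vale.Agent.P290

open scoped Manifold ContDiff Topology LinearAlgebra.Projectivization
open Set Filter Metric Function

noncomputable section

variable {ι : Type} [Fintype ι]

theorem runge_an {X : Type*} [TopologicalSpace X] [CompactSpace X] (G : ℂ → X → ℂ) {c : ℂ}
    {R : ℝ} (hR : 0 < R) (hG : ContinuousOn (uncurry G) (closedBall c R ×ˢ univ))
    (hd : ∀ x, DifferentiableOn ℂ (fun t => G t x) (ball c R)) :
    AnalyticAt ℂ (fun t => ContinuousMap.mkD (G t) (0 : C(X, ℂ))) c := by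
  lift R to NNReal using hR.le
  have hR' : 0 < R := by exact_mod_cast hR
  have hu := ContinuousMap.continuousOn_mkD_of_uncurry G (0 : C(X, ℂ)) hG
  have hci : CircleIntegrable (fun t => ContinuousMap.mkD (G t) (0 : C(X, ℂ))) c R :=
    (hu.mono sphere_subset_closedBall).circleIntegrable R.2
  have hp := (hasFPowerSeriesOn_cauchy_integral hci hR').analyticAt
  have hcx : ∀ t ∈ closedBall c (R : ℝ), Continuous (G t) := fun t ht =>
    hG.comp_continuous (Continuous.prodMk_right t) fun _ => ⟨ht, trivial⟩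
  refine hp.congr ?_
  filter_upwards [ball_mem_nhds c hR] with w hw
  ext x
  have hdc : DiffContOnCl ℂ (fun t => G t x) (ball c R) := by
    refine ⟨hd x, ?_⟩
    rw [closure_ball c hR.ne']
    exact hG.comp (Continuous.prodMk_left x).continuousOn fun t ht => ⟨ht, trivial⟩
  have h1 := hdc.two_pi_i_inv_smul_circleIntegral_sub_inv_smul hw
  rw [ContinuousMap.mkD_apply_of_continuous (hcx w (ball_subset_closedBall hw)), ← h1]
  have hi : CircleIntegrable
      (fun z => (z - w)⁻¹ • ContinuousMap.mkD (G z) (0 : C(X, ℂ))) c R := by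
    refine ContinuousOn.circleIntegrable R.2 ?_
    have h3 : ContinuousOn (fun z : ℂ => (z - w)⁻¹) (sphere c R) := by
      refine (continuousOn_id.sub continuousOn_const).inv₀ fun z hz h => ?_
      have : z = w := sub_eq_zero.1 h
      subst this
      exact (mem_ball.1 hw).ne (mem_sphere.1 hz)
    exact h3.smul (hu.mono sphere_subset_closedBall)
  have h2 := (ContinuousMap.evalCLM ℂ x : C(X, ℂ) →L[ℂ] ℂ).intervalIntegral_comp_comm hi.out
  rw [ContinuousMap.smul_apply]
  congr 1
  simp only [circleIntegral]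
  simp only [ContinuousMap.evalCLM_apply] at h2
  rw [← h2]
  refine intervalIntegral.integral_congr fun θ _ => ?_
  simp only [ContinuousMap.smul_apply]
  have h4 := hcx (circleMap c R θ) (sphere_subset_closedBall (circleMap_mem_sphere c R.2 θ))
  congr 2
  exact ContinuousMap.mkD_apply_of_continuous h4

theorem runge_id {B : Type*} [NormedAddCommGroup B] [NormedSpace ℂ B] (A : Submodule ℂ B)
    (hA : IsClosed (A : Set B)) {u : ℂ → B} {S : Set ℂ} (hu : AnalyticOnNhd ℂ u S)
    (hS : IsPreconnected S) {a b : ℂ} (ha : a ∈ S) (hb : b ∈ S) (h0 : ∀ᶠ t in 𝓝 a, u t ∈ A) :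
    u b ∈ A := by
  have h1 : AnalyticOnNhd ℂ (fun t => A.mkQL (u t)) S := fun t ht =>
    (A.mkQL.analyticAt _).comp (hu t ht)
  have h2 := h1.eqOn_zero_of_preconnected_of_eventuallyEq_zero hS ha (by
    filter_upwards [h0] with t ht
    simpa using ht) hb
  simpa using h2

/-- Restrictions of entire functions. -/
def runge_sub (K : Set (Cn ι)) : Submodule ℂ C(K, ℂ) where
  carrier := {v | ∃ g : Cn ι → ℂ, AnalyticOnNhd ℂ g univ ∧ ∀ z : K, v z = g z}
  add_mem' := by
    rintro a b ⟨g, hg, ha⟩ ⟨h, hh, hb⟩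
    exact ⟨g + h, hg.add hh, fun z => by simp [ha, hb]⟩
  zero_mem' := ⟨0, analyticOnNhd_const, fun z => rfl⟩
  smul_mem' := by
    rintro c a ⟨g, hg, ha⟩
    exact ⟨fun z => c * g z, analyticOnNhd_const.mul hg, fun z => by simp [ha]⟩

theorem runge_psum (q : FormalMultilinearSeries ℂ (Cn ι) ℂ) (n : ℕ) (y : Cn ι) :
    AnalyticAt ℂ (q.partialSum n) y := by
  have : q.partialSum n = fun y => ∑ k ∈ Finset.range n, q k fun _ => y := rfl
  rw [this]
  refine Finset.analyticAt_fun_sum _ fun k _ => ?_
  exact (q k).analyticAt.comp (analyticAt_pi_iff.2 fun _ => analyticAt_id)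

theorem runge_small {K : Set (Cn ι)} (hK : IsCompact K) {f : Cn ι → ℂ} {p : Cn ι}
    (hf : AnalyticAt ℂ f p) :
    ∀ᶠ t in 𝓝 (0 : ℂ), ∀ ε : ℝ, 0 < ε → ∃ g : Cn ι → ℂ, AnalyticOnNhd ℂ g univ ∧
      ∀ z ∈ K, ‖g z - f (p + t • (z - p))‖ < ε := by
  obtain ⟨q, r, hq⟩ := hf
  obtain ⟨r', h0, hr'⟩ := ENNReal.lt_iff_exists_nnreal_btwn.1 hq.r_pos
  have h0' : (0 : ℝ) < r' := by exact_mod_cast h0
  have hU := hq.tendstoUniformlyOn hr'
  have hev : ∀ᶠ t in 𝓝 (0 : ℂ), ∀ z ∈ K, t • (z - p) ∈ ball (0 : Cn ι) r' := by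
    refine hK.eventually_forall_of_forall_eventually fun z _ => ?_
    have hc : Continuous fun x : ℂ × Cn ι => x.1 • (x.2 - p) := by fun_prop
    exact hc.continuousAt.eventually (isOpen_ball.mem_nhds (by simpa using h0'))
  filter_upwards [hev] with t ht ε hε
  obtain ⟨n, hn⟩ := ((Metric.tendstoUniformlyOn_iff.1 hU) ε hε).exists
  refine ⟨fun z => q.partialSum n (t • (z - p)), fun z _ => ?_, fun z hz => ?_⟩
  · have h5 : AnalyticAt ℂ (fun z : Cn ι => t • (z - p)) z :=
      analyticAt_const.fun_smul (analyticAt_id.fun_sub analyticAt_const)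
    exact AnalyticAt.comp (f := fun z : Cn ι => t • (z - p)) (runge_psum q n _) h5
  · have := hn _ (ht z hz)
    rwa [dist_comm, dist_eq_norm] at this

theorem runge {K : Set (Cn ι)} (hK : IsCompact K) (hc : Convex ℝ K) {f : Cn ι → ℂ}
    (hf : AnalyticOnNhd ℂ f K) {ε : ℝ} (hε : 0 < ε) :
    ∃ g : Cn ι → ℂ, AnalyticOnNhd ℂ g univ ∧ ∀ z ∈ K, ‖g z - f z‖ < ε := by
  rcases K.eq_empty_or_nonempty with rfl | ⟨p, hp⟩
  · exact ⟨0, analyticOnNhd_const, by simp⟩
  have : CompactSpace K := isCompact_iff_compactSpace.1 hK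
  set G : ℂ → K → ℂ := fun t z => f (p + t • (z.1 - p)) with hG
  set S : Set ℂ := (fun s : ℝ => (s : ℂ)) '' Icc 0 1 with hS
  have hSc : IsPreconnected S :=
    isPreconnected_Icc.image _ Complex.continuous_ofReal.continuousOn
  have hc2 : Continuous fun x : ℂ × Cn ι => p + x.1 • (x.2 - p) := by fun_prop
  have hu : AnalyticOnNhd ℂ (fun t => ContinuousMap.mkD (G t) (0 : C(K, ℂ))) S := by
    rintro _ ⟨s, hs, rfl⟩
    have hev : ∀ᶠ t in 𝓝 (s : ℂ), ∀ z ∈ K, AnalyticAt ℂ f (p + t • (z - p)) := by
      refine hK.eventually_forall_of_forall_eventually fun z hz => ?_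
      refine hc2.continuousAt.eventually (p := fun y => AnalyticAt ℂ f y) ?_
      refine (hf _ ?_).eventually_analyticAt
      have := hc.add_smul_sub_mem hp hz hs
      simpa using this
    obtain ⟨R, hR, hb⟩ := Metric.nhds_basis_closedBall.eventually_iff.1 hev
    refine runge_an G hR ?_ fun x => ?_
    · rintro ⟨t, z⟩ ⟨ht, -⟩
      refine ContinuousAt.continuousWithinAt ?_
      have h3 : Continuous fun x : ℂ × K => p + x.1 • (x.2.1 - p) := by fun_prop
      exact ContinuousAt.comp (f := fun x : ℂ × K => p + x.1 • (x.2.1 - p))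
        (hb ht z.1 z.2).continuousAt h3.continuousAt
    · intro t ht
      refine DifferentiableAt.differentiableWithinAt ?_
      have h3 : Differentiable ℂ fun t : ℂ => p + t • (x.1 - p) := by fun_prop
      exact DifferentiableAt.comp (f := fun t : ℂ => p + t • (x.1 - p)) t
        (hb (ball_subset_closedBall ht) x.1 x.2).differentiableAt (h3 t)
  have hmem : ∀ v : C(K, ℂ), v ∈ (runge_sub K).topologicalClosure ↔
      ∀ ε : ℝ, 0 < ε → ∃ g : Cn ι → ℂ, AnalyticOnNhd ℂ g univ ∧ ∀ z : K, ‖g z - v z‖ < ε := by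
    intro v
    change v ∈ closure (runge_sub K : Set C(K, ℂ)) ↔ _
    rw [Metric.mem_closure_iff]
    refine forall₂_congr fun ε hε => ⟨?_, ?_⟩
    · rintro ⟨b, ⟨g, hg, hb⟩, hd⟩
      refine ⟨g, hg, fun z => ?_⟩
      have := (ContinuousMap.dist_lt_iff hε).1 hd z
      rwa [hb, dist_comm, dist_eq_norm] at this
    · rintro ⟨g, hg, hb⟩
      refine ⟨⟨fun z => g z, (continuousOn_univ.1 hg.continuousOn).comp continuous_subtype_val⟩,
        ⟨g, hg, fun z => rfl⟩, (ContinuousMap.dist_lt_iff hε).2 fun z => ?_⟩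
      rw [dist_comm, dist_eq_norm]
      exact hb z
  have h0 : ∀ᶠ t in 𝓝 (0 : ℂ),
      ContinuousMap.mkD (G t) (0 : C(K, ℂ)) ∈ (runge_sub K).topologicalClosure := by
    filter_upwards [runge_small hK (hf p hp)] with t ht
    by_cases hG' : Continuous (G t)
    · rw [hmem]
      intro ε hε
      obtain ⟨g, hg, hb⟩ := ht ε hε
      refine ⟨g, hg, fun z => ?_⟩
      rw [ContinuousMap.mkD_apply_of_continuous hG']
      exact hb z.1 z.2
    · rw [ContinuousMap.mkD_of_not_continuous hG']
      exact Submodule.zero_mem _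
  have h1 := runge_id _ (runge_sub K).isClosed_topologicalClosure hu hSc
    (a := 0) (b := 1) ⟨0, by simp, by simp⟩ ⟨1, by simp, by simp⟩ h0
  obtain ⟨g, hg, hb⟩ := (hmem _).1 h1 ε hε
  refine ⟨g, hg, fun z hz => ?_⟩
  have hG1 : G 1 = fun z : K => f z := by
    funext z
    simp [hG]
  have hG' : Continuous (G 1) := by
    rw [hG1]
    exact continuousOn_iff_continuous_domRestrict.1 hf.continuousOn
  have := hb ⟨z, hz⟩
  rwa [ContinuousMap.mkD_apply_of_continuous hG', hG1] at this

end

end Vale.Agent.P290
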