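import Mathlib

/-! P290: compact definitions for the statements of the hand-ins. FROZEN. -/

namespace Vale.Agent.P290.S

open scoped Manifold ContDiff Topology LinearAlgebra.Projectivization
open Set Filter

noncomputable section

abbrev C2 : Type := Fin 2 → ℂ
abbrev P1 : Type := ℙ ℂ C2

section

variable (A B : Type) [NormedAddCommGroup A] [NormedSpace ℂ A] [NormedAddCommGroup B]
  [NormedSpace ℂ B] {M N : Type*} [TopologicalSpace M] [ChartedSpace A M] [TopologicalSpace N]
  [ChartedSpace B N]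

/-- Complex differentiable at `x`. -/
def Dif (f : M → N) (x : M) : Prop := MDifferentiableAt 𝓘(ℂ, A) 𝓘(ℂ, B) f x

/-- The differential. -/
def md (f : M → N) (x : M) : A →L[ℂ] B := mfderiv 𝓘(ℂ, A) 𝓘(ℂ, B) f x

/-- The differential applied to a vector. -/
def dv (f : M → N) (x : M) (v : A) : B := md A B f x v

end

/-- The pullback of `σ` by `g`, evaluated on the constant fields `v`, `w`. -/
def pull {X : Type*} [TopologicalSpace X] [ChartedSpace C2 X] (σ : X → C2 → C2 → ℂ) (g : C2 → X)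
    (v w y : C2) : ℂ :=
  σ (g y) (dv C2 C2 g y v) (dv C2 C2 g y w)

/-- A nowhere vanishing holomorphic 2-form on a complex surface. -/
structure TwoForm (X : Type*) [TopologicalSpace X] [ChartedSpace C2 X] where
  σ : X → C2 → C2 → ℂ
  lin : ∀ x v, IsLinearMap ℂ (σ x v)
  skew : ∀ x v w, σ x v w = -σ x w v
  ne : ∀ x, ∃ v w, σ x v w ≠ 0
  hol : ∀ φ ∈ atlas C2 X, ∀ v w : C2, DifferentiableOn ℂ (pull σ φ.symm v w) φ.target

section

variable {X : Type*} [TopologicalSpace X] [ChartedSpace C2 X]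

/-- Near `x`, `π = [a₀ : a₁]` with `a` holomorphic and nonzero. -/
def IsLift (π : X → P1) (a : X → C2) (x : X) : Prop :=
  ∀ᶠ y in 𝓝 x, Dif C2 C2 a y ∧ ∃ h : a y ≠ 0, π y = Projectivization.mk ℂ (a y) h

/-- `π` is a holomorphic map to the projective line. -/
def HolP (π : X → P1) : Prop := ∀ x, ∃ a, IsLift π a x

/-- The differential of `π` at `x` is not zero. -/
def RegP (π : X → P1) (x : X) : Prop :=
  ∃ a, IsLift π a x ∧ ∃ w : C2, ∀ c : ℂ, dv C2 C2 a x w ≠ c • a x

end

/-- The convex approximation property. -/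
def Oka (X : Type*) [MetricSpace X] [ChartedSpace C2 X] : Prop :=
  ∀ (m : ℕ) (K U : Set (Fin m → ℂ)), K.Nonempty → IsCompact K → Convex ℝ K → IsOpen U → K ⊆ U →
    ∀ f : (Fin m → ℂ) → X, (∀ z ∈ U, Dif (Fin m → ℂ) C2 f z) → ∀ ε : ℝ, 0 < ε →
      ∃ F : (Fin m → ℂ) → X, (∀ z, Dif (Fin m → ℂ) C2 F z) ∧ ∀ z ∈ K, dist (F z) (f z) < ε

end

end Vale.Agent.P290.S
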