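import Vale.Agent.P290.ST

/-! P290: compact definitions for the pointwise criterion. FROZEN. -/

namespace Vale.Agent.P290.S

open scoped Manifold ContDiff

variable {X : Type*} [TopologicalSpace X] [ChartedSpace C2 X]

/-- There are finitely many holomorphic maps to the line whose joint fibre through `x` is finite
and one of which has nonzero differential at `x`. -/
def Good (x : X) : Prop :=
  ∃ (k : ℕ) (ρ : Fin k → X → P1), (∀ l, HolP (ρ l)) ∧ {y | ∀ l, ρ l y = ρ l x}.Finite ∧
    ∃ l, RegP (ρ l) x

/-- `X` is a twist of a compact surface `Y` with a form, and `x` corresponds to a good point. -/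
def TwGood (x : X) : Prop :=
  ∃ (Y : Type) (_ : MetricSpace Y) (_ : CompactSpace Y) (_ : ChartedSpace C2 Y)
    (_ : IsManifold 𝓘(ℂ, C2) ω Y) (τ : TwoForm Y) (p : Y → P1) (π : X → P1) (c : ℂ)
    (W : Twist τ p π c) (i : Fin 2), HolP p ∧ HolP π ∧ (π x).rep i ≠ 0 ∧ Good (W.ψ i x)

end Vale.Agent.P290.S
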