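import Vale.Agent.P290.S

/-! P290: compact definitions for the statement about automorphism groups. FROZEN. -/

namespace Vale.Agent.P290.S

open scoped Topology
open Filter

variable {X : Type*} [TopologicalSpace X] [ChartedSpace C2 X]

/-- The covector `a₀ da₁ - a₁ da₀` at `x`, a nonzero multiple of `dπ` for `π = [a₀ : a₁]`. -/
noncomputable def cov (a : X → C2) (x : X) (v : C2) : ℂ :=
  a x 0 * dv C2 C2 a x v 1 - a x 1 * dv C2 C2 a x v 0

/-- `dπ ∧ dρ ≠ 0` at `x`. -/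
def Indep (π ρ : X → P1) (x : X) : Prop :=
  ∃ a b, IsLift π a x ∧ IsLift ρ b x ∧
    ∃ v w : C2, cov a x v * cov b x w ≠ cov a x w * cov b x v

/-- `Z` is locally the common zero set of finitely many holomorphic functions. -/
def Analytic (Z : Set X) : Prop :=
  ∀ x : X, ∃ (k : ℕ) (f : Fin k → X → ℂ), ∀ᶠ y in 𝓝 x,
    (∀ l, Dif C2 ℂ (f l) y) ∧ (y ∈ Z ↔ ∀ l, f l y = 0)

/-- `g` is a biholomorphism. -/
def Biholo (g : X ≃ X) : Prop := ∀ x, Dif C2 C2 g x ∧ Dif C2 C2 g.symm x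

end Vale.Agent.P290.S
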