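import Vale.Agent.P290.S

/-! P290: compact definitions for the statement about twists. FROZEN. -/

namespace Vale.Agent.P290.S

variable {X X' : Type*} [TopologicalSpace X] [ChartedSpace C2 X] [TopologicalSpace X']
  [ChartedSpace C2 X']

/-- `u₀ v₁ - u₁ v₀`. -/
def det2 (u v : C2) : ℂ := u 0 * v 1 - u 1 * v 0

/-- `y` is reached from `x` at time one along the Hamiltonian field of `c log (a₁ / a₀)`,
where `π = [a₀ : a₁]`. -/
def Flows (σ : TwoForm X) (π : X → P1) (c : ℂ) (x y : X) : Prop :=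
  ∃ γ : ℂ → X, γ 0 = x ∧ γ 1 = y ∧ ∀ s, π (γ s) = π x ∧ Dif ℂ C2 γ s ∧
    ∀ a, IsLift π a (γ s) → ∀ w : C2, σ.σ (γ s) (dv ℂ C2 γ s 1) w * (a (γ s) 0 * a (γ s) 1) =
      c * det2 (a (γ s)) (dv C2 C2 a (γ s) w)

/-- `π' : X' → ℙ¹` is the twist of `π : X → ℙ¹` by `c`: over each standard affine line the two
fibrations are biholomorphic, and the two biholomorphisms differ by the time one flow above. -/
structure Twist (σ : TwoForm X) (π : X → P1) (π' : X' → P1) (c : ℂ) where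
  ψ : Fin 2 → X' → X
  χ : Fin 2 → X → X'
  hψ : ∀ i x, (π' x).rep i ≠ 0 → Dif C2 C2 (ψ i) x ∧ π (ψ i x) = π' x ∧ χ i (ψ i x) = x
  hχ : ∀ i x, (π x).rep i ≠ 0 → Dif C2 C2 (χ i) x ∧ π' (χ i x) = π x ∧ ψ i (χ i x) = x
  flow : ∀ x, (π' x).rep 0 ≠ 0 → (π' x).rep 1 ≠ 0 → Flows σ π c (ψ 0 x) (ψ 1 x)

end Vale.Agent.P290.S
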