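import Vale.Agent.P290.Defs

/-!
P290 Sol1. Helper lemma names start with sol1_.
Ψ (z, t) = (z, t - P z t + r z (s (z, t) - s (z, 0))) is analytic at (z0, 0) (P = r ∘ w near z0, w analytic by `AnalyticAt.fderiv`).
Ψ (z, 0) = (z, 0) and the t-derivative of the second component at (z0, 0) is id - P + r w = id, so the derivative at (z0, 0) is the identity
(fderiv L (u, t) = L (u, 0) + L (0, t), both by uniqueness of derivatives along z ↦ (z, 0), t ↦ (z0, t)). Inverse function theorem: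
`ContDiffAt.toOpenPartialHomeomorph`, `ContDiffAt.to_localInverse` (n = ω) or `HasStrictFDerivAt.localInverse` plus `AnalyticAt` of the inverse.
θ (z, v) = (Ψ⁻¹ (z, r z (v - s (z, 0)))).2. From t - P t + r (s (z, t) - v) = 0 apply w z: w (t - P t) = 0, w r = id, so s (z, t) = v, then
P t = t. Injectivity: Ψ is injective on the source and is a function of (z, s (z, t), t - P z t).
-/

namespace Vale.Agent.P290

open scoped Manifold ContDiff Topology LinearAlgebra.Projectivization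
open Set Filter Metric Function

noncomputable section

theorem sol1_inv {E : Type*} [NormedAddCommGroup E] [NormedSpace ℂ E] [CompleteSpace E] {Ψ : E → E}
    {a : E} (h : ContDiffAt ℂ ω Ψ a) (h' : HasFDerivAt Ψ (ContinuousLinearMap.id ℂ E) a) :
    (∃ g : E → E, ContDiffAt ℂ ω g (Ψ a) ∧ g (Ψ a) = a ∧ ∀ᶠ y in 𝓝 (Ψ a), Ψ (g y) = y) ∧
      ∃ W ∈ 𝓝 a, InjOn Ψ W := by
  have h1 : HasFDerivAt Ψ ((ContinuousLinearEquiv.refl ℂ E : E ≃L[ℂ] E) : E →L[ℂ] E) a := h'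
  have hn : (ω : WithTop ℕ∞) ≠ 0 := by simp
  refine ⟨⟨h.localInverse h1 hn, h.to_localInverse h1 hn, h.localInverse_apply_image h1 hn,
    (h.hasStrictFDerivAt' h1 hn).eventually_right_inverse⟩,
    (h.toOpenPartialHomeomorph Ψ h1 hn).source, (h.toOpenPartialHomeomorph Ψ h1 hn).open_source.mem_nhds
      (h.mem_toOpenPartialHomeomorph_source h1 hn), (h.toOpenPartialHomeomorph Ψ h1 hn).injOn⟩

theorem sol1 {D T : Type*} [NormedAddCommGroup D] [NormedSpace ℂ D] [CompleteSpace D]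
    [NormedAddCommGroup T] [NormedSpace ℂ T] [CompleteSpace T] {s : D × T → C2} {z0 : D}
    (hs : AnalyticAt ℂ s (z0, 0)) {r : D → C2 →L[ℂ] T} (hr : AnalyticAt ℂ r z0)
    {P : D → T →L[ℂ] T} (h : ∀ᶠ z in 𝓝 z0, (∀ v, fderiv ℂ s (z, 0) (0, r z v) = v) ∧
      ∀ t, P z t = r z (fderiv ℂ s (z, 0) (0, t))) :
    AnalyticAt ℂ P z0 ∧ (∃ θ : D × C2 → T, AnalyticAt ℂ θ (z0, s (z0, 0)) ∧
      θ (z0, s (z0, 0)) = 0 ∧ ∀ᶠ q in 𝓝 (z0, s (z0, 0)), s (q.1, θ q) = q.2 ∧ P q.1 (θ q) = θ q) ∧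
      ∃ W ∈ 𝓝 ((z0, 0) : D × T), InjOn (fun q : D × T => (q.1, s q, q.2 - P q.1 q.2)) W := by
  have hs' : ContDiffAt ℂ ω s (z0, 0) := hs.contDiffAt
  have hr' : ContDiffAt ℂ ω r z0 := hr.contDiffAt
  have hi : ContDiffAt ℂ ω (fun z : D => ((z, 0) : D × T)) z0 := contDiffAt_id.prodMk contDiffAt_const
  have hw : ContDiffAt ℂ ω
      (fun z : D => (fderiv ℂ s (z, 0)).comp (ContinuousLinearMap.inr ℂ D T)) z0 :=
    (ContDiffAt.comp (g := fderiv ℂ s) z0 hs.fderiv.contDiffAt hi).clm_comp contDiffAt_const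
  have hP : ContDiffAt ℂ ω P z0 := by
    refine (hr'.clm_comp hw).congr_of_eventuallyEq (h.mono fun z hz => ?_)
    ext t
    simp [hz.2 t]
  have h0 := h.self_of_nhds
  have hs0 : ContDiffAt ℂ ω (fun z : D => s (z, 0)) z0 := ContDiffAt.comp (g := s) z0 hs' hi
  have hP1 : ContDiffAt ℂ ω (fun q : D × T => P q.1) (z0, 0) :=
    ContDiffAt.comp (g := P) (f := Prod.fst) (z0, (0 : T)) hP contDiffAt_fst
  have hr1 : ContDiffAt ℂ ω (fun q : D × T => r q.1) (z0, 0) :=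
    ContDiffAt.comp (g := r) (f := Prod.fst) (z0, (0 : T)) hr' contDiffAt_fst
  have hs1 : ContDiffAt ℂ ω (fun q : D × T => s (q.1, 0)) (z0, 0) :=
    ContDiffAt.comp (g := fun z : D => s (z, 0)) (f := Prod.fst) (z0, (0 : T)) hs0 contDiffAt_fst
  obtain ⟨Ψ, hΨ⟩ : ∃ Ψ : D × T → D × T,
      Ψ = fun q => (q.1, q.2 - P q.1 q.2 + r q.1 (s q - s (q.1, 0))) := ⟨_, rfl⟩
  have c1 : ContDiffAt ℂ ω Ψ (z0, 0) := by
    rw [hΨ]
    exact contDiffAt_fst.prodMk ((contDiffAt_snd.sub (hP1.clm_apply contDiffAt_snd)).add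
      (hr1.clm_apply (hs'.sub hs1)))
  have c2 : HasFDerivAt Ψ (ContinuousLinearMap.id ℂ (D × T)) (z0, 0) := by
    have d1 := hs.differentiableAt.hasFDerivAt
    have d2 : HasFDerivAt (fun q : D × T => s (q.1, 0)) ((fderiv ℂ s (z0, 0)).comp
        ((ContinuousLinearMap.fst ℂ D T).prod 0)) (z0, 0) :=
      HasFDerivAt.comp (g := s) (f := fun q : D × T => (q.1, (0 : T))) (z0, (0 : T)) d1
        (hasFDerivAt_fst.prodMk (hasFDerivAt_const _ _))
    have d3 := (hP1.differentiableAt (by simp)).hasFDerivAt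
    have d4 := (hr1.differentiableAt (by simp)).hasFDerivAt
    have d5 := (hasFDerivAt_fst (𝕜 := ℂ) (p := ((z0, 0) : D × T))).prodMk
      ((hasFDerivAt_snd.sub (d3.clm_apply hasFDerivAt_snd)).add (d4.clm_apply (d1.sub d2)))
    rw [hΨ]
    refine d5.congr_fderiv (ContinuousLinearMap.ext fun q => Prod.ext rfl ?_)
    have e : fderiv ℂ s (z0, 0) q - fderiv ℂ s (z0, 0) (q.1, 0) = fderiv ℂ s (z0, 0) (0, q.2) := by
      rw [← map_sub]
      simp [Prod.ext_iff, Prod.sub_def]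
    have e' := congrArg (r z0) e
    rw [map_sub] at e'
    simp [e', h0.2]
  obtain ⟨⟨g, g1, g2, g3⟩, W, W1, W2⟩ := sol1_inv c1 c2
  have e0 : Ψ (z0, 0) = (z0, 0) := by simp [hΨ]
  rw [e0] at g1 g2 g3
  obtain ⟨κ, hκ⟩ : ∃ κ : D × C2 → D × T, κ = fun q => (q.1, r q.1 (q.2 - s (q.1, 0))) := ⟨_, rfl⟩
  have k0 : κ (z0, s (z0, 0)) = (z0, 0) := by simp [hκ]
  have k1 : ContDiffAt ℂ ω κ (z0, s (z0, 0)) := by
    rw [hκ]
    exact contDiffAt_fst.prodMk
      ((ContDiffAt.comp (g := r) (f := Prod.fst) (z0, s (z0, 0)) hr' contDiffAt_fst).clm_apply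
        (contDiffAt_snd.sub (ContDiffAt.comp (g := fun z : D => s (z, 0)) (f := Prod.fst)
          (z0, s (z0, 0)) hs0 contDiffAt_fst)))
  have k2 : Tendsto κ (𝓝 (z0, s (z0, 0))) (𝓝 (z0, 0)) := by
    have := k1.continuousAt.tendsto
    rwa [k0] at this
  refine ⟨hP.analyticAt, ⟨fun q => (g (κ q)).2, ?_, by simp [k0, g2], ?_⟩, W, W1, ?_⟩
  · exact (ContDiffAt.comp (g := g) (f := κ) (z0, s (z0, 0)) (by rwa [k0]) k1).snd.analyticAt
  · have t1 : Tendsto (Prod.fst : D × C2 → D) (𝓝 (z0, s (z0, 0))) (𝓝 z0) := continuous_fst.tendsto _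
    filter_upwards [k2.eventually g3, t1.eventually h] with q hq hz
    obtain ⟨⟨z, t⟩, hp⟩ : ∃ p, p = g (κ q) := ⟨_, rfl⟩
    rw [← hp] at hq ⊢
    simp only [hΨ, hκ, Prod.mk.injEq] at hq
    obtain ⟨rfl, hq⟩ := hq
    have e1 : t = P q.1 t + r q.1 (q.2 - s (q.1, t)) := by
      simp only [map_sub] at hq ⊢
      rw [← sub_eq_zero, ← sub_eq_zero.2 hq]
      abel
    have e2 : ((0, t) : D × T) = (0, P q.1 t) + (0, r q.1 (q.2 - s (q.1, t))) := by
      rw [Prod.mk_add_mk, add_zero, ← e1]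
    have e3 := congrArg (fderiv ℂ s (q.1, 0)) e2
    rw [map_add, hz.1, hz.2, hz.1, left_eq_add, sub_eq_zero] at e3
    refine ⟨e3.symm, ?_⟩
    rw [← e3, sub_self, map_zero, add_zero] at e1
    exact e1.symm
  · intro p hp q hq e
    simp only [Prod.mk.injEq] at e
    refine W2 hp hq ?_
    simp only [hΨ]
    rw [e.2.2, e.2.1, e.1]

end

end Vale.Agent.P290
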