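import Vale.Agent.P290.ChartS
import Vale.Agent.P290.BezB

/-!
P290 Sol2. Helper lemma names start with sol2_.
W z j = md S (z, 0) (0, Pi.single j 1), m (i, j) z = σ (S (z, 0)) (W z i) (W z j). m is analytic near K: in the chart at S (z0, 0) it is
rho (s (z, 0)) * det2 (w z i) (w z j), s = φ ∘ S, w z j = fderiv s (z, 0) (0, Pi.single j 1) (chart_an, sig_chart, rho_an). Surjectivity gives
some m (i, j) z ≠ 0 (chain rule along t ↦ (z, t): the W z j span; if all det2 vanish then det2 e0 e1 = 0 by bilinearity). bezout gives c;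
b i j = c (i, j) - c (j, i). P z t i = ∑ j, b i j z * ∑ l, t l * m (l, j) z, as a continuous linear map (`ContinuousLinearMap.pi`, sums of
scalar • proj l). r z v i = ∑ j, b i j z * (rho (s (z, 0)) * det2 v (w z j)). Identity: det2 wi wj • v = det2 v wj • wi - det2 v wi • wj.
Analyticity of operator valued maps: write them as finite sums of analytic scalars • constant operators.
-/

namespace Vale.Agent.P290

open scoped Manifold ContDiff Topology LinearAlgebra.Projectivization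
open Set Filter Metric Function

noncomputable section

variable {X : Type*} [MetricSpace X] [ChartedSpace C2 X] [IsManifold 𝓘(ℂ, C2) ω X]
  {ι : Type} [Fintype ι]

/-- The operator `w ↦ v ↦ det2 v w • e`. -/
def sol2_D {κ : Type} [Fintype κ] (e : Cn κ) : C2 →L[ℂ] C2 →L[ℂ] Cn κ :=
  (ContinuousLinearMap.proj 1 : C2 →L[ℂ] ℂ).smulRight
      ((ContinuousLinearMap.proj 0 : C2 →L[ℂ] ℂ).smulRight e) -
    (ContinuousLinearMap.proj 0 : C2 →L[ℂ] ℂ).smulRight
      ((ContinuousLinearMap.proj 1 : C2 →L[ℂ] ℂ).smulRight e)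

theorem sol2_D_apply {κ : Type} [Fintype κ] (e : Cn κ) (w v : C2) :
    sol2_D e w v = det2 v w • e := by
  simp only [sol2_D, det2, sub_apply, ContinuousLinearMap.smulRight_apply,
    smul_apply, ContinuousLinearMap.proj_apply, smul_smul, ← sub_smul]
  congr 1
  ring

theorem sol2_id (v a b : C2) : det2 v b • a - det2 v a • b = det2 a b • v := by
  ext k
  fin_cases k <;> simp [det2] <;> ring

theorem sol2_det {A : Type} [NormedAddCommGroup A] [NormedSpace ℂ A] {a b : A → C2} {z : A}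
    (ha : AnalyticAt ℂ a z) (hb : AnalyticAt ℂ b z) :
    AnalyticAt ℂ (fun z => det2 (a z) (b z)) z := by
  have h : ∀ {c : A → C2}, AnalyticAt ℂ c z → ∀ k, AnalyticAt ℂ (fun z => c z k) z :=
    fun hc k => ((ContinuousLinearMap.proj k : C2 →L[ℂ] ℂ).analyticAt _).comp hc
  exact ((h ha 0).mul (h hb 1)).sub ((h ha 1).mul (h hb 0))

theorem sol2_D_an {κ : Type} [Fintype κ] (e : Cn κ) {A : Type} [NormedAddCommGroup A]
    [NormedSpace ℂ A] {a : A → C2} {z : A} (ha : AnalyticAt ℂ a z) :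
    AnalyticAt ℂ (fun z => sol2_D e (a z)) z :=
  (ContinuousLinearMap.analyticAt (F := C2 →L[ℂ] Cn κ) (sol2_D e) _).comp ha

omit [IsManifold 𝓘(ℂ, C2) ω X] in
theorem sol2_chain {κ : Type} [Fintype κ] {S : Cn ι × Cn κ → X} {z : Cn ι}
    (hS : Hol (Cn ι × Cn κ) C2 S (z, 0)) (t : Cn κ) :
    md (Cn κ) C2 (fun t => S (z, t)) 0 t = md (Cn ι × Cn κ) C2 S (z, 0) (0, t) := by
  have h1 : HasFDerivAt (fun t : Cn κ => ((z, t) : Cn ι × Cn κ))
      (ContinuousLinearMap.inr ℂ (Cn ι) (Cn κ)) 0 := hasFDerivAt_prodMk_right z 0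
  have h2 := (ContMDiffAt.mdifferentiableAt hS (by simp)).hasMFDerivAt.comp (0 : Cn κ)
    (f := fun t : Cn κ => ((z, t) : Cn ι × Cn κ)) h1.hasMFDerivAt
  exact congrArg (fun L : Cn κ →L[ℂ] C2 => L t) h2.mfderiv

theorem sol2_loc (σ : TwoForm X) {κ : Type} [Fintype κ] {S : Cn ι × Cn κ → X} {z0 : Cn ι}
    (hS : Hol (Cn ι × Cn κ) C2 S (z0, 0)) :
    AnalyticAt ℂ (fun z => rho σ (chartAt C2 (S (z0, 0))) (chartAt C2 (S (z0, 0)) (S (z, 0)))) z0 ∧
    (∀ u, AnalyticAt ℂ (fun z => fderiv ℂ (chartAt C2 (S (z0, 0)) ∘ S) (z, 0) u) z0) ∧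
    ∀ᶠ z in 𝓝 z0, ∀ u v, σ.σ (S (z, 0)) (md (Cn ι × Cn κ) C2 S (z, 0) u)
      (md (Cn ι × Cn κ) C2 S (z, 0) v) =
        rho σ (chartAt C2 (S (z0, 0))) (chartAt C2 (S (z0, 0)) (S (z, 0))) *
          det2 (fderiv ℂ (chartAt C2 (S (z0, 0)) ∘ S) (z, 0) u)
            (fderiv ℂ (chartAt C2 (S (z0, 0)) ∘ S) (z, 0) v) := by
  have hφ := chart_mem_atlas C2 (S (z0, 0))
  have hx := mem_chart_source C2 (S (z0, 0))
  obtain ⟨h1, h2⟩ := chart_an hφ hS hx
  have hi : AnalyticAt ℂ (fun z : Cn ι => ((z, 0) : Cn ι × Cn κ)) z0 :=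
    analyticAt_id.prod analyticAt_const
  refine ⟨?_, fun u => ?_, ?_⟩
  · exact (rho_an σ hφ ((chartAt C2 (S (z0, 0))).map_source hx)).comp_of_eq
      (h1.comp_of_eq hi rfl) rfl
  · exact ((ContinuousLinearMap.apply ℂ C2 u).analyticAt _).comp (h1.fderiv.comp_of_eq hi rfl)
  · filter_upwards [hi.continuousAt.tendsto.eventually h2] with z hz u v
    rw [hz.2.2, hz.2.2]
    exact (sig_chart σ hφ hz.1).2 _ _

theorem sol2 (σ : TwoForm X) {κ : Type} [Fintype κ] {K : Set (Cn ι)} (hK : IsCompact K)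
    (hc : Convex ℝ K) {S : Cn ι × Cn κ → X} (hS : ∀ z ∈ K, Hol (Cn ι × Cn κ) C2 S (z, 0))
    (hs : ∀ z ∈ K, Surjective (md (Cn κ) C2 (fun t => S (z, t)) 0)) :
    ∃ P : Cn ι → Cn κ →L[ℂ] Cn κ, ∀ z0 ∈ K, ∃ r : Cn ι → C2 →L[ℂ] Cn κ, AnalyticAt ℂ r z0 ∧
      ∀ᶠ z in 𝓝 z0,
        (∀ v, fderiv ℂ (chartAt C2 (S (z0, 0)) ∘ S) (z, 0) (0, r z v) = v) ∧
        ∀ t, P z t = r z (fderiv ℂ (chartAt C2 (S (z0, 0)) ∘ S) (z, 0) (0, t)) := by
  classical
  set e : κ → Cn κ := fun j => Pi.single j 1 with he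
  set T : Cn ι → Cn κ →L[ℂ] C2 := fun z =>
    (md (Cn ι × Cn κ) C2 S (z, 0)).comp (ContinuousLinearMap.inr ℂ (Cn ι) (Cn κ)) with hT
  have hT' : ∀ z t, T z t = md (Cn ι × Cn κ) C2 S (z, 0) (0, t) := fun z t => rfl
  set m : κ × κ → Cn ι → ℂ := fun p z => σ.σ (S (z, 0)) (T z (e p.1)) (T z (e p.2)) with hm
  have hma : ∀ p, AnalyticOnNhd ℂ (m p) K := fun p z0 hz0 => by
    obtain ⟨h1, h2, h3⟩ := sol2_loc σ (hS z0 hz0)
    refine (h1.mul (sol2_det (h2 (0, e p.1)) (h2 (0, e p.2)))).congr ?_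
    filter_upwards [h3] with z hz
    exact (hz _ _).symm
  have hm0 : ∀ z ∈ K, ∃ p, m p z ≠ 0 := fun z hz => by
    by_contra hn
    push Not at hn
    have hexp : ∀ t : Cn κ, T z t = ∑ j, t j • T z (e j) := fun t => by
      conv_lhs => rw [pi_eq_sum_univ' t]
      simp only [map_sum, map_smul, he]
    apply σ.ne (S (z, 0))
    ext1 u
    ext1 v
    obtain ⟨a, rfl⟩ := hs z hz u
    obtain ⟨b, rfl⟩ := hs z hz v
    rw [sol2_chain (hS z hz), sol2_chain (hS z hz), ← hT', ← hT', hexp a, hexp b]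
    simp only [map_sum, map_smul, sum_apply, smul_apply]
    have h0 : ∀ i j, σ.σ (S (z, 0)) (T z (e i)) (T z (e j)) = 0 := fun i j => hn (i, j)
    simp [h0]
  obtain ⟨c, hca, hc1⟩ := bezout hK hc hma hm0
  refine ⟨fun z => ∑ p : κ × κ, c p z •
    ((((σ.σ (S (z, 0))).flip (T z (e p.2))).comp (T z)).smulRight (e p.1) -
      (((σ.σ (S (z, 0))).flip (T z (e p.1))).comp (T z)).smulRight (e p.2)), fun z0 hz0 => ?_⟩
  obtain ⟨h1, h2, h3⟩ := sol2_loc σ (hS z0 hz0)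
  set s := chartAt C2 (S (z0, 0)) ∘ S with hs'
  set ρ : Cn ι → ℂ := fun z =>
    rho σ (chartAt C2 (S (z0, 0))) (chartAt C2 (S (z0, 0)) (S (z, 0))) with hρ
  refine ⟨fun z => ∑ p : κ × κ, (c p z * ρ z) •
    (sol2_D (e p.1) (fderiv ℂ s (z, 0) (0, e p.2)) -
      sol2_D (e p.2) (fderiv ℂ s (z, 0) (0, e p.1))), ?_, ?_⟩
  · refine Finset.analyticAt_fun_sum _ fun p _ => ((hca p z0 hz0).mul h1).smul ?_
    exact (sol2_D_an _ (h2 _)).sub (sol2_D_an _ (h2 _))
  filter_upwards [h3, hc1.filter_mono (nhds_le_nhdsSet hz0)] with z hz hz1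
  refine ⟨fun v => ?_, fun t => ?_⟩
  · set L := (fderiv ℂ s (z, 0)).comp (ContinuousLinearMap.inr ℂ (Cn ι) (Cn κ)) with hL
    have hL' : ∀ t, fderiv ℂ s (z, 0) (0, t) = L t := fun t => rfl
    simp only [hL', sum_apply, smul_apply,
      sub_apply, sol2_D_apply, map_sum, map_smul, map_sub, sol2_id, smul_smul]
    rw [← Finset.sum_smul]
    have : ∑ p : κ × κ, c p z * ρ z * det2 (L (e p.1)) (L (e p.2)) = 1 := by
      rw [← hz1]
      refine Finset.sum_congr rfl fun p _ => ?_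
      rw [mul_assoc]
      exact congrArg _ (hz _ _).symm
    rw [this, one_smul]
  · simp only [sum_apply, smul_apply,
      sub_apply, sol2_D_apply, ContinuousLinearMap.smulRight_apply,
      ContinuousLinearMap.comp_apply, ContinuousLinearMap.flip_apply, hT', hz]
    refine Finset.sum_congr rfl fun p _ => ?_
    simp only [smul_sub, smul_smul, mul_assoc]
    rfl

end

end Vale.Agent.P290
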