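import Vale.Agent.P290.Sol1
import Vale.Agent.P290.Sol2

/-!
P290 Sol3. Helper lemma names start with sol3_.
solve_pi: P from sol2; at z0 ∈ K apply sol1 to s = φ ∘ S, φ = chartAt (S (z0, 0)). Θ q = (q.1, S q, q.2 - P q.1 q.2) is injective on K ×ˢ {0},
continuous there and locally injective, so injective on a neighbourhood 𝒩 of K ×ˢ {0} (`Set.InjOn.exists_mem_nhdsSet`). Define
ϑ (z, x) = the t with (z, t) ∈ 𝒩, S (z, t) = x, P z t = t if it exists. Near (z0, S (z0, 0)) it equals θ (z, φ x) (φ injective on its source).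
So W = {q | ContMDiffAt (IL _) _ ω ϑ q ∧ S (q.1, ϑ q) = q.2 ∧ ‖ϑ q‖ < η} is a neighbourhood of each (z0, S (z0, 0))
(`contMDiffAt_iff_contMDiffAt_nhds`); tube gives δ; τ z = ϑ (z, g z), hol_iff.
solve: e : Cn (Fin n) ≃L T (`ContinuousLinearEquiv.ofFinrankEq`), S' (z, t) = S (z, e t), τ = e ∘ τ'.
-/

namespace Vale.Agent.P290

open scoped Manifold ContDiff Topology LinearAlgebra.Projectivization
open Set Filter Metric Function

noncomputable section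

variable {X : Type*} [MetricSpace X] [ChartedSpace C2 X] [IsManifold 𝓘(ℂ, C2) ω X]
  {ι : Type} [Fintype ι]

theorem solve_pi (σ : TwoForm X) {κ : Type} [Fintype κ] {K : Set (Cn ι)} (hK : IsCompact K)
    (hc : Convex ℝ K) {S : Cn ι × Cn κ → X} (hS : ∀ z ∈ K, Hol (Cn ι × Cn κ) C2 S (z, 0))
    (hs : ∀ z ∈ K, Surjective (md (Cn κ) C2 (fun t => S (z, t)) 0)) {η : ℝ} (hη : 0 < η) :
    ∃ δ : ℝ, 0 < δ ∧ ∀ g : Cn ι → X, HolOn g K → (∀ z ∈ K, dist (g z) (S (z, 0)) < δ) →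
      ∃ τ : Cn ι → Cn κ, AnalyticOnNhd ℂ τ K ∧ ∀ z ∈ K, ‖τ z‖ < η ∧ S (z, τ z) = g z := by
  classical
  obtain ⟨P, hP⟩ := sol2 σ hK hc hS hs
  have hloc := fun z0 (hz0 : z0 ∈ K) => (hP z0 hz0).elim fun r h =>
    sol1 (chart_an (chart_mem_atlas C2 (S (z0, 0))) (hS z0 hz0) (mem_chart_source C2 _)).1 h.1 h.2
  let Θ : Cn ι × Cn κ → Cn ι × X × Cn κ := fun q => (q.1, S q, q.2 - P q.1 q.2)
  have hN : ∃ N ∈ 𝓝ˢ (K ×ˢ ({0} : Set (Cn κ))), InjOn Θ N := by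
    apply Set.InjOn.exists_mem_nhdsSet
    · rintro ⟨z, t⟩ ⟨_, ht⟩ ⟨z', t'⟩ ⟨_, ht'⟩ h
      have h1 : z = z' := congrArg Prod.fst h
      have h2 : t = 0 := ht
      have h3 : t' = 0 := ht'
      rw [h1, h2, h3]
    · exact hK.prod isCompact_singleton
    · rintro ⟨z, t⟩ ⟨hz, ht⟩
      have h2 : t = 0 := ht
      subst h2
      have h1 : ContinuousAt (fun q : Cn ι × Cn κ => P q.1) (z, 0) :=
        ContinuousAt.comp (f := Prod.fst) (hloc z hz).1.continuousAt continuousAt_fst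
      exact continuousAt_fst.prodMk ((hS z hz).continuousAt.prodMk
        (continuousAt_snd.sub (h1.clm_apply continuousAt_snd)))
    · rintro ⟨z, t⟩ ⟨hz, ht⟩
      have h2 : t = 0 := ht
      subst h2
      obtain ⟨W, hW, hi⟩ := (hloc z hz).2.2
      refine ⟨W, hW, fun q hq q' hq' h => hi hq hq' ?_⟩
      have h1 : q.1 = q'.1 := congrArg (fun u : Cn ι × X × Cn κ => u.1) h
      have h3 : S q = S q' := congrArg (fun u => u.2.1) h
      have h4 : q.2 - P q.1 q.2 = q'.2 - P q'.1 q'.2 := congrArg (fun u => u.2.2) h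
      simp only [comp_apply, h3, h4]
      rw [h1]
  obtain ⟨N, hN, hinj⟩ := hN
  let ϑ : Cn ι × X → Cn κ := fun q =>
    if h : ∃ t, (q.1, t) ∈ N ∧ S (q.1, t) = q.2 ∧ P q.1 t = t then h.choose else 0
  have hϑ : ∀ (q : Cn ι × X) (t : Cn κ), (q.1, t) ∈ N → S (q.1, t) = q.2 → P q.1 t = t →
      ϑ q = t := by
    intro q t h1 h2 h3
    have h : ∃ t, (q.1, t) ∈ N ∧ S (q.1, t) = q.2 ∧ P q.1 t = t := ⟨t, h1, h2, h3⟩
    have he : ϑ q = h.choose := dif_pos h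
    obtain ⟨g1, g2, g3⟩ := h.choose_spec
    rw [he]
    have : Θ (q.1, h.choose) = Θ (q.1, t) := by
      simp only [Θ, g2, g3, h2, h3, sub_self]
    exact congrArg Prod.snd (hinj g1 h1 this)
  have key : ∀ z0 ∈ K, {q : Cn ι × X | ContMDiffAt (IL (Cn ι)) 𝓘(ℂ, Cn κ) ω ϑ q ∧
      S (q.1, ϑ q) = q.2 ∧ ‖ϑ q‖ < η} ∈ 𝓝 (z0, S (z0, 0)) := by
    intro z0 hz0
    obtain ⟨θ, hθ, hθ0, hev⟩ := (hloc z0 hz0).2.1
    set φ := chartAt C2 (S (z0, 0)) with hφ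
    have hx0 : S (z0, 0) ∈ φ.source := mem_chart_source C2 _
    let j : Cn ι × X → Cn ι × C2 := fun q => (q.1, φ q.2)
    have hj : ContMDiffAt (IL (Cn ι)) 𝓘(ℂ, Cn ι × C2) ω j (z0, S (z0, 0)) := by
      have h1 : ContMDiffAt (IL (Cn ι)) 𝓘(ℂ, C2) ω (fun q : Cn ι × X => φ q.2) (z0, S (z0, 0)) :=
        ContMDiffAt.comp (f := Prod.snd) (g := φ) _
          (chart_hol (chart_mem_atlas C2 (S (z0, 0))) hx0) contMDiffAt_snd
      exact ContMDiffAt.prodMk_space contMDiffAt_fst h1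
    have hθj : ContMDiffAt (IL (Cn ι)) 𝓘(ℂ, Cn κ) ω (θ ∘ j) (z0, S (z0, 0)) :=
      ContMDiffAt.comp _ (hol_iff.2 hθ) hj
    have hu : Tendsto (fun q : Cn ι × X => (q.1, θ (j q))) (𝓝 (z0, S (z0, 0))) (𝓝 (z0, 0)) := by
      have h1 : ContinuousAt (fun q : Cn ι × X => (q.1, θ (j q))) (z0, S (z0, 0)) :=
        continuousAt_fst.prodMk hθj.continuousAt
      have h2 : θ (j (z0, S (z0, 0))) = 0 := hθ0
      have h3 := h1.tendsto
      simp only [h2] at h3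
      exact h3
    have hN0 : N ∈ 𝓝 ((z0, 0) : Cn ι × Cn κ) :=
      mem_nhdsSet_iff_forall.1 hN _ ⟨hz0, rfl⟩
    have e1 := hu.eventually hN0
    have e2 := hu.eventually ((hS z0 hz0).continuousAt.eventually (φ.open_source.mem_nhds hx0))
    have e3 : ∀ᶠ q : Cn ι × X in 𝓝 (z0, S (z0, 0)), q.2 ∈ φ.source :=
      continuousAt_snd.eventually (φ.open_source.mem_nhds hx0)
    have e4 := hj.continuousAt.tendsto.eventually hev
    have e5 : ∀ᶠ q : Cn ι × X in 𝓝 (z0, S (z0, 0)), ‖θ (j q)‖ < η := by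
      have h1 := (continuous_snd.tendsto _).comp hu
      have h2 := (h1.norm).eventually (gt_mem_nhds (by simpa using hη))
      exact h2
    have e6 : ∀ᶠ q : Cn ι × X in 𝓝 (z0, S (z0, 0)),
        ϑ q = θ (j q) ∧ S (q.1, θ (j q)) = q.2 := by
      filter_upwards [e1, e2, e3, e4] with q h1 h2 h3 h4
      have h5 : S (q.1, θ (j q)) = q.2 := φ.injOn h2 h3 h4.1
      exact ⟨hϑ q _ h1 h5 h4.2, h5⟩
    have e7 : ContMDiffAt (IL (Cn ι)) 𝓘(ℂ, Cn κ) ω ϑ (z0, S (z0, 0)) :=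
      hθj.congr_of_eventuallyEq (e6.mono fun q h => h.1)
    have e8 := (contMDiffAt_iff_contMDiffAt_nhds (by simp)).1 e7
    filter_upwards [e5, e6, e8] with q h5 h6 h8
    exact ⟨h8, by rw [h6.1]; exact h6.2, by rw [h6.1]; exact h5⟩
  obtain ⟨δ, hδ, hW⟩ := tube hK (g := fun z => S (z, 0)) (fun z hz =>
    ContinuousAt.comp (f := fun z : Cn ι => ((z, 0) : Cn ι × Cn κ)) (hS z hz).continuousAt
      (continuousAt_id.prodMk continuousAt_const)) key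
  refine ⟨δ, hδ, fun g hg hd => ⟨fun z => ϑ (z, g z), fun z hz => ?_, fun z hz => ?_⟩⟩
  · have h1 := (hW z hz (g z) (hd z hz)).1
    have h2 : ContMDiffAt 𝓘(ℂ, Cn ι) (IL (Cn ι)) ω (fun z => (z, g z)) z :=
      contMDiffAt_id.prodMk (hg z hz)
    exact hol_iff.1 (ContMDiffAt.comp (g := ϑ) (f := fun z => (z, g z)) z h1 h2)
  · have h1 := (hW z hz (g z) (hd z hz)).2
    exact ⟨h1.2, h1.1⟩

end

end Vale.Agent.P290
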