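import Vale.Agent.P290.Sol3

/-!
P290 Sol4 (second part of Sol3; the plan covers both parts). Helper lemma names start with sol4_.
solve_pi: P from sol2; at z0 ∈ K apply sol1 to s = φ ∘ S, φ = chartAt (S (z0, 0)). Θ q = (q.1, S q, q.2 - P q.1 q.2) is injective on K ×ˢ {0},
continuous there and locally injective, so injective on a neighbourhood 𝒩 of K ×ˢ {0} (`Set.InjOn.exists_mem_nhdsSet`). Define
ϑ (z, x) = the t with (z, t) ∈ 𝒩, S (z, t) = x, P z t = t if it exists. Near (z0, S (z0, 0)) it equals θ (z, φ x) (φ injective on its source).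
So W = {q | ContMDiffAt (IL _) _ ω ϑ q ∧ S (q.1, ϑ q) = q.2 ∧ ‖ϑ q‖ < η} is a neighbourhood of each (z0, S (z0, 0))
(`contMDiffAt_iff_contMDiffAt_nhds`); tube gives δ; τ z = ϑ (z, g z), hol_iff.
solve: e : Cn (Fin n) ≃L T (`ContinuousLinearEquiv.ofFinrankEq`), S' (z, t) = S (z, e t), τ = e ∘ τ'.
-/

namespace Vale.Agent.P290

open scoped Manifold ContDiff Topology LinearAlgebra.Projectivization
open Set Filter Metric Function

noncomputable section

variable {X : Type*} [MetricSpace X] [ChartedSpace C2 X] [IsManifold 𝓘(ℂ, C2) ω X]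
  {ι : Type} [Fintype ι]

theorem solve (σ : TwoForm X) {T : Type} [NormedAddCommGroup T] [NormedSpace ℂ T]
    [FiniteDimensional ℂ T] {K : Set (Cn ι)} (hK : IsCompact K)
    (hc : Convex ℝ K) {S : Cn ι × T → X} (hS : ∀ z ∈ K, Hol (Cn ι × T) C2 S (z, 0))
    (hs : ∀ z ∈ K, Surjective (md T C2 (fun t => S (z, t)) 0)) {η : ℝ} (hη : 0 < η) :
    ∃ δ : ℝ, 0 < δ ∧ ∀ g : Cn ι → X, HolOn g K → (∀ z ∈ K, dist (g z) (S (z, 0)) < δ) →
      ∃ τ : Cn ι → T, AnalyticOnNhd ℂ τ K ∧ ∀ z ∈ K, ‖τ z‖ < η ∧ S (z, τ z) = g z := by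
  let e : Cn (Fin (Module.finrank ℂ T)) ≃L[ℂ] T := ContinuousLinearEquiv.ofFinrankEq (by simp)
  obtain ⟨η', η0, hη'⟩ := exists_pos_mul_lt hη ‖(e : Cn (Fin (Module.finrank ℂ T)) →L[ℂ] T)‖
  have he : ContMDiff 𝓘(ℂ, Cn (Fin (Module.finrank ℂ T))) 𝓘(ℂ, T) ω e := e.contDiff.contMDiff
  obtain ⟨δ, hδ, H⟩ := solve_pi σ (κ := Fin (Module.finrank ℂ T)) hK hc
    (S := fun q => S (q.1, e q.2)) (fun z hz => by
      have h1 : ContMDiffAt 𝓘(ℂ, Cn ι × Cn (Fin (Module.finrank ℂ T))) 𝓘(ℂ, Cn ι × T) ω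
          (fun q : Cn ι × Cn (Fin (Module.finrank ℂ T)) => (q.1, e q.2)) (z, 0) :=
        (contDiff_fst.prodMk (e.contDiff.comp contDiff_snd)).contMDiff.contMDiffAt
      exact ContMDiffAt.comp_of_eq (g := S) (hS z hz) h1 (by simp))
    (fun z hz => by
      have h1 : ContMDiffAt 𝓘(ℂ, T) 𝓘(ℂ, Cn ι × T) ω (fun t : T => (z, t)) 0 :=
        (contDiff_const.prodMk contDiff_id).contMDiff.contMDiffAt
      have h2 : ContMDiffAt 𝓘(ℂ, T) 𝓘(ℂ, C2) ω (fun t => S (z, t)) 0 :=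
        ContMDiffAt.comp (g := S) 0 (hS z hz) h1
      have h3 := mfderiv_comp_of_eq (g := fun t => S (z, t)) (f := e) (x := 0) (y := 0)
        (h2.mdifferentiableAt (by simp)) (he.contMDiffAt.mdifferentiableAt (by simp)) (map_zero e)
      intro v
      obtain ⟨t, ht⟩ := hs z hz v
      refine ⟨e.symm t, ?_⟩
      have h4 : mfderiv 𝓘(ℂ, Cn (Fin (Module.finrank ℂ T))) 𝓘(ℂ, T) e 0 (e.symm t) = t := by
        rw [mfderiv_eq_fderiv, e.fderiv]
        exact e.apply_symm_apply t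
      have h5 := DFunLike.congr_fun h3 (e.symm t)
      refine h5.trans ?_
      change md T C2 (fun t => S (z, t)) (e 0)
        (mfderiv 𝓘(ℂ, Cn (Fin (Module.finrank ℂ T))) 𝓘(ℂ, T) e 0 (e.symm t)) = v
      rw [h4, map_zero]
      exact ht) η0
  refine ⟨δ, hδ, fun g hg hd => ?_⟩
  obtain ⟨τ, h1, h2⟩ := H g hg (by simpa using hd)
  refine ⟨fun z => e (τ z), fun z hz => ?_, fun z hz => ⟨?_, (h2 z hz).2⟩⟩
  · exact ((e : Cn (Fin (Module.finrank ℂ T)) →L[ℂ] T).analyticAt _).comp (h1 z hz)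
  · refine lt_of_le_of_lt (((e : Cn (Fin (Module.finrank ℂ T)) →L[ℂ] T).le_opNorm (τ z)).trans ?_) hη'
    exact mul_le_mul_of_nonneg_left (h2 z hz).1.le (norm_nonneg _)

end

end Vale.Agent.P290
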