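import Vale.Agent.P290.Cau

/-!
P290 Spl0 (second part of Cau; the plan covers both parts). Helper lemma names start with spl0_.
cauchy4: if Bx lo hi is empty take zeros. Else the compact box has a closed thickening inside the open set where h is analytic, so for
some ε > 0, h is analytic on Bx (lo - ε) (hi + ε). With a = lo (i,true) - ε, b = hi (i,true) + ε, c = lo (i,false) - ε,
d = hi (i,false) + ε let each piece be (2πI)⁻¹ times the side integral of h (update z i ζ) / (ζ - z i) (signs of rect_cauchy).
Analyticity by an_int with G (z, ζ) = h (update z i ζ) / (ζ - z i) ((z, ζ) ↦ update z i ζ is continuous linear). The identity holds on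
the open box (lo - ε, hi + ε) by rect_cauchy (`update_eq_self`).
split_univ: for k = (i, true) apply cauchy4 to the middle box, q = - pL, p = pR + pB + pT; for k = (i, false), q = - pB, p = the rest.
-/

namespace Vale.Agent.P290

open scoped Manifold ContDiff Topology LinearAlgebra.Projectivization
open Set Filter Metric Function

noncomputable section

variable {ι : Type} [Fintype ι] [DecidableEq ι]

theorem split_univ : Split (univ : Set (Cn ι)) := by
  rintro lo hi ⟨i, t⟩ c - - h hh
  simp only [univ_inter] at hh ⊢
  obtain ⟨pL, pR, pB, pT, e, H⟩ := cauchy4 hh i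
  have ne : ∀ k : ι × Bool, k.1 ≠ i → k ≠ (i, t) := fun k hk e => hk (congrArg Prod.fst e)
  have H1 := fun z (hz : z ∈ Bx lo (update hi (i, t) c)) => H z fun k hk => by
    rw [update_of_ne (ne k hk)]
    exact hz k
  have H2 := fun z (hz : z ∈ Bx (update lo (i, t) c) hi) => H z fun k hk => by
    rw [update_of_ne (ne k hk) c hi]
    exact hz k
  cases t
  · refine ⟨fun z => pL z + pR z + pT z, fun z => -pB z, fun z hz => ?_,
      fun z hz => ((H2 z hz).2.2.1 (hz (i, false)).1).neg, e.mono fun z hz => by rw [hz]; ring⟩
    refine (((H1 z hz).1 ?_).add ((H1 z hz).2.1 (hz (i, true)).2)).add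
      ((H1 z hz).2.2.2 (hz (i, false)).2)
    rw [update_of_ne (by simp)]
    exact (hz (i, true)).1
  · refine ⟨fun z => pR z + pB z + pT z, fun z => -pL z, fun z hz => ?_,
      fun z hz => ((H2 z hz).1 (hz (i, true)).1).neg, e.mono fun z hz => by rw [hz]; ring⟩
    refine (((H1 z hz).2.1 (hz (i, true)).2).add ((H1 z hz).2.2.1 ?_)).add
      ((H1 z hz).2.2.2 (hz (i, false)).2)
    rw [update_of_ne (by simp)]
    exact (hz (i, false)).1

end

end Vale.Agent.P290
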