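import Vale.Agent.P290.Ext
import Vale.Agent.P290.Spl0

/-!
P290 Spl. Helper lemma names start with spl_.
Induction on the length n of L, for all index types. n = 0: Pol [] = univ, split_univ. L = (ℓ, b) :: L0: in Option ι let
L' = L0 with every functional composed with the restriction ρ z = z ∘ some (same length), Γ z = fun o => o.elim (ℓ z) z the graph map
(continuous linear). Choose R with ‖ℓ z‖ ≤ R on Bx lo hi. Extend lo by -R at (none, _), hi by b at (none, true) and R at (none, false):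
lo', hi'. With k' = (some k.1, k.2): ext_oka on Pol L' ∩ Bx (update lo' k' c) (update hi' k' c) gives F, the induction hypothesis splits
F = P - Q, and p = P ∘ Γ, q = Q ∘ Γ. Γ maps Pol L ∩ (sub-box) into Pol L' ∩ (extended sub-box); pull eventual statements back with
`Continuous.tendsto_nhdsSet`.
-/

namespace Vale.Agent.P290

open scoped Manifold ContDiff Topology LinearAlgebra.Projectivization
open Set Filter Metric Function

noncomputable section

/-- Extension of box bounds to one more coordinate. -/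
def spl_ext {ι : Type} (r : Bool → ℝ) (lo : ι × Bool → ℝ) : Option ι × Bool → ℝ :=
  fun k => k.1.elim (r k.2) fun i => lo (i, k.2)

theorem spl_upd {ι : Type} [DecidableEq ι] (r : Bool → ℝ) (lo : ι × Bool → ℝ) (k : ι × Bool)
    (c : ℝ) : update (spl_ext r lo) (some k.1, k.2) c = spl_ext r (update lo k c) := by
  funext ⟨o, t⟩
  rcases o with _ | i
  · rw [update_of_ne (by simp)]
    rfl
  · by_cases h : (i, t) = k
    · subst h
      simp [spl_ext]
    · rw [update_of_ne fun e => h (Prod.ext (Option.some.inj (Prod.mk.inj e).1) (Prod.mk.inj e).2)]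
      exact (update_of_ne h _ _).symm

theorem spl_mem {ι : Type} {r s : Bool → ℝ} {lo hi : ι × Bool → ℝ} {w : Cn (Option ι)} :
    w ∈ Bx (spl_ext r lo) (spl_ext s hi) ↔
      (∀ t, r t ≤ xc (none, t) w ∧ xc (none, t) w ≤ s t) ∧ (fun i => w (some i)) ∈ Bx lo hi :=
  ⟨fun h => ⟨fun t => h (none, t), fun k => h (some k.1, k.2)⟩, fun h ⟨o, t⟩ => by
    rcases o with _ | i
    · exact h.1 t
    · exact h.2 (i, t)⟩

theorem split_len (n : ℕ) : ∀ (ι : Type) [Fintype ι] [DecidableEq ι]
    (L : List ((Cn ι →L[ℂ] ℂ) × ℝ)), L.length = n → Split (Pol L) := by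
  induction n with
  | zero =>
    intro ι _ _ L hL
    obtain rfl := List.length_eq_zero_iff.1 hL
    rw [show Pol ([] : List ((Cn ι →L[ℂ] ℂ) × ℝ)) = univ from eq_univ_of_forall fun z c hc => by
      simp at hc]
    exact split_univ
  | succ n ih =>
    intro ι _ _ L hL lo hi k c h1 h2 h hh
    rcases L with _ | ⟨⟨ℓ, b⟩, L⟩
    · simp at hL
    let ρ : Cn (Option ι) →L[ℂ] Cn ι :=
      ContinuousLinearMap.pi fun i => ContinuousLinearMap.proj (some i)
    let Γ : Cn ι →L[ℂ] Cn (Option ι) :=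
      ContinuousLinearMap.pi fun o => o.elim ℓ fun i => ContinuousLinearMap.proj i
    let L' := L.map fun c => (c.1.comp ρ, c.2)
    have hS : Split (Pol L') := ih (Option ι) L' (by simpa [L'] using hL)
    have hP : ∀ w, w ∈ Pol L' ↔ (fun i => w (some i)) ∈ Pol L := fun w => List.forall_mem_map
    obtain ⟨R, hR⟩ := (isCompact_Bx lo hi).exists_bound_of_continuousOn ℓ.continuous.continuousOn
    have hm : ∀ lo' hi', Bx lo' hi' ⊆ Bx lo hi → MapsTo Γ (Pol ((ℓ, b) :: L) ∩ Bx lo' hi')
        (Pol L' ∩ Bx (spl_ext (fun _ => -R) lo') (spl_ext (fun t => cond t b R) hi')) := by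
      intro lo' hi' hs z hz
      have a := hR z (hs hz.2)
      obtain ⟨a1, a2⟩ := List.forall_mem_cons.1 hz.1
      refine ⟨(hP _).2 a2, spl_mem.2 ⟨fun t => ?_, hz.2⟩⟩
      cases t
      · exact abs_le.1 ((Complex.abs_im_le_norm (ℓ z)).trans a)
      · exact ⟨(abs_le.1 ((Complex.abs_re_le_norm (ℓ z)).trans a)).1, a1⟩
    have s1 : Bx lo (update hi k c) ⊆ Bx lo hi := Bx_union h1 h2 ▸ subset_union_left
    have s2 : Bx (update lo k c) hi ⊆ Bx lo hi := Bx_union h1 h2 ▸ subset_union_right
    have s3 : Bx (update lo k c) (update hi k c) ⊆ Bx lo hi :=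
      (Bx_inter h1 h2 ▸ inter_subset_left : _ ⊆ Bx lo (update hi k c)).trans s1
    obtain ⟨F, F1, F2⟩ := ext_oka (isClosed_Pol L') hS ℓ (spl_ext (fun _ => -R) (update lo k c))
      (spl_ext (fun t => cond t b R) (update hi k c)) (f := h) (fun z hz e => by
        obtain ⟨a1, a2⟩ := spl_mem.1 hz.2
        exact hh _ ⟨List.forall_mem_cons.2 ⟨e ▸ (a1 true).2, (hP z).1 hz.1⟩, a2⟩)
    have key := hS (spl_ext (fun _ => -R) lo) (spl_ext (fun t => cond t b R) hi) (some k.1, k.2) c
      h1 h2 F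
    rw [spl_upd, spl_upd] at key
    obtain ⟨p, q, p1, q1, e⟩ := key F1
    refine ⟨p ∘ Γ, q ∘ Γ, p1.comp (Γ.analyticOnNhd _) (hm _ _ s1),
      q1.comp (Γ.analyticOnNhd _) (hm _ _ s2), ?_⟩
    filter_upwards [(Γ.continuous.tendsto_nhdsSet (hm _ _ s3)).eventually (F2.and e)] with z hz
    exact (hz.1 rfl).symm.trans hz.2

end

end Vale.Agent.P290
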