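import Vale.Agent.P290.Nrm
import Vale.Agent.P290.Lift

/-!
P290 Step. Helper lemma names start with step_.
α from exists_alpha. G (z, (x, s)) = Φ x (nrm π (α z) x) s is continuous at (z, (f z, τ z)), z ∈ K (nrm_hol, nrm_eq with on_rep, Fl.hol_comp on the
manifold Cn ι × X × ℂ with model I3), and nrm π (α z) (f z) = a z. unif and tube give η with: dist < η implies G moves less than ε and
α z ⬝ᵥ rep ≠ 0. Take F' holomorphic near Q within η of f, A a lift of π ∘ F' near Q (lift_comp), c z = α z ⬝ᵥ A z ≠ 0 on K, B a bound of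
‖c‖ ^ 2 on K, θ entire with ‖θ - τ / c ^ 2‖ < η / (B + 1) on K (runge). Φ (F' z) (A z) (θ z) = Φ (F' z) (nrm) (c ^ 2 θ) (Fl.smul,
A z = c • nrm) and ‖c ^ 2 θ - τ‖ < η.
-/

namespace Vale.Agent.P290

open scoped Manifold ContDiff Topology LinearAlgebra.Projectivization
open Set Filter Metric Function

noncomputable section

variable {X : Type*} [MetricSpace X] [ChartedSpace C2 X] [IsManifold 𝓘(ℂ, C2) ω X]
  {ι : Type} [Fintype ι]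

theorem step_dot {p : P1} {β e : C2} (he : On p e) : β ⬝ᵥ e ≠ 0 ↔ β ⬝ᵥ p.rep ≠ 0 := by
  obtain ⟨c, hc, h⟩ := he.exists_smul (on_rep p)
  rw [h, dotProduct_smul, smul_eq_mul, mul_ne_zero_iff]
  exact and_iff_right hc

theorem step_loc {σ : TwoForm X} {π : X → P1} (hπ : HolP π) (F : Fl σ π) {α : Cn ι → C2}
    {z : Cn ι} {x : X} (s : ℂ) (hα : AnalyticAt ℂ α z) (h : α z ⬝ᵥ (π x).rep ≠ 0) :
    ContinuousAt (fun q : Cn ι × X × ℂ => F.Φ q.2.1 (nrm π (α q.1) q.2.1) q.2.2) (z, x, s) ∧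
      ∀ᶠ q : Cn ι × X × ℂ in 𝓝 (z, x, s), α q.1 ⬝ᵥ (π q.2.1).rep ≠ 0 := by
  have h0 : ContMDiffAt 𝓘(ℂ, Cn ι) 𝓘(ℂ, C2) ω α z := hol_iff.2 hα
  have h1 : ContMDiffAt (I3 (Cn ι) ℂ) 𝓘(ℂ, C2) ω (fun q : Cn ι × X × ℂ => α q.1) (z, x, s) :=
    ContMDiffAt.comp (z, x, s) (g := α) (f := Prod.fst) h0 contMDiffAt_fst
  have h2 : ContMDiffAt (I3 (Cn ι) ℂ) 𝓘(ℂ, C2) ω (fun q : Cn ι × X × ℂ => q.2.1) (z, x, s) :=
    contMDiffAt_snd.fst
  have h3 : ContMDiffAt (I3 (Cn ι) ℂ) 𝓘(ℂ, ℂ) ω (fun q : Cn ι × X × ℂ => q.2.2) (z, x, s) :=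
    contMDiffAt_snd.snd
  obtain ⟨h4, h5⟩ := nrm_hol hπ h1 h2 h
  refine ⟨(F.hol_comp h2 h4 h3 ?_).continuousAt, h5⟩
  filter_upwards [h5] with q hq
  exact (nrm_eq (on_rep _) hq).2

theorem step_dotan {K : Set (Cn ι)} {α A : Cn ι → C2} (hα : AnalyticOnNhd ℂ α K)
    (hA : AnalyticOnNhd ℂ A K) : AnalyticOnNhd ℂ (fun z => α z ⬝ᵥ A z) K := by
  intro z hz
  have h1 := analyticAt_pi_iff.1 (hα z hz)
  have h2 := analyticAt_pi_iff.1 (hA z hz)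
  exact Finset.analyticAt_fun_sum _ fun i _ => (h1 i).mul (h2 i)

theorem step {σ : TwoForm X} {π : X → P1} (hπ : HolP π) (F : Fl σ π) {K Q : Set (Cn ι)}
    (hK : IsCompact K) (hc : Convex ℝ K) (hQ : IsCompact Q) (hcQ : Convex ℝ Q) (hKQ : K ⊆ Q)
    {f : Cn ι → X} (hf : HolOn f K) {a : Cn ι → C2} (ha : LiftOn (fun z => π (f z)) a K)
    {τ : Cn ι → ℂ} (hτ : AnalyticOnNhd ℂ τ K) (h : Appr K Q f) :
    Appr K Q fun z => F.Φ (f z) (a z) (τ z) := by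
  intro ε hε
  obtain ⟨α, hα, hαa⟩ := exists_alpha hK hc ha
  have h1 : ∀ z ∈ K, α z ⬝ᵥ a z = 1 := fun z hz => hαa.self_of_nhdsSet z hz
  have h1' : ∀ z ∈ K, α z ⬝ᵥ a z ≠ 0 := fun z hz => by
    rw [h1 z hz]
    exact one_ne_zero
  have hon : ∀ z ∈ K, On (π (f z)) (a z) := fun z hz => ha.2.self_of_nhdsSet z hz
  have hn : ∀ z ∈ K, nrm π (α z) (f z) = a z := fun z hz => by
    rw [(nrm_eq (hon z hz) (h1' z hz)).1, h1 z hz, inv_one, one_smul]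
  have hloc := fun z hz => step_loc hπ F (τ z) (hα z hz) ((step_dot (hon z hz)).1 (h1' z hz))
  have hg : ∀ z ∈ K, ContinuousAt (fun z => (f z, τ z)) z := fun z hz =>
    (ContMDiffAt.continuousAt (hf z hz)).prodMk (hτ z hz).continuousAt
  obtain ⟨η₁, hη₁, hu⟩ := unif hK hg (fun z hz => (hloc z hz).1) hε
  obtain ⟨η₂, hη₂, ht⟩ := tube hK hg (fun z hz => (hloc z hz).2)
  have hη : 0 < min η₁ η₂ := lt_min hη₁ hη₂
  obtain ⟨F', hF, hd⟩ := h _ hη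
  obtain ⟨A, hA⟩ := lift_comp hπ hQ hcQ hF
  have hAon : ∀ z ∈ Q, On (π (F' z)) (A z) := fun z hz => hA.2.self_of_nhdsSet z hz
  have hc0 : ∀ z ∈ K, α z ⬝ᵥ A z ≠ 0 := fun z hz => by
    refine (step_dot (hAon z (hKQ hz))).2 (ht z hz (F' z, τ z) ?_)
    rw [Prod.dist_eq, dist_self]
    exact max_lt ((hd z hz).trans_le (min_le_right _ _)) hη₂
  have hca : AnalyticOnNhd ℂ (fun z => (α z ⬝ᵥ A z) ^ 2) K :=
    (step_dotan hα (hA.1.mono hKQ)).fun_pow 2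
  obtain ⟨B, hB⟩ := hK.exists_bound_of_continuousOn hca.continuousOn
  have hB1 : 0 < |B| + 1 := by positivity
  obtain ⟨θ, hθ, hθd⟩ := runge hK hc (f := fun z => τ z / (α z ⬝ᵥ A z) ^ 2)
    (fun z hz => (hτ z hz).fun_div (hca z hz) (pow_ne_zero 2 (hc0 z hz))) (div_pos hη₁ hB1)
  refine ⟨fun z => F.Φ (F' z) (A z) (θ z), fun z hz => ?_, fun z hz => ?_⟩
  · exact F.hol_comp (hF z hz) (hol_iff.2 (hA.1 z hz)) (hol_iff.2 (hθ z (mem_univ z)))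
      (hA.2.filter_mono (nhds_le_nhdsSet hz))
  · obtain ⟨e1, e2⟩ := nrm_eq (hAon z (hKQ hz)) (hc0 z hz)
    have e3 : A z = (α z ⬝ᵥ A z) • nrm π (α z) (F' z) := by
      rw [e1, smul_inv_smul₀ (hc0 z hz)]
    have e4 : F.Φ (F' z) (A z) (θ z) =
        F.Φ (F' z) (nrm π (α z) (F' z)) ((α z ⬝ᵥ A z) ^ 2 * θ z) := by
      rw [← F.smul _ _ e2 (hc0 z hz), ← e3]
    have e5 : dist ((α z ⬝ᵥ A z) ^ 2 * θ z) (τ z) < η₁ := by
      have e6 : (α z ⬝ᵥ A z) ^ 2 * θ z - τ z =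
          (α z ⬝ᵥ A z) ^ 2 * (θ z - τ z / (α z ⬝ᵥ A z) ^ 2) := by
        rw [mul_sub, mul_div_cancel₀ _ (pow_ne_zero 2 (hc0 z hz))]
      have e7 := (lt_div_iff₀ hB1).1 (hθd z hz)
      have e8 : ‖(α z ⬝ᵥ A z) ^ 2‖ ≤ |B| + 1 := by
        linarith [hB z hz, le_abs_self B]
      rw [dist_eq_norm, e6, norm_mul, mul_comm]
      exact (mul_le_mul_of_nonneg_left e8 (norm_nonneg _)).trans_lt e7
    have e9 := hu z hz (F' z, (α z ⬝ᵥ A z) ^ 2 * θ z) (by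
      rw [Prod.dist_eq]
      exact max_lt ((hd z hz).trans_le (min_le_left _ _)) e5)
    simp only [hn z hz] at e9
    simp only [e4]
    exact e9

end

end Vale.Agent.P290
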