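import Mathlib

/-! P290: definitions for the statement. FROZEN. -/

namespace Vale.Agent.P290

open scoped Manifold ContDiff Topology LinearAlgebra.Projectivization
open Set Filter

abbrev C2 : Type := Fin 2 → ℂ
abbrev P1 : Type := ℙ ℂ C2

/-- A nowhere vanishing holomorphic 2-form on a complex surface. -/
structure TwoForm (X : Type*) [TopologicalSpace X] [ChartedSpace C2 X] where
  σ : X → C2 →L[ℂ] C2 →L[ℂ] ℂ
  alt : ∀ x v, σ x v v = 0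
  ne : ∀ x, σ x ≠ 0
  hol : ∀ φ ∈ atlas C2 X, ∀ v w : C2, DifferentiableOn ℂ (fun y => σ (φ.symm y)
    (mfderiv 𝓘(ℂ, C2) 𝓘(ℂ, C2) φ.symm y v) (mfderiv 𝓘(ℂ, C2) 𝓘(ℂ, C2) φ.symm y w)) φ.target

section

variable {X : Type*} [TopologicalSpace X] [ChartedSpace C2 X]

/-- Near `x`, `π = [a₀ : a₁]` with `a` holomorphic and nonzero. -/
def IsLift (π : X → P1) (a : X → C2) (x : X) : Prop :=
  ∀ᶠ y in 𝓝 x, MDifferentiableAt 𝓘(ℂ, C2) 𝓘(ℂ, C2) a y ∧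
    ∃ h : a y ≠ 0, π y = Projectivization.mk ℂ (a y) h

/-- `π` is a holomorphic map to the projective line. -/
def HolP (π : X → P1) : Prop := ∀ x, ∃ a, IsLift π a x

/-- The differential of `π` at `x` is not zero. -/
def RegP (π : X → P1) (x : X) : Prop :=
  ∃ a, IsLift π a x ∧ ∃ w : C2, ∀ c : ℂ, mfderiv 𝓘(ℂ, C2) 𝓘(ℂ, C2) a x w ≠ c • a x

end

/-- The convex approximation property. -/
def Oka (X : Type*) [MetricSpace X] [ChartedSpace C2 X] : Prop :=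
  ∀ (m : ℕ) (K U : Set (Fin m → ℂ)), K.Nonempty → IsCompact K → Convex ℝ K → IsOpen U → K ⊆ U →
    ∀ f : (Fin m → ℂ) → X, MDifferentiableOn 𝓘(ℂ, Fin m → ℂ) 𝓘(ℂ, C2) f U → ∀ ε : ℝ, 0 < ε →
      ∃ F : (Fin m → ℂ) → X, MDifferentiable 𝓘(ℂ, Fin m → ℂ) 𝓘(ℂ, C2) F ∧
        ∀ z ∈ K, dist (F z) (f z) < ε

end Vale.Agent.P290
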