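import Vale.Agent.P290.Defs

/-!
P290 Top. Helper lemma names start with top_.
glue: W open nbhd of A ∩ B on which u = v; separate the disjoint compacts A \ W, B \ W by disjoint opens O1, O2
(`SeparatedNhds.of_isCompact_isCompact`); w = u on W ∪ O1, v elsewhere; on W ∪ O2 it equals v.
tube: `generalized_tube_lemma` or `IsCompact.induction_on`; near z0 take a product nbhd U × ball (g z0) (2r) ⊆ W and use
continuity of g. unif: tube with W = {q | dist (G q) (G (q.1, g q.1)) < ε}.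
-/

namespace Vale.Agent.P290

open scoped Manifold ContDiff Topology LinearAlgebra.Projectivization
open Set Filter Metric Function

noncomputable section

theorem an_congr {D F : Type*} [NormedAddCommGroup D] [NormedSpace ℂ D] [NormedAddCommGroup F]
    [NormedSpace ℂ F] {u w : D → F} {A : Set D} (h : w =ᶠ[𝓝ˢ A] u) (hu : AnalyticOnNhd ℂ u A) :
    AnalyticOnNhd ℂ w A := by
  exact fun z hz => (hu z hz).congr (h.filter_mono (nhds_le_nhdsSet hz)).symm

theorem glue {D Y : Type*} [TopologicalSpace D] [T2Space D] {A B : Set D} (hA : IsCompact A)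
    (hB : IsCompact B) {u v : D → Y} (h : u =ᶠ[𝓝ˢ (A ∩ B)] v) :
    ∃ w : D → Y, w =ᶠ[𝓝ˢ A] u ∧ w =ᶠ[𝓝ˢ B] v := by
  classical
  obtain ⟨W, hW, hAW, huv⟩ := eventually_nhdsSet_iff_exists.1 h
  obtain ⟨O, O', hO, hO', h1, h2, hd⟩ := SeparatedNhds.of_isCompact_isCompact (hA.diff hW)
    (hB.diff hW) (Set.disjoint_left.2 fun z hz hz' => hz.2 (hAW ⟨hz.1, hz'.1⟩))
  refine ⟨fun z => if z ∈ O then u z else v z, ?_, ?_⟩
  · refine eventually_nhdsSet_iff_exists.2 ⟨W ∪ O, hW.union hO, fun z hz => ?_, fun z hz => ?_⟩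
    · exact (em (z ∈ W)).imp id fun hn => h1 ⟨hz, hn⟩
    · by_cases hz' : z ∈ O
      · exact if_pos hz'
      · exact (if_neg hz').trans (huv z (hz.resolve_right hz')).symm
  · refine eventually_nhdsSet_iff_exists.2 ⟨W ∪ O', hW.union hO', fun z hz => ?_, fun z hz => ?_⟩
    · exact (em (z ∈ W)).imp id fun hn => h2 ⟨hz, hn⟩
    · by_cases hz' : z ∈ O
      · exact (if_pos hz').trans (huv z (hz.resolve_right (Set.disjoint_left.1 hd hz')))
      · exact if_neg hz'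

theorem tube {D B : Type*} [TopologicalSpace D] [PseudoMetricSpace B] {K : Set D}
    (hK : IsCompact K) {g : D → B} (hg : ∀ z ∈ K, ContinuousAt g z) {W : Set (D × B)}
    (hW : ∀ z ∈ K, W ∈ 𝓝 (z, g z)) :
    ∃ δ : ℝ, 0 < δ ∧ ∀ z ∈ K, ∀ b, dist b (g z) < δ → (z, b) ∈ W := by
  refine hK.induction_on
    (p := fun s => ∃ δ : ℝ, 0 < δ ∧ ∀ z ∈ s, ∀ b, dist b (g z) < δ → (z, b) ∈ W)
    ⟨1, one_pos, fun z hz => hz.elim⟩ (fun s t hst ⟨δ, hδ, h⟩ => ⟨δ, hδ, fun z hz => h z (hst hz)⟩)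
    (fun s t ⟨δ, hδ, h⟩ ⟨η, hη, h'⟩ => ⟨min δ η, lt_min hδ hη, fun z hz b hb =>
      hz.elim (fun hz => h z hz b (hb.trans_le (min_le_left _ _)))
        fun hz => h' z hz b (hb.trans_le (min_le_right _ _))⟩) fun z hz => ?_
  obtain ⟨U, hU, V, hV, hUV⟩ := mem_nhds_prod_iff.1 (hW z hz)
  obtain ⟨r, hr, hrV⟩ := Metric.mem_nhds_iff.1 hV
  refine ⟨U ∩ g ⁻¹' ball (g z) (r / 2), mem_nhdsWithin_of_mem_nhds
    (inter_mem hU (hg z hz (ball_mem_nhds _ (half_pos hr)))), r / 2, half_pos hr,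
    fun y hy b hb => hUV ⟨hy.1, hrV ?_⟩⟩
  have h1 : dist (g y) (g z) < r / 2 := hy.2
  have h2 := dist_triangle b (g y) (g z)
  exact mem_ball.2 (by linarith)

theorem unif {D B Y : Type*} [TopologicalSpace D] [PseudoMetricSpace B] [PseudoMetricSpace Y]
    {K : Set D} (hK : IsCompact K) {g : D → B} (hg : ∀ z ∈ K, ContinuousAt g z) {G : D × B → Y}
    (hG : ∀ z ∈ K, ContinuousAt G (z, g z)) {ε : ℝ} (hε : 0 < ε) :
    ∃ δ : ℝ, 0 < δ ∧ ∀ z ∈ K, ∀ b, dist b (g z) < δ → dist (G (z, b)) (G (z, g z)) < ε := by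
  refine tube hK hg (W := {q | dist (G q) (G (q.1, g q.1)) < ε}) fun z hz => ?_
  have h1 : ContinuousAt (fun q : D × B => (q.1, g q.1)) (z, g z) :=
    continuousAt_fst.prodMk ((hg z hz).comp_of_eq continuousAt_fst rfl)
  have h2 : ContinuousAt (fun q : D × B => dist (G q) (G (q.1, g q.1))) (z, g z) :=
    (hG z hz).dist ((hG z hz).comp_of_eq h1 rfl)
  exact h2.eventually_lt continuousAt_const (by simpa using hε)

end

end Vale.Agent.P290
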