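import Vale.Agent.P290.Stmt

/-! P290: definitions for the statement about twists. FROZEN. -/

namespace Vale.Agent.P290

open scoped Manifold ContDiff Topology LinearAlgebra.Projectivization

variable {X X' : Type*} [TopologicalSpace X] [ChartedSpace C2 X] [TopologicalSpace X']
  [ChartedSpace C2 X']

/-- `y` is reached from `x` at time one along the Hamiltonian field of `c log (a₁ / a₀)`,
where `π = [a₀ : a₁]`. -/
def Flows (σ : TwoForm X) (π : X → P1) (c : ℂ) (x y : X) : Prop :=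
  ∃ (γ : ℂ → X) (γ' : ℂ → C2), γ 0 = x ∧ γ 1 = y ∧ ∀ s, π (γ s) = π x ∧
    HasMFDerivAt 𝓘(ℂ, ℂ) 𝓘(ℂ, C2) γ s ((1 : ℂ →L[ℂ] ℂ).smulRight (γ' s) : ℂ →L[ℂ] C2) ∧
    ∀ a, IsLift π a (γ s) → ∀ w u : C2, mfderiv 𝓘(ℂ, C2) 𝓘(ℂ, C2) a (γ s) w = u →
      σ.σ (γ s) (γ' s) w * (a (γ s) 0 * a (γ s) 1) = c * (a (γ s) 0 * u 1 - a (γ s) 1 * u 0)

/-- `π' : X' → ℙ¹` is the twist of `π : X → ℙ¹` by `c`: over each standard affine line the two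
fibrations are biholomorphic, and the two biholomorphisms differ by the time one flow above. -/
structure Twist (σ : TwoForm X) (π : X → P1) (π' : X' → P1) (c : ℂ) where
  ψ : Fin 2 → X' → X
  χ : Fin 2 → X → X'
  hψ : ∀ i x, (π' x).rep i ≠ 0 →
    MDifferentiableAt 𝓘(ℂ, C2) 𝓘(ℂ, C2) (ψ i) x ∧ π (ψ i x) = π' x ∧ χ i (ψ i x) = x
  hχ : ∀ i x, (π x).rep i ≠ 0 →
    MDifferentiableAt 𝓘(ℂ, C2) 𝓘(ℂ, C2) (χ i) x ∧ π' (χ i x) = π x ∧ ψ i (χ i x) = x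
  flow : ∀ x, (π' x).rep 0 ≠ 0 → (π' x).rep 1 ≠ 0 → Flows σ π c (ψ 0 x) (ψ 1 x)

end Vale.Agent.P290
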